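import Vale.Agent.P085.Defs

/-! Part A1 of P085: comparison in a finite factor. -/

namespace Vale.Agent.P085

open scoped InnerProductSpace ComplexOrder ComplexConjugate
open Vale.Agent.P104 Vale.Agent.P104.F Filter Topology

variable {H : Type*} [NormedAddCommGroup H] [InnerProductSpace ℂ H] [CompleteSpace H]
variable {S : Set (H →L[ℂ] H)} {t : Tr (vN S)}

namespace A1

lemma kill (hfac : ∀ c, IsCentral S c → c = 0 ∨ c = 1) {e f : vN S} (pe : IsStarProjection e)
    (h0 : e ≠ 0) (h : ∀ x : vN S, f * x * e = 0) : f = 0 := by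
  obtain ⟨c, hc, h1, h2⟩ := exists_cover e.2 (C.proj_coe' pe)
  have h3 := h2 f fun x hx => congrArg Subtype.val (h ⟨x, hx⟩)
  rcases hfac c hc with rfl | rfl
  · exact absurd (Subtype.ext (by rw [← h1, zero_mul]; rfl)) h0
  · exact Subtype.ext (by rw [mul_one] at h3; exact h3)

lemma cmp (hfac : ∀ c, IsCentral S c → c = 0 ∨ c = 1) {e f : vN S} (pe : IsStarProjection e)
    (pf : IsStarProjection f) : ∃ u : vN S, u * star u * u = u ∧ u * e = u ∧ f * u = u ∧
      (u * star u = f ∨ star u * u = e) := by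
  obtain ⟨u, hu, h1, h2, h3, h4⟩ := exists_max_pi e.2 f.2 (C.proj_coe' pe) (C.proj_coe' pf)
  set v : vN S := ⟨u, hu⟩ with hv
  have k1 : v * star v * v = v := Subtype.ext h1
  have k2 : v * e = v := Subtype.ext h2
  have k3 : f * v = v := Subtype.ext h3
  refine ⟨v, k1, k2, k3, ?_⟩
  by_cases h0 : e - star v * v = 0
  · exact Or.inr (sub_eq_zero.1 h0).symm
  · left
    have pe0 : IsStarProjection (e - star v * v) :=
      C.proj_sub pe (C.proj_src k1) (by rw [mul_assoc, k2])
    have := kill hfac (f := f - v * star v) pe0 h0 fun x => Subtype.ext (h4 x x.2)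
    exact (sub_eq_zero.1 this).symm

lemma eq_zero_of_τ (hf : ∀ x, t.N x = 0 → x = 0) {a : vN S} (ha : 0 ≤ (a : H →L[ℂ] H))
    (h0 : (t.τ a).re = 0) : a = 0 := by
  obtain ⟨b, rfl⟩ := C.sq_of_nonneg ha
  rw [hf b h0, mul_zero]

lemma τ_pos (hf : ∀ x, t.N x = 0 → x = 0) {p : vN S} (hp : IsStarProjection p) (hp0 : p ≠ 0) :
    0 < (t.τ p).re := by
  have h1 : 0 ≤ (p : H →L[ℂ] H) := (C.proj_coe' hp).nonneg
  rcases (t.re_nonneg h1).lt_or_eq with h | h
  · exact h
  · exact absurd (eq_zero_of_τ hf h1 h.symm) hp0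

end A1

theorem cover (t : Tr (vN S)) (h1 : t.τ 1 = 1) (hf : ∀ x, t.N x = 0 → x = 0)
    (hfac : ∀ c, IsCentral S c → c = 0 ∨ c = 1) {p : vN S} (hp : IsStarProjection p)
    (hp0 : p ≠ 0) : ∃ (n : ℕ) (u : Fin n → vN S), (∀ i, u i * p = u i) ∧
      ∑ i, u i * star (u i) = 1 := by
  by_contra hne
  have key : ∀ k : ℕ, ∃ u : Fin k → vN S, (∀ i, u i * p = u i) ∧
      IsStarProjection (1 - ∑ i, u i * star (u i)) ∧
      (t.τ (1 - ∑ i, u i * star (u i))).re = 1 - k * (t.τ p).re := by
    intro k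
    induction k with
    | zero => exact ⟨Fin.elim0, fun i => i.elim0, by simpa using IsStarProjection.one _,
        by simp [h1]⟩
    | succ k ih =>
      obtain ⟨u, a1, a2, a3⟩ := ih
      obtain ⟨v, b1, b2, b3, b4⟩ := A1.cmp hfac hp a2
      have hc : ∀ i : Fin (k + 1), (Fin.cons v u : Fin (k + 1) → vN S) i * p =
          (Fin.cons v u : Fin (k + 1) → vN S) i := fun i => by
        refine Fin.cases ?_ (fun j => ?_) i
        · simpa using b2
        · simpa using a1 j
      have hs : ∑ i, (Fin.cons v u : Fin (k + 1) → vN S) i *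
          star ((Fin.cons v u : Fin (k + 1) → vN S) i) = v * star v + ∑ i, u i * star (u i) := by
        rw [Fin.sum_univ_succ]; simp
      rcases b4 with b4 | b4
      · exact absurd ⟨k + 1, Fin.cons v u, hc, by rw [hs, b4, sub_add_cancel]⟩ hne
      · refine ⟨Fin.cons v u, hc, ?_, ?_⟩
        · rw [hs, add_comm, ← sub_sub]
          refine C.proj_sub a2 (C.proj_rng b1) ?_
          have := congrArg star b3
          rw [star_mul, a2.isSelfAdjoint.star_eq] at this
          rw [mul_assoc, this]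
        · rw [hs, add_comm, ← sub_sub, map_sub, Complex.sub_re, a3, t.comm, b4]
          push_cast; ring
  have hpos := A1.τ_pos hf hp hp0
  obtain ⟨k, hk⟩ := exists_nat_gt (1 / (t.τ p).re)
  obtain ⟨u, -, a2, a3⟩ := key k
  have := t.re_nonneg (C.proj_coe' a2).nonneg
  rw [div_lt_iff₀ hpos] at hk
  linarith

namespace A1

lemma scalar_sa (hf : ∀ x, t.N x = 0 → x = 0) {p : vN S} (hp : IsStarProjection p) (hp0 : p ≠ 0)
    (hmin : ∀ g : vN S, IsStarProjection g → g * p = g → g = 0 ∨ g = p) {y : vN S}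
    (hy : star y = y) (h1 : p * y = y) : ∃ c : ℂ, y = c • p := by
  have hpp : p * p = p := hp.isIdempotentElem
  have hsp : star p = p := hp.isSelfAdjoint
  have h2 : y * p = y := by
    have := congrArg star h1
    rwa [star_mul, hy, hsp] at this
  have hpos := τ_pos hf hp hp0
  set l : ℝ := (t.τ y).re / (t.τ p).re with hl
  have hτ : (t.τ (y - (l : ℂ) • p)).re = 0 := by
    rw [map_sub, map_smul, Complex.sub_re, smul_eq_mul, Complex.re_ofReal_mul, hl,
      div_mul_cancel₀ _ hpos.ne', sub_self]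
  have hya : IsSelfAdjoint (y : H →L[ℂ] H) := congrArg Subtype.val hy
  obtain ⟨r, pr, hc, k1, k2⟩ := exists_spectral hya l
  have hrM : r ∈ vN S := C.mem_vN.2 fun g hg => hc g (C.mem_vN.1 y.2 g hg)
  have hpr : (p : H →L[ℂ] H) * r = r * p :=
    hc p (congrArg Subtype.val (h1.trans h2.symm))
  set R : vN S := ⟨r, hrM⟩ with hR
  have hpR : p * R = R * p := Subtype.ext hpr
  have pR : IsStarProjection R := C.proj_coe pr
  have hg := hmin (p * R) (C.proj_mul hp pR hpR) (by rw [mul_assoc, ← hpR, ← mul_assoc, hpp])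
  refine ⟨l, ?_⟩
  have hsp' : star (p : H →L[ℂ] H) = p := congrArg Subtype.val hsp
  rcases hg with hg | hg
  · have e1 : p * (1 - R) = p := by rw [mul_sub, hg, mul_one, sub_zero]
    have e2 : (1 - R) * p = p := by rw [sub_mul, ← hpR, hg, one_mul, sub_zero]
    have e3 : (l : ℂ) • p - y = p * ((l : ℂ) • (1 - R) - (1 - R) * y * (1 - R)) * p := by
      rw [mul_sub, sub_mul, mul_smul_comm, smul_mul_assoc, e1, hpp, ← mul_assoc, ← mul_assoc, e1,
        h1, mul_assoc, e2, h2]
    have e4 : 0 ≤ (((l : ℂ) • p - y : vN S) : H →L[ℂ] H) := by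
      rw [e3]
      have := star_left_conjugate_nonneg (sub_nonneg.2 k2) (p : H →L[ℂ] H)
      rw [hsp'] at this
      exact this
    have := eq_zero_of_τ hf e4 (by rw [← neg_sub, map_neg, Complex.neg_re, hτ, neg_zero])
    exact (sub_eq_zero.1 this).symm
  · have e2 : R * p = p := by rw [← hpR, hg]
    have e3 : y - (l : ℂ) • p = p * (R * y * R - (l : ℂ) • R) * p := by
      rw [mul_sub, sub_mul, mul_smul_comm, smul_mul_assoc, hg, hpp, ← mul_assoc, ← mul_assoc, hg,
        h1, mul_assoc, e2, h2]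
    have e4 : 0 ≤ ((y - (l : ℂ) • p : vN S) : H →L[ℂ] H) := by
      rw [e3]
      have := star_left_conjugate_nonneg (sub_nonneg.2 k1) (p : H →L[ℂ] H)
      rw [hsp'] at this
      exact this
    exact sub_eq_zero.1 (eq_zero_of_τ hf e4 hτ)

lemma scalar (hf : ∀ x, t.N x = 0 → x = 0) {p : vN S} (hp : IsStarProjection p) (hp0 : p ≠ 0)
    (hmin : ∀ g : vN S, IsStarProjection g → g * p = g → g = 0 ∨ g = p) {y : vN S}
    (h1 : p * y = y) (h2 : y * p = y) : ∃ c : ℂ, y = c • p := by
  have hsp : star p = p := hp.isSelfAdjoint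
  have h3 : p * star y = star y := by
    have := congrArg star h2
    rwa [star_mul, hsp] at this
  obtain ⟨a, ha⟩ := scalar_sa hf hp hp0 hmin (y := y + star y)
    (by rw [star_add, star_star, add_comm]) (by rw [mul_add, h1, h3])
  obtain ⟨b, hb⟩ := scalar_sa hf hp hp0 hmin (y := Complex.I • (y - star y))
    (by rw [star_smul, star_sub, star_star, Complex.star_def, Complex.conj_I,
      neg_smul, ← smul_neg, neg_sub]) (by rw [mul_smul_comm, mul_sub, h1, h3])
  refine ⟨(a - Complex.I * b) / 2, ?_⟩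
  have e : y = (2 : ℂ)⁻¹ • ((y + star y) - Complex.I • (Complex.I • (y - star y))) := by
    rw [smul_smul, Complex.I_mul_I, neg_smul, one_smul, sub_neg_eq_add]
    module
  rw [e, ha, hb]
  module

end A1

theorem na_of (t : Tr (vN S)) (h1 : t.τ 1 = 1) (hf : ∀ x, t.N x = 0 → x = 0)
    (hfac : ∀ c, IsCentral S c → c = 0 ∨ c = 1) (hinf : ¬ FiniteDimensional ℂ (vN S)) :
    NoAbel S 1 := by
  rintro p ⟨hpM, pp, hab⟩ -
  by_contra hp0
  set P : vN S := ⟨p, hpM⟩ with hP
  have pP : IsStarProjection P := C.proj_coe pp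
  have hP0 : P ≠ 0 := fun h => hp0 (congrArg Subtype.val h)
  have hPP : P * P = P := pP.isIdempotentElem
  have hsP : star P = P := pP.isSelfAdjoint
  have hmin : ∀ g : vN S, IsStarProjection g → g * P = g → g = 0 ∨ g = P := by
    intro g pg hg
    have hg' : P * g = g := by
      have := congrArg star hg
      rwa [star_mul, hsP, pg.isSelfAdjoint.star_eq] at this
    by_cases h0 : g = 0
    · exact Or.inl h0
    · right
      have := A1.kill hfac (f := P - g) pg h0 fun x => by
        have e : P * x * P * g * P = P * g * P * x * P := Subtype.ext (hab x x.2 g g.2)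
        rw [mul_assoc _ P g, hg', mul_assoc _ g P, hg] at e
        have e1 : (P - g) * x * g = (P - g) * (P * x * g) := by
          rw [← mul_assoc, ← mul_assoc, sub_mul P g P, hPP, hg]
        rw [e1, e, ← mul_assoc, ← mul_assoc, sub_mul P g g, hg', pg.isIdempotentElem.eq]
        simp
      exact (sub_eq_zero.1 this).symm
  obtain ⟨n, u, hu1, hu2⟩ := cover t h1 hf hfac pP hP0
  apply hinf
  refine ⟨Submodule.fg_def.2 ⟨Set.range fun ij : Fin n × Fin n => u ij.1 * star (u ij.2),
    Set.finite_range _, ?_⟩⟩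
  rw [eq_top_iff]
  intro x _
  have e : x = ∑ i, ∑ j, u i * (star (u i) * x * u j) * star (u j) := by
    conv_lhs => rw [← one_mul x, ← mul_one (1 * x), ← hu2]
    simp only [Finset.sum_mul, Finset.mul_sum, mul_assoc]
    exact Finset.sum_comm
  rw [e]
  refine Submodule.sum_mem _ fun i _ => Submodule.sum_mem _ fun j _ => ?_
  have hs : P * star (u i) = star (u i) := by
    have := congrArg star (hu1 i)
    rwa [star_mul, hsP] at this
  obtain ⟨c, hc⟩ := A1.scalar hf pP hP0 hmin (y := star (u i) * x * u j)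
    (by rw [← mul_assoc, ← mul_assoc, hs]) (by rw [mul_assoc, hu1])
  rw [hc, mul_smul_comm, smul_mul_assoc, hu1]
  exact Submodule.smul_mem _ _ (Submodule.subset_span ⟨(i, j), rfl⟩)

theorem good_ext (h : Good t) {I : Type} [Fintype I] [DecidableEq I] {E : I → I → vN S}
    (hE : MU E 1) : Good (t.comap (inc E)) := by
  have hz : IsCentral S ((1 : vN S) : H →L[ℂ] H) :=
    ⟨one_mem _, IsStarProjection.one _, fun x _ => by simp⟩
  refine ⟨by rw [Tr.comap_τ, map_one, h.one], fun x hx => ?_, ?_, fun c hc => ?_,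
    hE.noAbel h.na⟩
  · rw [Tr.comap_N] at hx
    have := congrArg Subtype.val (h.faith _ hx)
    exact Subtype.ext this
  · obtain ⟨n, ξ, η, hv⟩ := h.vec
    exact ⟨n, ξ, η, fun x => hv (inc E x)⟩
  · exact h.fac _ (hE.central_of hz (c := ⟨c, hc.1⟩) hc (mul_one _))

end Vale.Agent.P085
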