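import Vale.Agent.P085.Defs

/-! Consequences of normality of the trace. -/

namespace Vale.Agent.P085

open scoped InnerProductSpace ComplexOrder ComplexConjugate
open Vale.Agent.P104 Vale.Agent.P104.F Filter Topology

variable {H : Type*} [NormedAddCommGroup H] [InnerProductSpace ℂ H] [CompleteSpace H]
variable {S : Set (H →L[ℂ] H)} {t : Tr (vN S)}

namespace N

lemma wlim (h : Good t) {J : Type*} (U : Ultrafilter J) (q : J → vN S) {C : ℝ} (hC : 0 ≤ C)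
    (hq : ∀ j, ‖q j‖ ≤ C) : ∃ T : vN S, ‖T‖ ≤ C ∧
      (∀ ζ η, Tendsto (fun j => ⟪η, (q j : H →L[ℂ] H) ζ⟫_ℂ) U (𝓝 ⟪η, (T : H →L[ℂ] H) ζ⟫_ℂ)) ∧
      ∀ a : vN S, Tendsto (fun j => t.τ (a * q j)) U (𝓝 (t.τ (a * T))) := by
  have hb : ∀ j ζ η, ‖⟪(q j : H →L[ℂ] H) ζ, η⟫_ℂ‖ ≤ C * ‖ζ‖ * ‖η‖ := fun j ζ η =>
    (norm_inner_le_norm _ _).trans (mul_le_mul_of_nonneg_right
      (((q j : H →L[ℂ] H).le_opNorm ζ).trans (mul_le_mul_of_nonneg_right (hq j) (norm_nonneg _)))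
      (norm_nonneg _))
  obtain ⟨T, hT⟩ := PI.weak_limit U (fun j => (q j : H →L[ℂ] H)) hb
  have hT' : ∀ ζ η, Tendsto (fun j => ⟪η, (q j : H →L[ℂ] H) ζ⟫_ℂ) U (𝓝 ⟪η, T ζ⟫_ℂ) :=
    fun ζ η => by
      simpa only [Function.comp_def, inner_conj_symm] using
        (Complex.continuous_conj.tendsto _).comp (hT ζ η)
  have hc : ∀ g : H →L[ℂ] H, (∀ j, g * q j = q j * g) → g * T = T * g := fun g hg => by
    ext ζ
    refine ext_inner_left ℂ fun η => ?_
    refine tendsto_nhds_unique ?_ (hT' (g ζ) η)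
    have := hT' ζ (ContinuousLinearMap.adjoint g η)
    simp only [ContinuousLinearMap.adjoint_inner_left] at this
    refine this.congr fun j => ?_
    change ⟪η, (g * q j) ζ⟫_ℂ = _
    rw [hg j]; rfl
  have hm : T ∈ vN S := mem_vN.2 fun g hg =>
    ⟨hc g fun j => (mem_vN.1 (q j).2 g hg).1, hc _ fun j => (mem_vN.1 (q j).2 g hg).2⟩
  refine ⟨⟨T, hm⟩, ?_, hT', fun a => ?_⟩
  · refine T.opNorm_le_bound hC fun ζ => ?_
    have h1 := le_of_tendsto' (hT ζ (T ζ)).norm fun j => hb j ζ (T ζ)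
    rw [inner_self_eq_norm_sq_to_K] at h1
    simp only [norm_pow, RCLike.norm_ofReal, abs_norm] at h1
    rcases (norm_nonneg (T ζ)).eq_or_lt with h0 | h0
    · rw [← h0]; positivity
    · nlinarith
  · obtain ⟨n, ξ, η, hv⟩ := h.vec
    simp only [hv]
    refine tendsto_finsetSum _ fun i _ => ?_
    have := hT' (ξ i) (ContinuousLinearMap.adjoint (a : H →L[ℂ] H) (η i))
    simp only [ContinuousLinearMap.adjoint_inner_left] at this
    exact this

lemma strong (h : Good t) {J : Type*} (U : Ultrafilter J) (w : J → vN S) {C : ℝ}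
    (hw : ∀ j, ‖w j‖ ≤ C) (h0 : Tendsto (fun j => t.N (w j)) U (𝓝 0)) (ζ : H) :
    Tendsto (fun j => (w j : H →L[ℂ] H) ζ) U (𝓝 0) := by
  obtain ⟨T, -, h2, h3⟩ := wlim h U (fun j => star (w j) * w j) (sq_nonneg C) fun j => by
    rw [CStarRing.norm_star_mul_self, ← sq]
    exact pow_le_pow_left₀ (norm_nonneg _) (hw j) 2
  have e : ∀ j ζ, ⟪ζ, ((star (w j) * w j : vN S) : H →L[ℂ] H) ζ⟫_ℂ =
      ((‖(w j : H →L[ℂ] H) ζ‖ ^ 2 : ℝ) : ℂ) := fun j ζ => by
    change ⟪ζ, ContinuousLinearMap.adjoint (w j : H →L[ℂ] H) ((w j : H →L[ℂ] H) ζ)⟫_ℂ = _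
    rw [ContinuousLinearMap.adjoint_inner_right, inner_self_eq_norm_sq_to_K]
    simp
  have hT : 0 ≤ (T : H →L[ℂ] H) := by
    rw [ContinuousLinearMap.nonneg_iff_isPositive, ContinuousLinearMap.isPositive_iff_complex]
    intro x
    have h4 : 0 ≤ ⟪x, (T : H →L[ℂ] H) x⟫_ℂ := ge_of_tendsto' (h2 x x) fun j => by
      rw [e]; exact Complex.zero_le_real.2 (sq_nonneg _)
    have h5 := Complex.nonneg_iff.1 h4
    rw [← inner_conj_symm]
    generalize ⟪x, (T : H →L[ℂ] H) x⟫_ℂ = w at h5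
    refine ⟨?_, by simpa using h5.1⟩
    apply Complex.ext <;> simp [← h5.2]
  have hs : star (⟨CFC.sqrt T, sqrt_mem_vN T.2⟩ : vN S) * ⟨CFC.sqrt T, sqrt_mem_vN T.2⟩ = T := by
    apply Subtype.ext
    change star (CFC.sqrt (T : H →L[ℂ] H)) * CFC.sqrt (T : H →L[ℂ] H) = (T : H →L[ℂ] H)
    rw [(CFC.sqrt_nonneg (T : H →L[ℂ] H)).isSelfAdjoint.star_eq, CFC.sqrt_mul_sqrt_self _ hT]
  have h6 : (t.τ T).re = 0 := by
    have := (Complex.continuous_re.tendsto _).comp (h3 1)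
    simp only [one_mul] at this
    exact tendsto_nhds_unique this h0
  have h7 : T = 0 := by
    rw [← hs, h.faith (⟨CFC.sqrt T, sqrt_mem_vN T.2⟩ : vN S) (by rw [Tr.N, hs, h6]), mul_zero]
  have h8 := (Complex.continuous_re.tendsto _).comp (h2 ζ ζ)
  simp only [Function.comp_def, e, h7, Complex.ofReal_re] at h8
  rw [tendsto_zero_iff_norm_tendsto_zero]
  have := h8.sqrt
  simpa using this

end N

theorem comm_of_lim (h : Good t) (z : vN S) (y : H →L[ℂ] H) (C : ℝ)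
    (hz : ∀ δ : ℝ, 0 < δ → ∃ x : vN S, ‖x‖ ≤ C ∧ t.N (z - x) ≤ δ ∧ y * x = x * y) :
    y * z = z * y := by
  choose x h1 h2 h3 using fun n : ℕ => hz (1 / ((n : ℝ) + 1)) Nat.one_div_pos_of_nat
  have h0 : Tendsto (fun n => t.N (z - x n)) atTop (𝓝 0) :=
    squeeze_zero (fun _ => t.N_nonneg _) h2 tendsto_one_div_add_atTop_nhds_zero_nat
  have hs := N.strong h (Ultrafilter.of (atTop : Filter ℕ)) (fun n => z - x n) (C := ‖z‖ + C)
    (fun n => (norm_sub_le _ _).trans (by linarith [h1 n])) (h0.mono_left (Ultrafilter.of_le _))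
  ext ζ
  have h4 := ((y.continuous.tendsto _).comp (hs ζ)).sub (hs (y ζ))
  rw [map_zero, sub_zero] at h4
  have h5 : ∀ n, (y ∘ fun n => ((z - x n : vN S) : H →L[ℂ] H) ζ) n -
      ((z - x n : vN S) : H →L[ℂ] H) (y ζ) = (y * z) ζ - ((z : H →L[ℂ] H) * y) ζ := fun n => by
    have := congrArg (fun g : H →L[ℂ] H => g ζ) (h3 n)
    simp only [mul_apply_eq_comp] at this
    change y ((z : H →L[ℂ] H) ζ - (x n : H →L[ℂ] H) ζ) -
      ((z : H →L[ℂ] H) (y ζ) - (x n : H →L[ℂ] H) (y ζ)) = y ((z : H →L[ℂ] H) ζ) -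
        (z : H →L[ℂ] H) (y ζ)
    rw [map_sub, this]; abel
  simp only [h5] at h4
  exact sub_eq_zero.1 (tendsto_nhds_unique tendsto_const_nhds h4)

theorem unitary_complete (h : Good t) (u : ℕ → vN S) (hu : ∀ n, u n ∈ unitary (vN S))
    (hc : ∀ ε : ℝ, 0 < ε → ∃ N, ∀ m ≥ N, ∀ n ≥ N, t.N (u m - u n) ≤ ε) :
    ∃ v ∈ unitary (vN S), Tendsto (fun n => t.N (u n - v)) atTop (𝓝 0) := by
  have hn : ∀ n, ‖u n‖ ≤ 1 := fun n => by
    rw [← one_mul (u n), CStarRing.norm_mul_mem_unitary _ (hu n)]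
    exact ContinuousLinearMap.norm_id_le
  obtain ⟨v, hv, -, h3⟩ := N.wlim h (Ultrafilter.of (atTop : Filter ℕ)) u zero_le_one hn
  have key : Tendsto (fun n => t.N (u n - v)) atTop (𝓝 0) := by
    rw [Metric.tendsto_atTop]
    intro ε hε
    obtain ⟨M, hM⟩ := hc (ε / 2) (by positivity)
    refine ⟨M, fun n hn => ?_⟩
    rw [Real.dist_eq, sub_zero, abs_of_nonneg (t.N_nonneg _)]
    have h4 := (Complex.continuous_re.tendsto _).comp
      ((tendsto_const_nhds (x := t.τ (star (u n - v) * u n))).sub (h3 (star (u n - v))))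
    rw [← map_sub, ← mul_sub] at h4
    have h5 : t.N (u n - v) ≤ (t.N (u n - v) + ε / 2) / 2 := by
      refine le_of_tendsto h4 ?_
      refine (Ultrafilter.of_le (atTop : Filter ℕ)) ?_
      filter_upwards [eventually_ge_atTop M] with m hm
      have h6 := t.N_nonneg (u n - v - (u n - u m))
      rw [t.N_sub] at h6
      have h7 := hM n hn m hm
      change (t.τ (star (u n - v) * u n) - t.τ (star (u n - v) * u m)).re ≤ _
      rw [← map_sub, ← mul_sub]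
      linarith
    linarith
  have hv1 : ‖(v : H →L[ℂ] H)‖ ^ 2 ≤ 1 := pow_le_one₀ (norm_nonneg _) hv
  have fin : ∀ a : vN S, (∀ n, t.N a ≤ 4 * t.N (u n - v)) → a = 0 := fun a ha => by
    refine h.faith a (le_antisymm ?_ (t.N_nonneg _))
    simpa using ge_of_tendsto' (key.const_mul 4) ha
  refine ⟨v, ⟨sub_eq_zero.1 (fin _ fun n => ?_), sub_eq_zero.1 (fin _ fun n => ?_)⟩, key⟩
  · have e : star v * v - 1 = star (v - u n) * v + star (u n) * (v - u n) := by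
      rw [← (hu n).1, star_sub]; noncomm_ring
    have h1 := t.N_add_le (star (v - u n) * v) (star (u n) * (v - u n))
    have h2 := t.N_mul_le_norm' (star (v - u n)) v
    rw [t.N_unitary_mul (Unitary.star_mem (hu n))] at h1
    rw [t.N_star] at h2
    rw [e, t.N_sub_comm (u n)]
    nlinarith [t.N_nonneg (v - u n)]
  · have e : v * star v - 1 = v * star (v - u n) + (v - u n) * star (u n) := by
      rw [← (hu n).2, star_sub]; noncomm_ring
    have h1 := t.N_add_le (v * star (v - u n)) ((v - u n) * star (u n))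
    have h2 := t.N_mul_le_norm v (star (v - u n))
    rw [t.N_mul_unitary (Unitary.star_mem (hu n))] at h1
    rw [t.N_star] at h2
    rw [e, t.N_sub_comm (u n)]
    nlinarith [t.N_nonneg (v - u n)]

theorem exists_dense [TopologicalSpace.SeparableSpace H] (h : Good t) :
    ∃ d : ℕ → vN S, (∀ n, star (d n) = d n ∧ ‖d n‖ ≤ 1) ∧
      ∀ z : vN S, star z = z → ‖z‖ ≤ 1 → ∀ δ : ℝ, 0 < δ → ∃ n, t.N (z - d n) ≤ δ := by
  obtain ⟨n, ξ, η, hv⟩ := h.vec
  let Φ : vN S → (Fin n → H × H) := fun x i => ((x : H →L[ℂ] H) (η i), (x : H →L[ℂ] H) (ξ i))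
  obtain ⟨s, hs1, hs2, hs3⟩ := (TopologicalSpace.IsSeparable.of_separableSpace
    (Φ '' {x | star x = x ∧ ‖x‖ ≤ 1})).exists_countable_dense_subset
  have hne : s.Nonempty := by
    rw [← closure_nonempty_iff]
    exact ⟨_, hs3 ⟨0, ⟨star_zero _, by simp⟩, rfl⟩⟩
  obtain ⟨f, hf⟩ := hs2.exists_eq_range hne
  choose d hd1 hd2 using fun k => hs1 (hf ▸ Set.mem_range_self k : f k ∈ s)
  refine ⟨d, hd1, fun z h1 h2 δ hδ => ?_⟩
  obtain ⟨ε, hε, hε2⟩ : ∃ ε : ℝ, 0 < ε ∧ n * ε ^ 2 ≤ δ := by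
    refine ⟨min 1 (δ / (n + 1)), by positivity, ?_⟩
    have a1 := min_le_left 1 (δ / (n + 1))
    have a2 := min_le_right 1 (δ / (n + 1))
    have a3 : 0 < min 1 (δ / ((n : ℝ) + 1)) := by positivity
    rw [le_div_iff₀ (by positivity)] at a2
    have a4 : (0 : ℝ) ≤ n := by positivity
    nlinarith [mul_nonneg a4 a3.le]
  obtain ⟨b, hb, hb2⟩ := Metric.mem_closure_iff.1 (hs3 ⟨z, ⟨h1, h2⟩, rfl⟩) ε hε
  rw [hf] at hb
  obtain ⟨k, rfl⟩ := hb
  refine ⟨k, le_trans ?_ hε2⟩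
  rw [← hd2, dist_eq_norm] at hb2
  rw [Tr.N, hv, Complex.re_sum]
  calc _ ≤ ∑ _i : Fin n, ε ^ 2 := Finset.sum_le_sum fun i _ => ?_
    _ = _ := by simp
  have h3 := (norm_le_pi_norm (Φ z - Φ (d k)) i).trans hb2.le
  have h4 : ‖((z - d k : vN S) : H →L[ℂ] H) (η i)‖ ≤ ε := (norm_fst_le _).trans h3
  have h5 : ‖((z - d k : vN S) : H →L[ℂ] H) (ξ i)‖ ≤ ε := (norm_snd_le _).trans h3
  change (⟪η i, ContinuousLinearMap.adjoint ((z - d k : vN S) : H →L[ℂ] H)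
    (((z - d k : vN S) : H →L[ℂ] H) (ξ i))⟫_ℂ).re ≤ _
  rw [ContinuousLinearMap.adjoint_inner_right]
  refine (Complex.re_le_norm _).trans ((norm_inner_le_norm _ _).trans ?_)
  rw [sq]
  exact mul_le_mul h4 h5 (norm_nonneg _) hε.le

end Vale.Agent.P085
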