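import Vale.Agent.P085.Defs

/-! Part B of P085, first half: truncation and semicontinuity. -/

namespace Vale.Agent.P085

open scoped InnerProductSpace ComplexOrder ComplexConjugate
open Vale.Agent.P104 Vale.Agent.P104.F Filter Topology

variable {A : Type*} [CStarAlgebra A] {t : Tr A} {B : StarSubalgebra ℂ A}

namespace Bp

lemma n2_star (x : A) : ‖t.j (star x)‖ = ‖t.j x‖ := by
  have h := t.N_star x
  rw [t.N_eq, t.N_eq] at h
  exact (pow_left_inj₀ (norm_nonneg _) (norm_nonneg _) two_ne_zero).mp h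

lemma n2_mul_le (ht : TS t) (x y : A) : ‖t.j (x * y)‖ ≤ ‖x‖ * ‖t.j y‖ := by
  have h := ht.mul_le x y
  rw [t.N_eq, t.N_eq, ← mul_pow] at h
  exact le_of_sq_le_sq (by simpa [sq] using h) (by positivity)

lemma n2_mul_le' (ht : TS t) (x y : A) : ‖t.j (x * y)‖ ≤ ‖t.j x‖ * ‖y‖ := by
  rw [← n2_star, star_mul, mul_comm, ← n2_star x, ← norm_star y]
  exact n2_mul_le ht _ _

lemma n2_one (ht : TS t) : ‖t.j 1‖ = 1 := by
  have h := t.N_one
  rw [ht.one, t.N_eq] at h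
  exact (pow_left_inj₀ (norm_nonneg _) zero_le_one two_ne_zero).mp (by simpa using h)

lemma n2_le (ht : TS t) (x : A) : ‖t.j x‖ ≤ ‖x‖ := by
  have := n2_mul_le ht x 1
  rwa [mul_one, n2_one ht, mul_one] at this

lemma N_unit (ht : TS t) {u : A} (hu : u ∈ unitary A) : t.N u = 1 := by
  have := t.N_unitary_mul hu 1
  rw [mul_one] at this
  rw [this, t.N_one, ht.one, Complex.one_re]

lemma n2_le_iff {x : A} {δ : ℝ} (hδ : 0 ≤ δ) : t.N x ≤ δ ^ 2 ↔ ‖t.j x‖ ≤ δ := by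
  rw [t.N_eq]
  exact pow_le_pow_iff_left₀ (norm_nonneg _) hδ two_ne_zero

lemma re_pos [PartialOrder A] [StarOrderedRing A] {p q : A} (hp : 0 ≤ p) (hq : 0 ≤ q) :
    0 ≤ (t.τ (p * q)).re := by
  obtain ⟨c, rfl⟩ := CStarAlgebra.nonneg_iff_eq_star_mul_self.mp hp
  obtain ⟨d, rfl⟩ := CStarAlgebra.nonneg_iff_eq_mul_star_self.mp hq
  exact t.re_τ_pos_mul_pos c d

lemma trunc_sa (Q : StarSubalgebra ℂ A) (hQ : IsClosed (Q : Set A)) {z y : A}
    (hz : star z = z) (h1 : ‖z‖ ≤ 1) (hy : y ∈ Q) (hs : IsSelfAdjoint y) :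
    ∃ y' ∈ Q, ‖y'‖ ≤ 1 ∧ t.N (z - y') ≤ t.N (z - y) := by
  let := CStarAlgebra.spectralOrder A
  have := CStarAlgebra.spectralOrderedRing A
  let cl : ℝ → ℝ := fun x => max (-1) (min 1 x)
  let fa : ℝ → ℝ := fun x => max (x - 1) 0
  let fb : ℝ → ℝ := fun x => max (-x - 1) 0
  have c1 : Continuous cl := by fun_prop
  have c2 : Continuous fa := by fun_prop
  have c3 : Continuous fb := by fun_prop
  have hza : IsSelfAdjoint z := hz
  have hz1 : 0 ≤ 1 - z := by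
    have := hza.le_algebraMap_norm_self
    have h2 : algebraMap ℝ A ‖z‖ ≤ algebraMap ℝ A 1 := by
      rw [← sub_nonneg, ← map_sub, Algebra.algebraMap_eq_smul_one]
      exact smul_nonneg (sub_nonneg.mpr h1) zero_le_one
    rw [map_one] at h2
    exact sub_nonneg.mpr (this.trans h2)
  have hz2 : 0 ≤ 1 + z := by
    have := hza.neg.le_algebraMap_norm_self
    have h2 : algebraMap ℝ A ‖-z‖ ≤ algebraMap ℝ A 1 := by
      rw [← sub_nonneg, ← map_sub, Algebra.algebraMap_eq_smul_one, norm_neg]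
      exact smul_nonneg (sub_nonneg.mpr h1) zero_le_one
    rw [map_one] at h2
    simpa using sub_nonneg.mpr (this.trans h2)
  have ha : 0 ≤ cfc fa y := cfc_nonneg fun x _ => le_max_right _ _
  have hb : 0 ≤ cfc fb y := cfc_nonneg fun x _ => le_max_right _ _
  have e1 : cfc cl y * cfc fa y = cfc fa y := by
    rw [← cfc_mul cl fa y]
    refine cfc_congr fun x _ => ?_
    simp only [cl, fa]
    rcases le_total x 1 with h | h
    · rw [max_eq_right (by linarith : x - 1 ≤ 0), mul_zero]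
    · rw [min_eq_left h, max_eq_right (by norm_num : (-1 : ℝ) ≤ 1), one_mul]
  have e2 : cfc cl y * cfc fb y = -cfc fb y := by
    rw [← cfc_mul cl fb y, ← cfc_neg]
    refine cfc_congr fun x _ => ?_
    simp only [cl, fb]
    rcases le_total x (-1) with h | h
    · rw [min_eq_right (by linarith : x ≤ 1), max_eq_left h]; ring
    · rw [max_eq_right (by linarith : -x - 1 ≤ 0)]; ring
  have e3 : y = cfc cl y + (cfc fa y - cfc fb y) := by
    rw [← cfc_sub fa fb y, ← cfc_add (a := y) cl (fun x => fa x - fb x)]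
    conv_lhs => rw [← cfc_id' ℝ y]
    refine cfc_congr fun x _ => ?_
    simp only [cl, fa, fb]
    rcases le_total x 1 with h | h
    · rcases le_total x (-1) with h' | h'
      · rw [min_eq_right h, max_eq_left h', max_eq_right (by linarith : x - 1 ≤ 0),
          max_eq_left (by linarith : 0 ≤ -x - 1)]; ring
      · rw [min_eq_right h, max_eq_right h', max_eq_right (by linarith : x - 1 ≤ 0),
          max_eq_right (by linarith : -x - 1 ≤ 0)]; ring
    · rw [min_eq_left h, max_eq_right (by norm_num : (-1 : ℝ) ≤ 1),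
        max_eq_left (by linarith : 0 ≤ x - 1), max_eq_right (by linarith : -x - 1 ≤ 0)]; ring
  have hcs : star (cfc cl y) = cfc cl y := (cfc_predicate cl y : IsSelfAdjoint _)
  refine ⟨cfc cl y, cfc_mem (𝕜' := ℂ) (hs := hQ) cl hy, ?_, ?_⟩
  · refine norm_cfc_le zero_le_one fun x _ => ?_
    rw [Real.norm_eq_abs, abs_le]
    exact ⟨le_max_left _ _, max_le (by norm_num) (min_le_left _ _)⟩
  · generalize cfc cl y = c at *
    generalize cfc fa y = a at *
    generalize cfc fb y = b at *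
    have e4 : z - y = (z - c) - (a - b) := by rw [e3]; abel
    have e5 : star (z - c) * (a - b) = -((1 - z) * a) - (1 + z) * b := by
      rw [star_sub, hz, hcs, sub_mul, mul_sub, mul_sub, e1, e2, sub_mul, add_mul, one_mul,
        one_mul]
      abel
    rw [e4, t.N_sub (z - c), e5, map_sub, map_neg, Complex.sub_re, Complex.neg_re]
    linarith [re_pos (t := t) hz1 ha, re_pos (t := t) hz2 hb, t.N_nonneg (a - b)]

end Bp

open Bp

theorem trunc (ht : TS t) (Q : StarSubalgebra ℂ A) (hQ : IsClosed (Q : Set A)) {z y : A}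
    (hz : star z = z) (h1 : ‖z‖ ≤ 1) (hy : y ∈ Q) :
    ∃ y' ∈ Q, ‖y'‖ ≤ 1 ∧ t.N (z - y') ≤ t.N (z - y) := by
  have _ := ht
  obtain ⟨y', h2, h3, h4⟩ := trunc_sa (t := t) Q hQ hz h1
    (y := (2⁻¹ : ℂ) • (y + star y)) (Q.smul_mem (add_mem hy (star_mem hy)) _)
    (by simp [IsSelfAdjoint, star_smul, add_comm])
  refine ⟨y', h2, h3, h4.trans ?_⟩
  have e : z - (2⁻¹ : ℂ) • (y + star y) = (2⁻¹ : ℂ) • ((z - y) + star (z - y)) := by
    rw [star_sub, hz]; module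
  rw [e, t.N_smul]
  have := t.N_add_le (z - y) (star (z - y))
  rw [t.N_star] at this
  have h5 : ‖(2⁻¹ : ℂ)‖ ^ 2 = 1 / 4 := by norm_num
  rw [h5]; linarith

namespace Bp

lemma usc_aux (ht : TS t) {u : A} {y : A}
    (hy : y ∈ StarAlgebra.adjoin ℂ ((B : Set A) ∪ {u})) :
    ∃ C : ℝ, 0 ≤ C ∧ ∀ δ : ℝ, 0 < δ → ∃ η : ℝ, 0 < η ∧ ∀ u' ∈ unitary A, ‖t.j (u' - u)‖ ≤ η →
      ∃ y' ∈ StarAlgebra.adjoin ℂ ((B : Set A) ∪ {u'}), ‖y'‖ ≤ C ∧ ‖t.j (y' - y)‖ ≤ δ := by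
  induction hy using StarAlgebra.adjoin_induction with
  | mem x hx =>
    rcases hx with hx | hx
    · exact ⟨‖x‖, norm_nonneg _, fun δ hδ => ⟨1, one_pos, fun u' _ _ =>
        ⟨x, StarAlgebra.subset_adjoin ℂ _ (Or.inl hx), le_rfl, by simpa using hδ.le⟩⟩⟩
    · obtain rfl : x = u := hx
      refine ⟨1, zero_le_one, fun δ hδ => ⟨δ, hδ, fun u' hu' h =>
        ⟨u', StarAlgebra.subset_adjoin ℂ _ (Or.inr rfl), ?_, h⟩⟩⟩
      obtain (_ | _) := subsingleton_or_nontrivial A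
      · simp [Subsingleton.elim u' 0]
      · exact (CStarRing.norm_of_mem_unitary hu').le
  | algebraMap r =>
    exact ⟨_, norm_nonneg _, fun δ hδ => ⟨1, one_pos, fun u' _ _ =>
        ⟨_, algebraMap_mem _ r, le_rfl, by simpa using hδ.le⟩⟩⟩
  | add x y _ _ hx hy =>
    obtain ⟨C1, p1, hx⟩ := hx
    obtain ⟨C2, p2, hy⟩ := hy
    refine ⟨C1 + C2, by positivity, fun δ hδ => ?_⟩
    obtain ⟨η1, q1, hx⟩ := hx (δ / 2) (by positivity)
    obtain ⟨η2, q2, hy⟩ := hy (δ / 2) (by positivity)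
    refine ⟨min η1 η2, lt_min q1 q2, fun u' hu' h => ?_⟩
    obtain ⟨x', m1, n1, d1⟩ := hx u' hu' (h.trans (min_le_left _ _))
    obtain ⟨y', m2, n2, d2⟩ := hy u' hu' (h.trans (min_le_right _ _))
    refine ⟨x' + y', add_mem m1 m2, (norm_add_le _ _).trans (add_le_add n1 n2), ?_⟩
    rw [show x' + y' - (x + y) = (x' - x) + (y' - y) by abel, map_add]
    linarith [norm_add_le (t.j (x' - x)) (t.j (y' - y))]
  | mul x y _ _ hx hy =>
    obtain ⟨C1, p1, hx⟩ := hx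
    obtain ⟨C2, p2, hy⟩ := hy
    refine ⟨C1 * C2, by positivity, fun δ hδ => ?_⟩
    obtain ⟨η1, q1, hx⟩ := hx (δ / 2 / (‖y‖ + 1)) (by positivity)
    obtain ⟨η2, q2, hy⟩ := hy (δ / 2 / (C1 + 1)) (by positivity)
    refine ⟨min η1 η2, lt_min q1 q2, fun u' hu' h => ?_⟩
    obtain ⟨x', m1, n1, d1⟩ := hx u' hu' (h.trans (min_le_left _ _))
    obtain ⟨y', m2, n2, d2⟩ := hy u' hu' (h.trans (min_le_right _ _))
    refine ⟨x' * y', mul_mem m1 m2,
      (norm_mul_le _ _).trans (mul_le_mul n1 n2 (norm_nonneg _) p1), ?_⟩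
    rw [show x' * y' - x * y = x' * (y' - y) + (x' - x) * y by noncomm_ring, map_add]
    have a1 : ‖t.j (x' * (y' - y))‖ ≤ δ / 2 := by
      refine (n2_mul_le ht _ _).trans ?_
      refine (mul_le_mul (n1.trans (by linarith : C1 ≤ C1 + 1)) d2 (norm_nonneg _)
        (by positivity)).trans (le_of_eq ?_)
      field_simp
    have a2 : ‖t.j ((x' - x) * y)‖ ≤ δ / 2 := by
      refine (n2_mul_le' ht _ _).trans ?_
      refine (mul_le_mul d1 (by linarith : ‖y‖ ≤ ‖y‖ + 1) (norm_nonneg _)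
        (by positivity)).trans (le_of_eq ?_)
      field_simp
    linarith [norm_add_le (t.j (x' * (y' - y))) (t.j ((x' - x) * y))]
  | star x _ hx =>
    obtain ⟨C1, p1, hx⟩ := hx
    refine ⟨C1, p1, fun δ hδ => ?_⟩
    obtain ⟨η1, q1, hx⟩ := hx δ hδ
    refine ⟨η1, q1, fun u' hu' h => ?_⟩
    obtain ⟨x', m1, n1, d1⟩ := hx u' hu' h
    refine ⟨star x', star_mem m1, by rwa [norm_star], ?_⟩
    rwa [← star_sub, n2_star]

/-- Semicontinuity for the norm closure. -/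
lemma usc_cl (ht : TS t) {u : A} {y : A}
    (hy : y ∈ (StarAlgebra.adjoin ℂ ((B : Set A) ∪ {u})).topologicalClosure) (δ : ℝ)
    (hδ : 0 < δ) : ∃ η : ℝ, 0 < η ∧ ∀ u' ∈ unitary A, ‖t.j (u' - u)‖ ≤ η →
      ∃ y' ∈ StarAlgebra.adjoin ℂ ((B : Set A) ∪ {u'}), ‖t.j (y' - y)‖ ≤ δ := by
  have hy' : y ∈ closure (StarAlgebra.adjoin ℂ ((B : Set A) ∪ {u}) : Set A) := hy
  obtain ⟨y2, m2, d2⟩ := Metric.mem_closure_iff.mp hy' (δ / 2) (by positivity)
  obtain ⟨C, _, h⟩ := usc_aux ht m2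
  obtain ⟨η, p, h⟩ := h (δ / 2) (by positivity)
  refine ⟨η, p, fun u' hu' hh => ?_⟩
  obtain ⟨y', m, _, d⟩ := h u' hu' hh
  refine ⟨y', m, ?_⟩
  rw [show y' - y = (y' - y2) + (y2 - y) by abel, map_add]
  have := n2_le ht (y2 - y)
  rw [dist_comm, dist_eq_norm] at d2
  linarith [norm_add_le (t.j (y' - y2)) (t.j (y2 - y))]

end Bp

theorem usc (ht : TS t) {u : A} (hu : u ∈ unitary A) {y : A}
    (hy : y ∈ StarAlgebra.adjoin ℂ ((B : Set A) ∪ {u})) (δ : ℝ) (hδ : 0 < δ) :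
    ∃ η : ℝ, 0 < η ∧ ∀ u' ∈ unitary A, t.N (u' - u) ≤ η →
      ∃ y' ∈ StarAlgebra.adjoin ℂ ((B : Set A) ∪ {u'}), t.N (y' - y) ≤ δ := by
  have _ := hu
  obtain ⟨C, _, h⟩ := usc_aux ht hy
  obtain ⟨η, p, h⟩ := h (Real.sqrt δ) (Real.sqrt_pos.mpr hδ)
  refine ⟨η ^ 2, by positivity, fun u' hu' hh => ?_⟩
  obtain ⟨y', m, _, d⟩ := h u' hu' ((n2_le_iff p.le).mp hh)
  refine ⟨y', m, ?_⟩
  rw [← Real.sq_sqrt hδ.le]
  exact (n2_le_iff (Real.sqrt_nonneg _)).mpr d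

end Vale.Agent.P085
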