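import Vale.Agent.P085.B1

/-! Part B of P085, second half: the Baire argument, from the perturbation statement. -/

namespace Vale.Agent.P085

open scoped InnerProductSpace ComplexOrder ComplexConjugate
open Vale.Agent.P104 Vale.Agent.P104.F Filter Topology

variable {A : Type*} [CStarAlgebra A] {t : Tr A} {B : StarSubalgebra ℂ A}

namespace Bp

/-- The perturbation statement. -/
def Key (t : Tr A) (B : StarSubalgebra ℂ A) : Prop :=
  ∀ u ∈ unitary A, ∀ r : A, ‖r‖ ≤ 1 → ∀ η : ℝ, 0 < η →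
    ∃ u' ∈ unitary A, t.N (u' - u) ≤ η ∧
      ∃ y ∈ StarAlgebra.adjoin ℂ ((B : Set A) ∪ {u'}), y ∈ unitary A ∧
        t.N r ^ 2 / 1000 ≤ ‖t.τ (star r * y)‖

lemma N_sub_comp (ht : TS t) {w : A} (hw : w ∈ unitary A) (e : A) :
    t.N (e - t.τ (star w * e) • w) = t.N e - ‖t.τ (star e * w)‖ ^ 2 := by
  have h1 : t.τ (star w * e) = conj (t.τ (star e * w)) := by
    rw [← t.τ_star, star_mul, star_star]
  rw [t.N_sub, t.N_smul, N_unit ht hw, mul_smul_comm, map_smul, h1, smul_eq_mul,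
    Complex.conj_mul', Complex.norm_conj]
  norm_cast
  ring

lemma dense_step (ht : TS t) (hk : Key t B) {z : A} (hz : star z = z) (h1 : ‖z‖ ≤ 1)
    {ε : ℝ} (hε : 0 < ε) {u0 : A} (hu0 : u0 ∈ unitary A) {η : ℝ} (hη : 0 < η) :
    ∃ u ∈ unitary A, ‖t.j (u - u0)‖ < η ∧
      ∃ y ∈ (StarAlgebra.adjoin ℂ ((B : Set A) ∪ {u})).topologicalClosure, t.N (z - y) < ε := by
  by_contra hcon
  push Not at hcon
  let T : Set ℝ := {s | ∃ u ∈ unitary A, ‖t.j (u - u0)‖ < η ∧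
      ∃ y ∈ (StarAlgebra.adjoin ℂ ((B : Set A) ∪ {u})).topologicalClosure, t.N (z - y) = s}
  have hT : T.Nonempty := ⟨_, u0, hu0, by simpa using hη, 0, zero_mem _, rfl⟩
  have hb : BddBelow T := ⟨ε, by rintro s ⟨u, a, b, y, c, rfl⟩; exact hcon u a b y c⟩
  obtain ⟨c, hc⟩ : ∃ c : ℝ, c = (ε ^ 2 / 8000) ^ 2 := ⟨_, rfl⟩
  have c0 : 0 < c := by rw [hc]; positivity
  obtain ⟨s, ⟨u, hu, du, y0, m0, rfl⟩, hs⟩ :=
    exists_lt_of_csInf_lt hT (show sInf T < sInf T + c / 2 by linarith)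
  obtain ⟨y, my, ny, ly⟩ := trunc ht _ (StarSubalgebra.isClosed_topologicalClosure _) hz h1 m0
  have hεy := hcon u hu du y my
  obtain ⟨δ, hδ⟩ : ∃ δ : ℝ, δ = min 1 (c / 20) := ⟨_, rfl⟩
  have δ0 : 0 < δ := by rw [hδ]; exact lt_min one_pos (by positivity)
  have δ1 : δ ≤ 1 := hδ ▸ min_le_left _ _
  have δ2 : δ ≤ c / 20 := hδ ▸ min_le_right _ _
  obtain ⟨η1, p1, h⟩ := usc_cl ht my δ δ0
  obtain ⟨η2, hη2⟩ : ∃ η2 : ℝ, η2 = min η1 ((η - ‖t.j (u - u0)‖) / 2) := ⟨_, rfl⟩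
  have p2 : 0 < η2 := by rw [hη2]; exact lt_min p1 (by linarith)
  have ne : ‖z - y‖ ≤ 2 := (norm_sub_le _ _).trans (by linarith)
  obtain ⟨u', hu', du', w, mw, hw, lw⟩ := hk u hu ((2⁻¹ : ℂ) • (z - y))
    (by rw [norm_smul]; norm_num; linarith) (η2 ^ 2) (by positivity)
  have du2 := (n2_le_iff p2.le).mp du'
  obtain ⟨y', my', dy'⟩ := h u' hu' (du2.trans (hη2 ▸ min_le_left _ _))
  have du3 : ‖t.j (u' - u0)‖ < η := by
    rw [show u' - u0 = (u' - u) + (u - u0) by abel, map_add]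
    have : η2 ≤ (η - ‖t.j (u - u0)‖) / 2 := hη2 ▸ min_le_right _ _
    linarith [norm_add_le (t.j (u' - u)) (t.j (u - u0))]
  have hin : t.N (z - (y' + t.τ (star w * (z - y)) • w)) ∈ T :=
    ⟨u', hu', du3, _, StarSubalgebra.le_topologicalClosure _
      (add_mem my' (SMulMemClass.smul_mem _ mw)), rfl⟩
  have hlow := csInf_le hb hin
  have h5 : ‖(2⁻¹ : ℂ)‖ = 1 / 2 := by norm_num
  rw [t.N_smul, star_smul, smul_mul_assoc, map_smul, norm_smul, norm_star, h5] at lw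
  have e1 := N_sub_comp ht hw (z - y)
  have e2 : z - (y' + t.τ (star w * (z - y)) • w) =
      ((z - y) - t.τ (star w * (z - y)) • w) - (y' - y) := by abel
  generalize t.τ (star w * (z - y)) = α at *
  have l1 : c ≤ ‖t.τ (star (z - y) * w)‖ ^ 2 := by
    rw [hc]
    refine pow_le_pow_left₀ (by positivity) ?_ 2
    have : ε ^ 2 ≤ t.N (z - y) ^ 2 := pow_le_pow_left₀ hε.le hεy 2
    nlinarith
  have l2 : t.N (z - y) ≤ 4 := by
    have := (n2_le_iff (t := t) (x := z - y) zero_le_two).mpr ((n2_le ht _).trans ne)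
    linarith
  have l3 : ‖t.j ((z - y) - α • w)‖ ≤ 2 := (n2_le_iff zero_le_two).mp (by linarith)
  have l4 : t.N (z - (y' + α • w)) ≤ t.N ((z - y) - α • w) + 4 * δ + δ ^ 2 := by
    rw [e2, t.N_eq, t.N_eq, map_sub]
    have := norm_sub_le (t.j ((z - y) - α • w)) (t.j (y' - y))
    have h6 := pow_le_pow_left₀ (norm_nonneg _)
      (this.trans (add_le_add_right dy' _)) 2
    nlinarith
  nlinarith

theorem baire_of (ht : TS t) (hk : Key t B)
    (hc : ∀ u : ℕ → A, (∀ n, u n ∈ unitary A) →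
      (∀ ε : ℝ, 0 < ε → ∃ N, ∀ m ≥ N, ∀ n ≥ N, t.N (u m - u n) ≤ ε) →
      ∃ v ∈ unitary A, Tendsto (fun n => t.N (u n - v)) atTop (𝓝 0))
    (d : ℕ → A) (hd : ∀ n, star (d n) = d n ∧ ‖d n‖ ≤ 1) :
    ∃ u ∈ unitary A, ∀ n, ∀ δ : ℝ, 0 < δ →
      ∃ y ∈ (StarAlgebra.adjoin ℂ ((B : Set A) ∪ {u})).topologicalClosure,
        ‖y‖ ≤ 1 ∧ t.N (d n - y) ≤ δ := by
  let X := {x : t.L2 // t.j.symm x ∈ unitary A}
  have hdist : ∀ a b : X, dist a b = ‖t.j (t.j.symm a.1 - t.j.symm b.1)‖ := fun a b => by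
    rw [Subtype.dist_eq, dist_eq_norm, map_sub, LinearEquiv.apply_symm_apply,
      LinearEquiv.apply_symm_apply]
  have : CompleteSpace X := by
    refine Metric.complete_of_cauchySeq_tendsto fun u hu => ?_
    obtain ⟨v, hv, h⟩ := hc (fun n => t.j.symm (u n).1) (fun n => (u n).2) fun ε hε => by
      obtain ⟨N, hN⟩ := Metric.cauchySeq_iff.mp hu (Real.sqrt ε) (Real.sqrt_pos.mpr hε)
      refine ⟨N, fun m hm n hn => ?_⟩
      rw [← Real.sq_sqrt hε.le, n2_le_iff (Real.sqrt_nonneg _), ← hdist]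
      exact (hN m hm n hn).le
    refine ⟨⟨t.j v, by simpa using hv⟩, tendsto_iff_dist_tendsto_zero.mpr ?_⟩
    have h2 := h.sqrt
    rw [Real.sqrt_zero] at h2
    refine h2.congr fun n => ?_
    rw [hdist, t.N_eq, Real.sqrt_sq (norm_nonneg _), LinearEquiv.symm_apply_apply]
  have : Nonempty X := ⟨⟨t.j 1, by simp⟩⟩
  let O : ℕ × ℕ → Set X := fun p => {x | ∃ y ∈ (StarAlgebra.adjoin ℂ
    ((B : Set A) ∪ {t.j.symm x.1})).topologicalClosure,
      ‖t.j (d p.1 - y)‖ < 1 / ((p.2 : ℝ) + 1)}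
  have ho : ∀ p, IsOpen (O p) := fun p => by
    refine Metric.isOpen_iff.mpr ?_
    rintro x ⟨y, my, ly⟩
    obtain ⟨η, p1, h⟩ := usc_cl ht my ((1 / ((p.2 : ℝ) + 1) - ‖t.j (d p.1 - y)‖) / 2)
      (by linarith)
    refine ⟨η, p1, fun x' hx' => ?_⟩
    obtain ⟨y', my', dy'⟩ := h _ x'.2 (by rw [← hdist]; exact (Metric.mem_ball.mp hx').le)
    refine ⟨y', StarSubalgebra.le_topologicalClosure _ my', ?_⟩
    rw [show d p.1 - y' = (d p.1 - y) - (y' - y) by abel, map_sub]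
    linarith [norm_sub_le (t.j (d p.1 - y)) (t.j (y' - y))]
  have hde : ∀ p, Dense (O p) := fun p => by
    refine Metric.dense_iff.mpr fun x η hη => ?_
    obtain ⟨u, hu, du, y, my, ly⟩ := dense_step ht hk (hd p.1).1 (hd p.1).2
      (ε := (1 / ((p.2 : ℝ) + 1)) ^ 2) (by positivity) x.2 hη
    refine ⟨⟨t.j u, by simpa using hu⟩, ?_, y, by simpa using my, ?_⟩
    · rw [Metric.mem_ball, hdist, LinearEquiv.symm_apply_apply]; exact du
    · rw [t.N_eq] at ly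
      exact lt_of_pow_lt_pow_left₀ 2 (by positivity) ly
  obtain ⟨x, hx⟩ := (dense_iInter_of_isOpen ho hde).nonempty
  refine ⟨_, x.2, fun n δ hδ => ?_⟩
  obtain ⟨k, hk⟩ := exists_nat_one_div_lt (Real.sqrt_pos.mpr hδ)
  obtain ⟨y0, m0, l0⟩ := Set.mem_iInter.mp hx (n, k)
  obtain ⟨y, my, ny, ly⟩ := trunc ht _ (StarSubalgebra.isClosed_topologicalClosure _)
    (hd n).1 (hd n).2 m0
  refine ⟨y, my, ny, ly.trans ?_⟩
  rw [← Real.sq_sqrt hδ.le, n2_le_iff (Real.sqrt_nonneg _)]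
  exact (l0.trans hk).le

end Bp

end Vale.Agent.P085
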