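import Vale.Agent.P085.PartA1

/-! Part A2 of P085: the trace of a finite factor is a finite sum of vector functionals. -/

namespace Vale.Agent.P085

open scoped InnerProductSpace ComplexOrder ComplexConjugate
open Vale.Agent.P104 Vale.Agent.P104.F Filter Topology

variable {H : Type*} [NormedAddCommGroup H] [InnerProductSpace ℂ H] [CompleteSpace H]
variable {S : Set (H →L[ℂ] H)} {t : Tr (vN S)}

namespace A2

lemma riesz {A E : Type*} [AddCommGroup A] [Module ℂ A] [NormedAddCommGroup E]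
    [InnerProductSpace ℂ E] [CompleteSpace E] (V : A →ₗ[ℂ] E) (f : A →ₗ[ℂ] ℂ) (C : ℝ)
    (h : ∀ x, ‖f x‖ ≤ C * ‖V x‖) : ∃ η : E, ∀ x, f x = ⟪η, V x⟫_ℂ := by
  have hk : LinearMap.ker V ≤ LinearMap.ker f := fun x hx => by
    have := h x
    rw [LinearMap.mem_ker.1 hx, norm_zero, mul_zero, norm_le_zero_iff] at this
    exact this
  let g0 : LinearMap.range V →ₗ[ℂ] ℂ :=
    ((LinearMap.ker V).liftQ f hk) ∘ₗ V.quotKerEquivRange.symm.toLinearMap
  have hg0 : ∀ x, g0 ⟨V x, LinearMap.mem_range_self V x⟩ = f x := fun x => by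
    simp only [g0, LinearMap.comp_apply, LinearEquiv.coe_coe,
      LinearMap.quotKerEquivRange_symm_apply_image, Submodule.mkQ_apply, Submodule.liftQ_apply]
  let g : StrongDual ℂ (LinearMap.range V) := g0.mkContinuous C (by
    rintro ⟨_, x, rfl⟩
    rw [hg0]
    exact h x)
  obtain ⟨G, hG, -⟩ := exists_extension_norm_eq (LinearMap.range V) g
  refine ⟨(InnerProductSpace.toDual ℂ E).symm G, fun x => ?_⟩
  rw [InnerProductSpace.toDual_symm_apply, ← hg0]
  exact (hG ⟨V x, LinearMap.mem_range_self V x⟩).symm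

lemma nonneg_iff {T : H →L[ℂ] H} : 0 ≤ T ↔ ∀ x, 0 ≤ ⟪T x, x⟫_ℂ := by
  rw [ContinuousLinearMap.nonneg_iff_isPositive, ContinuousLinearMap.isPositive_iff_complex]
  refine forall_congr' fun x => ?_
  rw [Complex.nonneg_iff]
  constructor
  · rintro ⟨h1, h2⟩
    refine ⟨h2, ?_⟩
    rw [← h1]; simp
  · rintro ⟨h1, h2⟩
    exact ⟨Complex.ext (by simp) (by simpa using h2), h1⟩

lemma lim_le {J : Type*} {U : Filter J} [U.NeBot] {a b : J → H →L[ℂ] H} {A B : H →L[ℂ] H}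
    (ha : ∀ ζ η, Tendsto (fun j => ⟪a j ζ, η⟫_ℂ) U (𝓝 ⟪A ζ, η⟫_ℂ))
    (hb : ∀ ζ η, Tendsto (fun j => ⟪b j ζ, η⟫_ℂ) U (𝓝 ⟪B ζ, η⟫_ℂ))
    (h : ∀ᶠ j in U, a j ≤ b j) : A ≤ B := by
  rw [← sub_nonneg, nonneg_iff]
  intro x
  rw [ContinuousLinearMap.sub_apply, inner_sub_left]
  refine ge_of_tendsto ((hb x x).sub (ha x x)) (h.mono fun j hj => ?_)
  have := nonneg_iff.1 (sub_nonneg.2 hj) x
  rwa [ContinuousLinearMap.sub_apply, inner_sub_left] at this

lemma lim_mem {J : Type*} {U : Filter J} [U.NeBot] {a : J → H →L[ℂ] H} {A : H →L[ℂ] H}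
    (ha : ∀ ζ η, Tendsto (fun j => ⟪a j ζ, η⟫_ℂ) U (𝓝 ⟪A ζ, η⟫_ℂ)) (h : ∀ j, a j ∈ vN S) :
    A ∈ vN S := by
  refine C.mem_vN.2 fun g hg => ?_
  ext ζ
  refine ext_inner_right ℂ fun η => ?_
  have e : ∀ j, ⟪a j ζ, star g η⟫_ℂ = ⟪a j (g ζ), η⟫_ℂ := fun j => by
    rw [C.inner_star_right]
    exact congrArg (fun T : H →L[ℂ] H => ⟪T ζ, η⟫_ℂ) (C.mem_vN.1 (h j) g hg)
  have h1 := ha ζ (star g η)
  simp only [e] at h1
  have := tendsto_nhds_unique h1 (ha (g ζ) η)
  rw [C.inner_star_right] at this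
  exact this

lemma exists_maximal (t : Tr (vN S)) (ξ : H) : ∃ a : vN S, Maximal (· ∈ {a : vN S |
    0 ≤ a ∧ a ≤ 1 ∧ 2 * (⟪(a : H →L[ℂ] H) ξ, ξ⟫_ℂ).re ≤ (t.τ a).re}) a := by
  obtain ⟨m, -, hm⟩ := zorn_le_nonempty₀ {a : vN S |
    0 ≤ a ∧ a ≤ 1 ∧ 2 * (⟪(a : H →L[ℂ] H) ξ, ξ⟫_ℂ).re ≤ (t.τ a).re} (fun c hc hch y hy => by
      haveI : Nonempty c := ⟨⟨y, hy⟩⟩
      haveI : IsDirectedOrder c := hch.directedOn.isDirectedOrder
      let U : Ultrafilter c := Ultrafilter.of atTop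
      have hU : (U : Filter c) ≤ atTop := Ultrafilter.of_le _
      have hn : ∀ j : c, ‖((j : vN S) : H →L[ℂ] H)‖ ≤ 1 := fun j =>
        C.norm_le_of_le zero_le_one (hc j.2).1
          (by rw [Complex.ofReal_one, one_smul]; exact (hc j.2).2.1)
      obtain ⟨T, hT⟩ := PI.weak_limit U (fun j : c => ((j : vN S) : H →L[ℂ] H)) (C := 1)
        fun j ζ η => (norm_inner_le_norm _ _).trans (by
          gcongr
          exact ((j : vN S) : H →L[ℂ] H).le_of_opNorm_le (hn j) ζ)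
      have hTM : T ∈ vN S := lim_mem hT fun j => (j : vN S).2
      have hub : ∀ z ∈ c, z ≤ ⟨T, hTM⟩ := fun z hz =>
        lim_le (a := fun _ => (z : H →L[ℂ] H)) (fun _ _ => tendsto_const_nhds) hT
          (((eventually_ge_atTop (⟨z, hz⟩ : c)).filter_mono hU).mono fun _ hj => hj)
      refine ⟨⟨T, hTM⟩, ⟨(hc hy).1.trans (hub y hy), ?_, ?_⟩, hub⟩
      · exact lim_le (b := fun _ => (1 : H →L[ℂ] H)) hT (fun _ _ => tendsto_const_nhds)
          (Eventually.of_forall fun j => (hc j.2).2.1)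
      · refine le_of_tendsto' (((Complex.continuous_re.tendsto _).comp (hT ξ ξ)).const_mul 2)
          fun j => (hc j.2).2.2.trans (t.re_mono (hub j j.2))) 0 ⟨le_rfl, zero_le_one, by simp⟩
  exact ⟨m, hm⟩

lemma dom (t : Tr (vN S)) (h1 : t.τ 1 = 1) {ξ : H} (hξ : ‖ξ‖ = 1) :
    ∃ r : vN S, IsStarProjection r ∧ r ≠ 0 ∧
      ∀ x : vN S, t.N (x * r) ≤ 2 * ‖(x : H →L[ℂ] H) ((r : H →L[ℂ] H) ξ)‖ ^ 2 := by
  obtain ⟨a, ⟨a0, a1, a2⟩, hmax⟩ := exists_maximal t ξ
  have he0 : 0 ≤ 1 - a := sub_nonneg.2 a1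
  have hne : 1 - a ≠ 0 := fun h => by
    have : a = 1 := (sub_eq_zero.1 h).symm
    rw [this, h1] at a2
    simp [inner_self_eq_norm_sq_to_K, hξ] at a2
  set e : H →L[ℂ] H := ((1 - a : vN S) : H →L[ℂ] H) with he
  have he0' : 0 ≤ e := he0
  have hpos : 0 < ‖e‖ := norm_pos_iff.2 fun h => hne (Subtype.ext h)
  obtain ⟨r, pr, hc, k1, k2⟩ := exists_spectral (IsSelfAdjoint.of_nonneg he0') (‖e‖ / 2)
  have hrM : r ∈ vN S := mem_vN_of_commute (1 - a).2 hc
  have hrr : r * r = r := pr.isIdempotentElem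
  have hsr : star r = r := pr.isSelfAdjoint
  have hs1 : star (1 - r) = 1 - r := by rw [star_sub, star_one, hsr]
  have hbr : e * r = r * e := hc e (Commute.refl e)
  have hdec : e = r * e * r + (1 - r) * e * (1 - r) := by
    have : r * e * r = r * e := by rw [mul_assoc, hbr, ← mul_assoc, hrr]
    simp only [sub_mul, mul_sub, one_mul, mul_one, this, hbr]
    abel
  have k3 : r * e * r ≤ e := by
    nth_rewrite 2 [hdec]
    have := star_left_conjugate_nonneg he0' (1 - r)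
    rw [hs1] at this
    exact le_add_of_nonneg_right this
  set R : vN S := ⟨r, hrM⟩ with hR
  have hsR : star R = R := Subtype.ext hsr
  refine ⟨R, C.proj_coe pr, fun h => ?_, fun x => ?_⟩
  · have h0 : r = 0 := congrArg Subtype.val h
    rw [h0, sub_zero, one_mul, mul_one] at k2
    have := C.norm_le_of_le (by positivity) he0' k2
    linarith
  · set L : ℝ := ‖(x : H →L[ℂ] H)‖ ^ 2 + 1 with hL
    have hL0 : 0 < L := by positivity
    set s : ℝ := ‖e‖ / 2 / L with hs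
    have hs0 : 0 < s := by positivity
    set b : vN S := (s : ℂ) • (star (x * R) * (x * R)) with hb
    have hs0' : (0 : ℂ) ≤ (s : ℂ) := by exact_mod_cast hs0.le
    have hb0 : 0 ≤ b := smul_nonneg hs0' (star_mul_self_nonneg _)
    have hx : star (x : H →L[ℂ] H) * x ≤ (L : ℂ) • 1 := by
      have := (IsSelfAdjoint.star_mul_self (x : H →L[ℂ] H)).le_algebraMap_norm_self
      rw [Algebra.algebraMap_eq_smul_one, CStarRing.norm_star_mul_self] at this
      refine this.trans ?_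
      rw [Complex.coe_smul]
      exact smul_le_smul_of_nonneg_right (by rw [hL]; nlinarith) zero_le_one
    have hb1 : (b : H →L[ℂ] H) ≤ e := by
      refine le_trans ?_ (k1.trans k3)
      have f1 := star_left_conjugate_le_conjugate hx r
      rw [hsr, mul_smul_comm, smul_mul_assoc, mul_one, hrr] at f1
      have f2 : (b : H →L[ℂ] H) = (s : ℂ) • (r * (star (x : H →L[ℂ] H) * x) * r) := by
        rw [hb, star_mul, hsR]
        simp only [mul_assoc]
        rfl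
      have f3 : ((‖e‖ / 2 : ℝ) : ℂ) • r = (s : ℂ) • ((L : ℂ) • r) := by
        rw [smul_smul, ← Complex.ofReal_mul, hs, div_mul_cancel₀ _ hL0.ne']
      rw [f2, f3]
      exact smul_le_smul_of_nonneg_left f1 hs0'
    have hval : (⟪(b : H →L[ℂ] H) ξ, ξ⟫_ℂ).re = s * ‖(x : H →L[ℂ] H) (r ξ)‖ ^ 2 := by
      have f2 : (b : H →L[ℂ] H) ξ =
          (s : ℂ) • star ((x : H →L[ℂ] H) * r) ((x : H →L[ℂ] H) (r ξ)) := rfl
      rw [f2, inner_smul_left, C.inner_star_left, Complex.conj_ofReal, Complex.re_ofReal_mul]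
      congr 1
      exact inner_self_eq_norm_sq (𝕜 := ℂ) ((x : H →L[ℂ] H) (r ξ))
    have hτ : (t.τ b).re = s * t.N (x * R) := by
      rw [hb, map_smul, smul_eq_mul, Complex.re_ofReal_mul]; rfl
    by_contra hlt
    push Not at hlt
    have hlt' : 2 * ‖(x : H →L[ℂ] H) (r ξ)‖ ^ 2 < t.N (x * R) := hlt
    have hle := hmax (y := a + b) ⟨add_nonneg a0 hb0, le_sub_iff_add_le'.1 hb1, by
      rw [map_add, Complex.add_re, hτ]
      have f : ((a + b : vN S) : H →L[ℂ] H) ξ = (a : H →L[ℂ] H) ξ + (b : H →L[ℂ] H) ξ := rfl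
      rw [f, inner_add_left, Complex.add_re, hval]
      nlinarith⟩ (le_add_of_nonneg_right hb0)
    have := t.re_mono (x := a + b) (y := a) hle
    rw [map_add, Complex.add_re, hτ] at this
    have : 0 < s * t.N (x * R) := mul_pos hs0 (lt_of_le_of_lt (by positivity) hlt')
    linarith

end A2

theorem vec_of (t : Tr (vN S)) (h1 : t.τ 1 = 1) (hf : ∀ x, t.N x = 0 → x = 0)
    (hfac : ∀ c, IsCentral S c → c = 0 ∨ c = 1) :
    ∃ (n : ℕ) (ξ η : Fin n → H), ∀ x : vN S,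
      t.τ x = ∑ i, ⟪η i, (x : H →L[ℂ] H) (ξ i)⟫_ℂ := by
  have hnt : Nontrivial H := by
    by_contra h
    rw [not_nontrivial_iff_subsingleton] at h
    have : (1 : vN S) = 0 := Subtype.ext (by ext v; exact Subsingleton.elim _ _)
    rw [this, map_zero] at h1
    exact zero_ne_one h1
  obtain ⟨ξ, hξ⟩ := exists_norm_eq H zero_le_one
  obtain ⟨r, pr, hr0, hr⟩ := A2.dom t h1 hξ
  obtain ⟨n, u, hu1, hu2⟩ := cover t h1 hf hfac pr hr0
  let w : Fin n → H := fun i => (u i : H →L[ℂ] H) ((r : H →L[ℂ] H) ξ)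
  let V : vN S →ₗ[ℂ] PiLp 2 (fun _ : Fin n => H) :=
    { toFun := fun x => WithLp.toLp 2 fun i => (x : H →L[ℂ] H) (w i)
      map_add' := fun x y => rfl
      map_smul' := fun c x => rfl }
  have hN : ∀ x, t.N x ≤ 2 * ‖V x‖ ^ 2 := fun x => by
    have e : t.N x = ∑ i, t.N (x * u i) := by
      have : ∀ i, t.N (x * u i) = (t.τ (star x * x * (u i * star (u i)))).re := fun i =>
        t.N_mul _ _
      simp only [this]
      rw [← Complex.re_sum, ← map_sum, ← Finset.mul_sum, hu2, mul_one]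
      rfl
    rw [e, PiLp.norm_sq_eq_of_L2, Finset.mul_sum]
    refine Finset.sum_le_sum fun i _ => ?_
    have := hr (x * u i)
    rw [mul_assoc, hu1] at this
    exact this
  obtain ⟨η, hη⟩ := A2.riesz V t.τ 2 fun x => by
    have a1 := t.norm_τ_le 1 x
    rw [star_one, one_mul] at a1
    have a2 : ‖t.j 1‖ = 1 := by
      have := t.N_eq 1
      rw [t.N_one, h1, Complex.one_re] at this
      exact (pow_eq_one_iff_of_nonneg (norm_nonneg _) two_ne_zero).1 this.symm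
    rw [a2, one_mul] at a1
    refine a1.trans (abs_le_of_sq_le_sq' ?_ (by positivity)).2
    rw [← t.N_eq]
    nlinarith [hN x, sq_nonneg ‖V x‖]
  exact ⟨n, w, fun i => η i, fun x => by rw [hη, PiLp.inner_apply]; rfl⟩

end Vale.Agent.P085
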