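import Vale.Agent.P085.F1

/-! Part F of P085: approximate freeness. -/

namespace Vale.Agent.P085

open scoped InnerProductSpace ComplexOrder ComplexConjugate
open Vale.Agent.P104 Vale.Agent.P104.F Filter Topology

namespace Fr

variable {A : Type*} [CStarAlgebra A] {t : Tr A} {B : StarSubalgebra ℂ A}
variable {J : Type} [Fintype J] [DecidableEq J]

/-- Admissible letters. -/
def Adm (B : StarSubalgebra ℂ A) (c : J → A) : Prop := ∀ j, c j ∈ B ∧ c j ∈ unitary A

/-- Real average. -/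
noncomputable def av (D : Design t B) (N : ℕ) (f : D.Ω N → ℝ) : ℝ :=
  ((Fintype.card (D.Ω N) : ℝ))⁻¹ * ∑ ω, f ω

/-- Complex average. -/
noncomputable def avc (D : Design t B) (N : ℕ) (f : D.Ω N → ℂ) : ℂ :=
  ((Fintype.card (D.Ω N) : ℂ))⁻¹ * ∑ ω, f ω

section av
variable (D : Design t B) (N : ℕ)

lemma card_pos : (0 : ℝ) < Fintype.card (D.Ω N) := by
  have := D.ne N
  exact_mod_cast Fintype.card_pos

lemma av_mono {f g : D.Ω N → ℝ} (h : ∀ ω, f ω ≤ g ω) : av D N f ≤ av D N g :=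
  mul_le_mul_of_nonneg_left (Finset.sum_le_sum fun ω _ => h ω) (by positivity)

lemma av_add (f g : D.Ω N → ℝ) : av D N (fun ω => f ω + g ω) = av D N f + av D N g := by
  simp [av, Finset.sum_add_distrib, mul_add]

lemma av_mul (c : ℝ) (f : D.Ω N → ℝ) : av D N (fun ω => c * f ω) = c * av D N f := by
  simp only [av, ← Finset.mul_sum]; ring

lemma av_const (c : ℝ) : av D N (fun _ => c) = c := by
  have := card_pos D N
  simp only [av, Finset.sum_const, Finset.card_univ, nsmul_eq_mul]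
  field_simp

lemma avc_add (f g : D.Ω N → ℂ) : avc D N (fun ω => f ω + g ω) = avc D N f + avc D N g := by
  simp [avc, Finset.sum_add_distrib, mul_add]

lemma avc_mul (c : ℂ) (f : D.Ω N → ℂ) : avc D N (fun ω => c * f ω) = c * avc D N f := by
  simp only [avc, ← Finset.mul_sum]; ring

lemma av_re (f : D.Ω N → ℂ) : av D N (fun ω => (f ω).re) = (avc D N f).re := by
  have : ((Fintype.card (D.Ω N) : ℂ))⁻¹ = (((Fintype.card (D.Ω N) : ℝ)⁻¹ : ℝ) : ℂ) := by simp
  rw [avc, this, Complex.re_ofReal_mul, Complex.re_sum, av]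

lemma a_unitary (ω : D.Ω N) : D.a N ω ∈ unitary A :=
  ⟨by rw [D.sa, D.sq], by rw [D.sa, D.sq]⟩

end av

/-- Lyapunov functions. -/
def Lyap (D : Design t B) (V : (J → A) → ℝ) : Prop :=
  (∀ c, 0 ≤ V c) ∧ ∃ κ : ℝ, 0 < κ ∧ ∃ C : ℝ, ∀ γ : ℝ, 0 < γ → γ ≤ 1 → ∀ c, Adm B c →
    ∀ ε : ℝ, 0 < ε → ∀ᶠ N in atTop, ∑ j, av D N (fun ω => V (upd c j (D.a N ω) γ)) ≤
      (Fintype.card J - κ * γ ^ 2) * V c + C * γ ^ 3 + ε

/-- Functions dominated by a Lyapunov function. -/
def Dom (D : Design t B) (f : (J → A) → ℂ) : Prop :=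
  ∃ V, Lyap D V ∧ ∀ c, Adm B c → ‖f c‖ ^ 2 ≤ V c

variable {D : Design t B}

lemma Lyap.zero : Lyap D (fun _ : J → A => 0) :=
  ⟨fun _ => le_rfl, 1, one_pos, 0, fun γ _ _ c _ ε hε => Eventually.of_forall fun N => by
    simp [av_const, hε.le]⟩

lemma Lyap.add {V V' : (J → A) → ℝ} (h : Lyap D V) (h' : Lyap D V') :
    Lyap D (fun c => V c + V' c) := by
  obtain ⟨h0, κ, hκ, C, h⟩ := h
  obtain ⟨h0', κ', hκ', C', h'⟩ := h'
  refine ⟨fun c => add_nonneg (h0 c) (h0' c), min κ κ', lt_min hκ hκ', C + C',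
    fun γ g0 g1 c hc ε hε => ?_⟩
  filter_upwards [h γ g0 g1 c hc _ (half_pos hε), h' γ g0 g1 c hc _ (half_pos hε)] with N a b
  simp only [av_add, Finset.sum_add_distrib]
  have e1 := mul_le_mul_of_nonneg_right (min_le_left κ κ') (mul_nonneg (sq_nonneg γ) (h0 c))
  have e2 := mul_le_mul_of_nonneg_right (min_le_right κ κ') (mul_nonneg (sq_nonneg γ) (h0' c))
  nlinarith

lemma Lyap.mul {V : (J → A) → ℝ} (h : Lyap D V) {s : ℝ} (hs : 0 < s) :
    Lyap D (fun c => s * V c) := by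
  obtain ⟨h0, κ, hκ, C, h⟩ := h
  refine ⟨fun c => mul_nonneg hs.le (h0 c), κ, hκ, s * C, fun γ g0 g1 c hc ε hε => ?_⟩
  filter_upwards [h γ g0 g1 c hc _ (div_pos hε hs)] with N a
  simp only [av_mul, ← Finset.mul_sum]
  have := mul_le_mul_of_nonneg_left a hs.le
  have e : s * (ε / s) = ε := by field_simp
  nlinarith

lemma Lyap.sum {ι : Type*} (s : Finset ι) {V : ι → (J → A) → ℝ} (h : ∀ i ∈ s, Lyap D (V i)) :
    Lyap D (fun c => ∑ i ∈ s, V i c) := by
  classical
  induction s using Finset.induction_on with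
  | empty => simpa using Lyap.zero
  | insert i s hi ih =>
    simp only [Finset.sum_insert hi]
    exact (h i (Finset.mem_insert_self _ _)).add
      (ih fun k hk => h k (Finset.mem_insert_of_mem hk))

lemma Lyap.small {V : (J → A) → ℝ} (h : Lyap D V) {δ : ℝ} (hδ : 0 < δ) :
    ∃ c, Adm B c ∧ V c ≤ δ := by
  obtain ⟨h0, κ, hκ, C, h⟩ := h
  by_contra hcon
  push Not at hcon
  let T : Set ℝ := {v | ∃ c, Adm B c ∧ v = V c}
  have hT : T.Nonempty := ⟨_, fun _ => 1, fun _ => ⟨one_mem _, one_mem _⟩, rfl⟩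
  have hB : BddBelow T := ⟨0, by rintro _ ⟨c, -, rfl⟩; exact h0 c⟩
  have hm : δ ≤ sInf T := le_csInf hT (by rintro _ ⟨c, hc, rfl⟩; exact (hcon c hc).le)
  have hC := le_abs_self C
  have hC0 := abs_nonneg C
  set γ : ℝ := min 1 (κ * δ / (2 * (|C| + 1))) with hγ
  have g0 : 0 < γ := lt_min one_pos (by positivity)
  have g1 : γ ≤ 1 := min_le_left _ _
  have g2 : γ * (2 * (|C| + 1)) ≤ κ * δ := by
    rw [← le_div_iff₀ (by positivity)]; exact min_le_right _ _
  have hn : (0 : ℝ) ≤ Fintype.card J := by positivity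
  set ε : ℝ := γ ^ 3 / (Fintype.card J + 1) with hε
  have e0 : 0 < ε := by positivity
  have e1 : ε * (Fintype.card J + 1) = γ ^ 3 := by rw [hε]; field_simp
  obtain ⟨_, ⟨c, hc, rfl⟩, hlt⟩ := exists_lt_of_csInf_lt hT (lt_add_of_pos_right _ e0)
  obtain ⟨N, hN⟩ := (h γ g0 g1 c hc ε e0).exists
  have low : ∑ _j : J, sInf T ≤ ∑ j, av D N (fun ω => V (upd c j (D.a N ω) γ)) := by
    refine Finset.sum_le_sum fun j _ => ?_
    rw [← av_const D N (sInf T)]
    exact av_mono D N fun ω => csInf_le hB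
      ⟨_, upd_mem hc j (D.mem N ω) (D.sa N ω) (D.sq N ω) γ, rfl⟩
  rw [Finset.sum_const, Finset.card_univ, nsmul_eq_mul] at low
  have a1 : κ * γ ^ 2 * δ ≤ κ * γ ^ 2 * V c :=
    mul_le_mul_of_nonneg_left (hcon c hc).le (by positivity)
  have a2 := mul_le_mul_of_nonneg_left hlt.le hn
  have a3 := mul_le_mul_of_nonneg_left g2 (sq_nonneg γ)
  have a4 := mul_le_mul_of_nonneg_right hC (pow_pos g0 3).le
  have a5 := mul_nonneg hC0 (pow_pos g0 3).le
  have a6 := pow_pos g0 3
  nlinarith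

lemma Dom.zero : Dom D (fun _ : J → A => 0) := ⟨_, Lyap.zero, fun _ _ => by simp⟩

lemma Dom.add {f g : (J → A) → ℂ} (h : Dom D f) (h' : Dom D g) :
    Dom D (fun c => f c + g c) := by
  obtain ⟨V, hV, h⟩ := h
  obtain ⟨V', hV', h'⟩ := h'
  refine ⟨_, (hV.mul two_pos).add (hV'.mul two_pos), fun c hc => ?_⟩
  linarith [norm_add_sq_le_two (f c) (g c), h c hc, h' c hc]

lemma Dom.of_le {f g : (J → A) → ℂ} (h : Dom D f) {K : ℝ} (hK : 0 < K)
    (hg : ∀ c, Adm B c → ‖g c‖ ≤ K * ‖f c‖) : Dom D g := by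
  obtain ⟨V, hV, h⟩ := h
  refine ⟨_, hV.mul (pow_pos hK 2), fun c hc => ?_⟩
  have := pow_le_pow_left₀ (norm_nonneg _) (hg c hc) 2
  rw [mul_pow] at this
  exact this.trans (mul_le_mul_of_nonneg_left (h c hc) (sq_nonneg K))

lemma Dom.prod (ht : TS t) {u v w : Word A J} (s : ℂ) (hs : ‖s‖ = 1)
    (h : Dom D fun c => t.τ (ev c w))
    (he : (∀ c, Adm B c → t.τ (ev c u) = t.τ (ev c w)) ∨
      ∀ c, Adm B c → t.τ (ev c v) = t.τ (ev c w)) :
    Dom D fun c => s * (t.τ (ev c u) * t.τ (ev c v)) := by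
  rcases he with he | he
  · obtain ⟨K, hK, hb⟩ := expand v
    refine h.of_le (lt_of_lt_of_le one_pos hK) fun c hc => ?_
    rw [norm_mul, hs, one_mul, norm_mul, he c hc, mul_comm]
    exact mul_le_mul_of_nonneg_right ((ht.norm_τ_le _).trans (hb c fun j => (hc j).2).1)
      (norm_nonneg _)
  · obtain ⟨K, hK, hb⟩ := expand u
    refine h.of_le (lt_of_lt_of_le one_pos hK) fun c hc => ?_
    rw [norm_mul, hs, one_mul, norm_mul, he c hc]
    exact mul_le_mul_of_nonneg_right ((ht.norm_τ_le _).trans (hb c fun j => (hc j).2).1)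
      (norm_nonneg _)

omit [Fintype J] in
lemma first (D : Design t B) (c : J → A) (j₀ : J) (l : Word A J) : ∀ p : A,
    Tendsto (fun N => av D N fun ω => ‖t.τ (p * P1 c j₀ (D.a N ω) l)‖ ^ 2) atTop (𝓝 0) := by
  induction l with
  | nil => intro p; simp [P1, av]
  | cons h l ih =>
    intro p
    have h2 : Tendsto (fun N => av D N fun ω => ‖t.τ (p * (dv c j₀ (D.a N ω) h * ev c l))‖ ^ 2)
        atTop (𝓝 0) := by
      rcases h with x | ⟨j, _ | _⟩
      · simp [dv, av]
      · by_cases e : j = j₀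
        · refine (D.var (ev c l * (p * star (c j)))).congr fun N => ?_
          simp only [av, dv, if_pos e, smul_mul_assoc, mul_smul_comm, map_smul, norm_smul,
            norm_neg, Complex.norm_I, one_mul]
          congr 1
          refine Finset.sum_congr rfl fun ω _ => ?_
          rw [← mul_assoc, t.comm]; simp only [mul_assoc]
        · simp [dv, av, e]
      · by_cases e : j = j₀
        · refine (D.var (c j * ev c l * p)).congr fun N => ?_
          simp only [av, dv, if_pos e, smul_mul_assoc, mul_smul_comm, map_smul, norm_smul,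
            Complex.norm_I, one_mul]
          congr 1
          refine Finset.sum_congr rfl fun ω _ => ?_
          rw [← mul_assoc, t.comm]; simp only [mul_assoc]
        · simp [dv, av, e]
    have h3 := ((ih (p * val c h)).const_mul 2).add (h2.const_mul 2)
    rw [mul_zero, add_zero] at h3
    refine squeeze_zero (fun N => ?_) (fun N => ?_) h3
    · rw [← av_const D N 0]; exact av_mono D N fun ω => by positivity
    · rw [← av_mul, ← av_mul, ← av_add]
      refine av_mono D N fun ω => ?_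
      rw [P1, mul_add, map_add, ← mul_assoc]
      exact norm_add_sq_le_two _ _

omit [Fintype J] [DecidableEq J] in
lemma mix' (D : Design t B) (s : ℂ) (p m q : A) :
    Tendsto (fun N => avc D N fun ω => s * t.τ (p * D.a N ω * m * D.a N ω * q)) atTop
      (𝓝 (s * (t.τ m * t.τ (p * q)))) := by
  have := (D.mix m (q * p)).const_mul s
  rw [t.comm q p] at this
  refine this.congr fun N => ?_
  rw [avc_mul, avc]
  congr 2
  refine Finset.sum_congr rfl fun ω _ => ?_
  rw [← mul_assoc, t.comm]; simp only [mul_assoc]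

variable {G : Type} [Group G] {d : J → G} {n : ℕ}

lemma inner (ht : TS t)
    (IH : ∀ w : Word A J, w.length < n → deg d w ≠ 1 → Dom D fun c => t.τ (ev c w))
    (j₀ : J) (p : Word A J) (l : Word A J) : ∀ m : Word A J, deg d (p ++ m ++ l) ≠ 1 →
      (p ++ m ++ l).length ≤ n →
      ((∃ m', m = .inr (j₀, true) :: m') ∨ ∃ p', p = p' ++ [.inr (j₀, false)]) →
      ∃ f, Dom D f ∧ ∀ c, Adm B c → Tendsto (fun N => avc D N fun ω =>
        t.τ (ev c p * D.a N ω * ev c m * P1 c j₀ (D.a N ω) l)) atTop (𝓝 (f c)) := by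
  induction l with
  | nil => intro m _ _ _; exact ⟨_, Dom.zero, fun c _ => by simp [P1, avc]⟩
  | cons h l ih =>
    intro m hd hl tag
    obtain ⟨f, hf, hlim⟩ := ih (m ++ [h]) (by simpa using hd) (by simpa using hl) (by
      rcases tag with ⟨m', rfl⟩ | h'
      · exact Or.inl ⟨_, rfl⟩
      · exact Or.inr h')
    suffices h2 : ∃ g, Dom D g ∧ ∀ c, Adm B c → Tendsto (fun N => avc D N fun ω =>
        t.τ (ev c p * D.a N ω * ev c m * (dv c j₀ (D.a N ω) h * ev c l))) atTop (𝓝 (g c)) by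
      obtain ⟨g, hg, hlim'⟩ := h2
      refine ⟨_, hf.add hg, fun c hc => ((hlim c hc).add (hlim' c hc)).congr fun N => ?_⟩
      rw [← avc_add]
      congr 1
      funext ω
      rw [P1, mul_add, map_add]
      simp [mul_assoc]
    simp only [List.length_append, List.length_cons] at hl
    rcases h with x | ⟨j, _ | _⟩
    · exact ⟨_, Dom.zero, fun c _ => by simp [dv, avc]⟩
    · by_cases e : j = j₀
      swap
      · exact ⟨_, Dom.zero, fun c _ => by simp [dv, avc, e]⟩
      subst e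
      refine ⟨fun c => (-Complex.I) * (t.τ (ev c (m ++ [.inr (j, false)])) * t.τ (ev c (p ++ l))),
        ?_, fun c _ => ?_⟩
      · by_cases e : deg d (m ++ [.inr (j, false)]) = 1
        · refine Dom.prod ht _ (by simp) (IH (p ++ l) (by simp; omega) fun e' => hd ?_)
            (Or.inr fun _ _ => rfl)
          have : p ++ m ++ .inr (j, false) :: l = p ++ (m ++ [.inr (j, false)]) ++ l := by simp
          rw [this, deg_append, deg_append, e, mul_one, ← deg_append, e']
        · rcases tag with ⟨m', rfl⟩ | ⟨p', rfl⟩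
          · refine Dom.prod ht _ (by simp) (IH m' (by simp at hl; omega) fun e' => e ?_)
              (Or.inl fun c hc => ?_)
            · simp [e', dval]
            · simp only [List.cons_append, ev_cons, ev_append, ev_nil, val, mul_one]
              rw [t.comm, mul_assoc, (hc j).2.1, mul_one]
          · exact Dom.prod ht _ (by simp) (IH _ (by simp at hl ⊢; omega) e)
              (Or.inl fun _ _ => rfl)
      · have := mix' D (-Complex.I) (ev c p) (ev c (m ++ [.inr (j, false)])) (ev c l)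
        rw [← ev_append] at this
        refine this.congr fun N => ?_
        simp [dv, val, mul_assoc]
    · by_cases e : j = j₀
      swap
      · exact ⟨_, Dom.zero, fun c _ => by simp [dv, avc, e]⟩
      subst e
      refine ⟨fun c => Complex.I * (t.τ (ev c m) * t.τ (ev c (p ++ .inr (j, true) :: l))),
        ?_, fun c _ => ?_⟩
      · by_cases e : deg d m = 1
        · have hd' : deg d (p ++ .inr (j, true) :: l) ≠ 1 := fun e' => hd (by
            rw [deg_append, deg_append, e, mul_one, ← deg_append, e'])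
          rcases tag with ⟨m', rfl⟩ | ⟨p', rfl⟩
          · exact Dom.prod ht _ (by simp) (IH _ (by simp at hl ⊢; omega) hd')
              (Or.inr fun _ _ => rfl)
          · refine Dom.prod ht _ (by simp) (IH (p' ++ l) (by simp at hl ⊢; omega)
              fun e' => hd' ?_) (Or.inr fun c hc => ?_)
            · simpa [dval] using e'
            · simp only [ev_cons, ev_append, ev_nil, val, mul_one, mul_assoc]
              rw [← mul_assoc (star (c j)), (hc j).2.1, one_mul]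
        · exact Dom.prod ht _ (by simp) (IH m (by omega) e) (Or.inl fun _ _ => rfl)
      · have := mix' D Complex.I (ev c p) (ev c m) (ev c (.inr (j, true) :: l))
        rw [← ev_append] at this
        refine this.congr fun N => ?_
        simp [dv, val, mul_assoc]

lemma outer (ht : TS t)
    (IH : ∀ w : Word A J, w.length < n → deg d w ≠ 1 → Dom D fun c => t.τ (ev c w))
    (j₀ : J) (l : Word A J) : ∀ p : Word A J, deg d (p ++ l) ≠ 1 → (p ++ l).length ≤ n →
      ∃ f, Dom D f ∧ ∀ c, Adm B c → Tendsto (fun N => avc D N fun ω =>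
        t.τ (ev c p * P2 c j₀ (D.a N ω) l)) atTop (𝓝 (f c)) := by
  induction l with
  | nil => intro p _ _; exact ⟨_, Dom.zero, fun c _ => by simp [P2, avc]⟩
  | cons h l ih =>
    intro p hd hl
    obtain ⟨f, hf, hlim⟩ := ih (p ++ [h]) (by simpa using hd) (by simpa using hl)
    suffices h2 : ∃ g, Dom D g ∧ ∀ c, Adm B c → Tendsto (fun N => avc D N fun ω =>
        t.τ (ev c p * (dv c j₀ (D.a N ω) h * P1 c j₀ (D.a N ω) l))) atTop (𝓝 (g c)) by
      obtain ⟨g, hg, hlim'⟩ := h2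
      refine ⟨_, hf.add hg, fun c hc => ((hlim c hc).add (hlim' c hc)).congr fun N => ?_⟩
      rw [← avc_add]
      congr 1
      funext ω
      rw [P2, mul_add, map_add]
      simp [mul_assoc]
    rcases h with x | ⟨j, _ | _⟩
    · exact ⟨_, Dom.zero, fun c _ => by simp [dv, avc]⟩
    · by_cases e : j = j₀
      swap
      · exact ⟨_, Dom.zero, fun c _ => by simp [dv, avc, e]⟩
      subst e
      obtain ⟨g, hg, hlim'⟩ := inner ht IH j (p ++ [.inr (j, false)]) l [] (by simpa using hd)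
        (by simpa using hl) (Or.inr ⟨_, rfl⟩)
      refine ⟨fun c => (-Complex.I) * g c, hg.of_le one_pos fun c _ => by simp, fun c hc =>
        ((hlim' c hc).const_mul (-Complex.I)).congr fun N => ?_⟩
      rw [← avc_mul]
      simp [dv, val, mul_assoc]
    · by_cases e : j = j₀
      swap
      · exact ⟨_, Dom.zero, fun c _ => by simp [dv, avc, e]⟩
      subst e
      obtain ⟨g, hg, hlim'⟩ := inner ht IH j p l [.inr (j, true)] (by simpa using hd)
        (by simpa using hl) (Or.inl ⟨_, rfl⟩)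
      refine ⟨fun c => Complex.I * g c, hg.of_le one_pos fun c _ => by simp, fun c hc =>
        ((hlim' c hc).const_mul Complex.I).congr fun N => ?_⟩
      rw [← avc_mul]
      simp [dv, val, mul_assoc]

omit [Fintype J] in
lemma one_step (ht : TS t) (l : Word A J) : ∃ K : ℝ, 0 ≤ K ∧ ∀ (j : J) (c : J → A) (f : ℂ),
    Adm B c → Tendsto (fun N => avc D N fun ω => t.τ (P2 c j (D.a N ω) l)) atTop (𝓝 f) →
    ∀ γ : ℝ, 0 < γ → γ ≤ 1 → ∀ ε : ℝ, 0 < ε → ∀ᶠ N in atTop,
      av D N (fun ω => ‖t.τ (ev (upd c j (D.a N ω) γ) l)‖ ^ 2) ≤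
        (al γ ^ 2) ^ cnt j l * ‖t.τ (ev c l)‖ ^ 2 + 2 * γ ^ 2 * (‖t.τ (ev c l)‖ * ‖f‖) +
          K * γ ^ 3 + ε := by
  obtain ⟨K, hK, hb⟩ := expand l
  refine ⟨10 * K ^ 2, by positivity, fun j c f hc hf γ g0 g1 ε hε => ?_⟩
  obtain ⟨b0, hb⟩ := hb c fun j => (hc j).2
  set W := t.τ (ev c l) with hW
  have hWK : ‖W‖ ≤ K := (ht.norm_τ_le _).trans b0
  have e0 := half_pos hε
  have l1 := (first D c j l 1).const_mul (2 + K ^ 2 / (ε / 2))
  have l2 := (Complex.continuous_re.tendsto _).comp (hf.const_mul (conj W)) |>.const_mul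
    (2 * γ ^ 2)
  have l3 := l2.add l1
  have hre : (conj W * f).re ≤ ‖W‖ * ‖f‖ := by
    refine (Complex.re_le_norm _).trans ?_
    rw [norm_mul, Complex.norm_conj]
  have hlt : 2 * γ ^ 2 * (conj W * f).re + (2 + K ^ 2 / (ε / 2)) * 0 <
      2 * γ ^ 2 * (‖W‖ * ‖f‖) + ε / 2 := by
    nlinarith [mul_le_mul_of_nonneg_left hre (sq_nonneg γ)]
  filter_upwards [l3.eventually (gt_mem_nhds hlt)] with N hN
  have s0 : 0 ≤ (al γ ^ 2) ^ cnt j l := by positivity
  have s1 : (al γ ^ 2) ^ cnt j l ≤ 1 :=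
    pow_le_one₀ (sq_nonneg _) (by nlinarith [al_sq γ, mul_nonneg (sq_nonneg (al γ)) (sq_nonneg γ)])
  have key : ∀ ω, ‖t.τ (ev (upd c j (D.a N ω) γ) l)‖ ^ 2 ≤ (al γ ^ 2) ^ cnt j l *
      (‖W‖ ^ 2 + ε / 2 + 10 * K ^ 2 * γ ^ 3 + (2 * γ ^ 2 * (conj W * t.τ (P2 c j (D.a N ω) l)).re
        + (2 + K ^ 2 / (ε / 2)) * ‖t.τ (1 * P1 c j (D.a N ω) l)‖ ^ 2)) := by
    intro ω
    obtain ⟨-, b2, b3⟩ := hb j _ (a_unitary D N ω)
    have h1 := scalar (p1 := t.τ (1 * P1 c j (D.a N ω) l)) g0.le g1 e0 hWK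
      ((ht.norm_τ_le _).trans b2) ((ht.norm_τ_le _).trans (b3 γ g0.le g1))
    have h2 : W + γ * t.τ (1 * P1 c j (D.a N ω) l) + γ ^ 2 * t.τ (P2 c j (D.a N ω) l) +
        t.τ (Q c j (D.a N ω) γ l - (ev c l + (γ : ℂ) • P1 c j (D.a N ω) l +
          ((γ : ℂ) ^ 2) • P2 c j (D.a N ω) l)) = t.τ (Q c j (D.a N ω) γ l) := by
      simp [hW]
    rw [h2] at h1
    rw [ev_upd c j (D.sa N ω), map_smul, norm_smul, mul_pow, norm_pow, Complex.norm_real,
      ← pow_mul, mul_comm (cnt j l) 2, pow_mul, Real.norm_eq_abs, sq_abs]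
    exact mul_le_mul_of_nonneg_left (by linarith) s0
  have h3 := av_mono D N key
  rw [av_mul, av_add, av_const, av_add, av_mul, av_mul, av_re, avc_mul] at h3
  simp only [Function.comp] at hN
  have h4 := mul_le_mul_of_nonneg_left (add_le_add_right hN.le
    (‖W‖ ^ 2 + ε / 2 + 10 * K ^ 2 * γ ^ 3)) s0
  have h5 : 0 ≤ ε / 2 + 10 * K ^ 2 * γ ^ 3 + (2 * γ ^ 2 * (‖W‖ * ‖f‖) + ε / 2) := by positivity
  have h6 := mul_le_mul_of_nonneg_right s1 h5
  nlinarith

lemma dom_word (ht : TS t) (D : Design t B) (d : J → G) (n : ℕ) :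
    ∀ w : Word A J, w.length < n → deg d w ≠ 1 → Dom D fun c => t.τ (ev c w) := by
  induction n with
  | zero => intro w h; omega
  | succ n IH =>
    intro l hl hd
    choose f hf hlim using fun j => outer ht IH j l [] (by simpa using hd) (by simp; omega)
    choose V hV hfV using hf
    obtain ⟨hV0, κ, hκ, C, hV'⟩ := Lyap.sum Finset.univ fun j _ => hV j
    obtain ⟨K, hK, hst⟩ := one_step (D := D) ht l
    obtain ⟨j₁, hj₁⟩ := exists_cnt d l hd
    have hn : (1 : ℝ) ≤ Fintype.card J := by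
      have : Nonempty J := ⟨j₁⟩
      exact_mod_cast Fintype.card_pos
    set n₀ : ℝ := (Fintype.card J : ℝ) with hn₀
    set Λ : ℝ := 8 * n₀ / κ with hΛ
    have hΛ0 : 0 < Λ := by positivity
    have hΛ1 : Λ * κ = 8 * n₀ := by rw [hΛ]; field_simp
    refine ⟨fun c => ‖t.τ (ev c l)‖ ^ 2 + Λ * ∑ j, V j c, ⟨fun c => add_nonneg (sq_nonneg _)
      (mul_nonneg hΛ0.le (hV0 c)), min (1 / 4) (κ / 2), lt_min (by norm_num) (half_pos hκ),
      n₀ * K + Λ * C, fun γ g0 g1 c hc ε hε => ?_⟩,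
      fun c _ => le_add_of_nonneg_right (mul_nonneg hΛ0.le (hV0 c))⟩
    have e0 : 0 < ε / (2 * n₀) := by positivity
    have e1 : 0 < ε / (2 * Λ) := by positivity
    filter_upwards [hV' γ g0 g1 c hc _ e1, eventually_all.2 fun j => hst j c (f j c) hc
      (by simpa using hlim j c hc) γ g0 g1 _ e0] with N a b
    simp only [av_add, av_mul, Finset.sum_add_distrib, ← Finset.mul_sum]
    set W := ‖t.τ (ev c l)‖ with hW
    have a0 := al_sq γ
    have a1 : al γ ^ 2 ≤ 1 - γ ^ 2 / 2 := by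
      have g2 : γ ^ 2 ≤ 1 := pow_le_one₀ g0.le g1
      have : 1 ≤ (1 - γ ^ 2 / 2) * (1 + γ ^ 2) := by nlinarith [sq_nonneg γ]
      by_contra hcon
      push Not at hcon
      nlinarith [sq_nonneg γ]
    have a2 : al γ ^ 2 ≤ 1 := by nlinarith [sq_nonneg γ]
    have s1 : ∀ j, (al γ ^ 2) ^ cnt j l ≤ 1 - if j = j₁ then γ ^ 2 / 2 else 0 := by
      intro j
      split_ifs with e
      · subst e
        exact (pow_le_of_le_one (sq_nonneg _) a2 hj₁.ne').trans a1
      · rw [sub_zero]; exact pow_le_one₀ (sq_nonneg _) a2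
    have s2 : ∀ j, 2 * (W * ‖f j c‖) ≤ W ^ 2 / (4 * n₀) + 4 * n₀ * V j c := by
      intro j
      have h1 : W ^ 2 / (4 * n₀) + 4 * n₀ * ‖f j c‖ ^ 2 - 2 * (W * ‖f j c‖) =
          (W - 4 * n₀ * ‖f j c‖) ^ 2 / (4 * n₀) := by field_simp; ring
      have h2 : 0 ≤ (W - 4 * n₀ * ‖f j c‖) ^ 2 / (4 * n₀) := by positivity
      have h3 := mul_le_mul_of_nonneg_left (hfV j c hc) (by positivity : 0 ≤ 4 * n₀)
      linarith
    have s3 : ∑ j, av D N (fun ω => ‖t.τ (ev (upd c j (D.a N ω) γ) l)‖ ^ 2) ≤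
        ∑ j, ((1 - if j = j₁ then γ ^ 2 / 2 else 0) * W ^ 2 +
          γ ^ 2 * (W ^ 2 / (4 * n₀) + 4 * n₀ * V j c) + (K * γ ^ 3 + ε / (2 * n₀))) := by
      refine Finset.sum_le_sum fun j _ => (b j).trans ?_
      have h1 := mul_le_mul_of_nonneg_right (s1 j) (sq_nonneg W)
      have h2 := mul_le_mul_of_nonneg_left (s2 j) (sq_nonneg γ)
      nlinarith
    simp only [Finset.sum_add_distrib, ← Finset.mul_sum, ← Finset.sum_mul, Finset.sum_sub_distrib,
      Finset.sum_const, Finset.card_univ, nsmul_eq_mul, Finset.sum_ite_eq', Finset.mem_univ,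
      if_true, ← hn₀] at s3
    have s4 : n₀ * (W ^ 2 / (4 * n₀)) = W ^ 2 / 4 := by field_simp
    have s5 : n₀ * (ε / (2 * n₀)) = ε / 2 := by field_simp
    have s6 : Λ * (ε / (2 * Λ)) = ε / 2 := by field_simp
    have s7 := mul_le_mul_of_nonneg_left a hΛ0.le
    have s8 := mul_le_mul_of_nonneg_right (min_le_left (1 / 4) (κ / 2))
      (mul_nonneg (sq_nonneg γ) (sq_nonneg W))
    have s9 := mul_le_mul_of_nonneg_right (min_le_right (1 / 4) (κ / 2))
      (mul_nonneg (mul_nonneg (sq_nonneg γ) hΛ0.le) (hV0 c))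
    rw [s4, s5] at s3
    beta_reduce at s9
    have s10 : κ / 2 * (γ ^ 2 * Λ * ∑ j, V j c) = 4 * n₀ * (γ ^ 2 * ∑ j, V j c) := by
      linear_combination (γ ^ 2 * (∑ j, V j c) / 2) * hΛ1
    nlinarith

end Fr

open Fr in
theorem free {A : Type*} [CStarAlgebra A] {t : Tr A} {B : StarSubalgebra ℂ A}
    (ht : TS t) (D : Design t B) {J G : Type} [Fintype J] [Group G] (d : J → G)
    (W : Finset (Word A J)) (δ : ℝ) (hδ : 0 < δ) :
    ∃ c : J → A, (∀ j, c j ∈ B ∧ c j ∈ unitary A) ∧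
      ∀ l ∈ W, deg d l ≠ 1 → ‖t.τ (ev c l)‖ ≤ δ := by
  classical
  have h : ∀ l : Word A J, ∃ V, Lyap D V ∧ (deg d l ≠ 1 → ∀ c, Adm B c →
      ‖t.τ (ev c l)‖ ^ 2 ≤ V c) := by
    intro l
    by_cases e : deg d l = 1
    · exact ⟨_, Lyap.zero, fun h => absurd e h⟩
    · obtain ⟨V, h1, h2⟩ := dom_word ht D d _ l (Nat.lt_succ_self _) e
      exact ⟨V, h1, fun _ => h2⟩
  choose V hV hle using h
  obtain ⟨c, hc, hs⟩ := (Lyap.sum W fun l _ => hV l).small (pow_pos hδ 2)
  refine ⟨c, hc, fun l hl hd => ?_⟩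
  have h1 := Finset.single_le_sum (f := fun l => V l c) (fun l _ => (hV l).1 c) hl
  exact (pow_le_pow_iff_left₀ (norm_nonneg _) hδ.le two_ne_zero).1
    ((hle l hd c hc).trans (h1.trans hs))

end Vale.Agent.P085
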