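import Vale.Agent.P085.K1a

/-! Part K1 of P085: the perturbation estimate. -/

namespace Vale.Agent.P085

open scoped InnerProductSpace ComplexOrder ComplexConjugate
open Vale.Agent.P104 Complex Finset

variable {A : Type*} [CStarAlgebra A] {t : Tr A}

namespace K1

lemma uprod_unit {g : ℕ → A} (hg : ∀ j, g j ∈ unitary A) {V : A} (hV : V ∈ unitary A) (j : ℕ) :
    uprod g V j ∈ unitary A := by
  induction j with
  | zero => exact one_mem _
  | succ j ih => exact mul_mem ih (mul_mem (mul_mem (hg j) hV) (Unitary.star_mem (hg j)))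

lemma norm_mul_unit {X U : A} (hX : ‖X‖ ≤ 1) (hU : U ∈ unitary A) : ‖X * U‖ ≤ 1 := by
  rwa [CStarRing.norm_mul_mem_unitary _ hU]

lemma N_unit (ht : TS t) {U : A} (hU : U ∈ unitary A) : t.N U = 1 := by
  have := t.N_unitary_mul hU 1
  rwa [mul_one, N_one' ht] at this

lemma core (ht : TS t) (L : ℕ) (hL : 0 < L) (g : ℕ → A) (hg : ∀ j, g j ∈ unitary A)
    (ρ s : A) (hρ : ‖ρ‖ ≤ 1) (h0 : t.τ ρ = 0) (hs : star s = s) (hs1 : ‖s‖ ≤ 1)
    (hν : t.N s ≤ ‖t.τ (star ρ * s)‖)
    (horth : ∀ j < L, ∀ k < L, j ≠ k → ∃ C : StarSubalgebra ℂ A, IsClosed (C : Set A) ∧ ρ ∈ C ∧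
      s ∈ C ∧ (∀ i < L, ∀ l < L, (i, l) ≠ (j, k) → g i * star (g l) * s * g l * star (g i) ∈ C) ∧
      ∀ X ∈ C, t.τ (X * (g j * star (g k) * s * g k * star (g j))) = 0) :
    ∃ V ∈ unitary A, t.N (V - 1) ≤ 1 / L ∧ t.N s ^ 2 / 200 ≤ ‖t.τ (star ρ * uprod g V L)‖ := by
  haveI := nontriv ht
  obtain ⟨ν, hνe⟩ : ∃ ν, ν = t.N s := ⟨_, rfl⟩
  rw [← hνe] at hν ⊢
  have ν0 : 0 ≤ ν := hνe ▸ t.N_nonneg s
  have ν1 : ν ≤ 1 := hνe ▸ N_le_one ht hs1
  have L0 : (0 : ℝ) < L := by exact_mod_cast hL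
  obtain ⟨a, ha⟩ : ∃ a : ℝ, a = ν / 200 / L := ⟨_, rfl⟩
  have a0 : 0 ≤ a := by rw [ha]; positivity
  have aL : a * L = ν / 200 := by rw [ha]; field_simp
  have na : ‖(a : ℂ)‖ = a := by rw [norm_real, Real.norm_of_nonneg a0]
  obtain ⟨b, hb⟩ : ∃ b : A, b = (a : ℂ) • ∑ k ∈ range L, star (g k) * s * g k := ⟨_, rfl⟩
  have bsa : star b = b := by
    rw [hb, star_smul, star_sum, star_def, conj_ofReal]
    simp only [star_mul, star_star, hs, mul_assoc]
  have bn : ‖b‖ ≤ ν / 200 := by
    rw [hb, norm_smul, na, ← aL]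
    refine mul_le_mul_of_nonneg_left ((norm_sum_le _ _).trans ?_) a0
    calc _ ≤ ∑ k ∈ range L, (1 : ℝ) := sum_le_sum fun k _ => by
          rwa [CStarRing.norm_mul_mem_unitary _ (hg k),
            CStarRing.norm_mem_unitary_mul _ (Unitary.star_mem (hg k))]
      _ = L := by simp
  have bN : t.N b = a * (ν / 200) * ν := by
    rw [hb, t.N_smul, na, t.N_sum_of_orth]
    · have : ∀ k ∈ range L, t.N (star (g k) * s * g k) = ν := fun k _ => by
        rw [t.N_mul_unitary (hg k), t.N_unitary_mul (Unitary.star_mem (hg k)), hνe]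
      rw [sum_congr rfl this, sum_const, card_range, nsmul_eq_mul, ← aL]; ring
    · intro j hj k hk hjk
      obtain ⟨C, -, -, hsC, -, h4⟩ := horth j (mem_range.1 hj) k (mem_range.1 hk) hjk
      rw [← h4 s hsC]
      simp only [star_mul, star_star, hs, mul_assoc]
      rw [t.comm]
      simp only [mul_assoc]
  obtain ⟨f, hf⟩ := exists_cay bsa (by linarith)
  have hV := hf.unit
  obtain ⟨V, hVe⟩ : ∃ V, V = (1 + I • b) * f := ⟨_, rfl⟩
  rw [← hVe] at hV
  have bj : ∀ j, g j * b * star (g j) =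
      (a : ℂ) • ∑ k ∈ range L, g j * star (g k) * s * g k * star (g j) := by
    intro j
    rw [hb, mul_smul_comm, smul_mul_assoc, mul_sum, sum_mul]
    simp only [mul_assoc]
  have bjN : ∀ j, t.N (g j * b * star (g j)) = t.N b := fun j => by
    rw [t.N_mul_unitary (Unitary.star_mem (hg j)), t.N_unitary_mul (hg j)]
  have hU := uprod_unit hg hV
  -- the linear term
  have lin : ∀ j < L, ∀ X : A, (X = 1 ∨ X = star ρ) →
      t.τ (X * uprod g V j * (g j * b * star (g j))) = a * t.τ (X * uprod g V j * s) := by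
    intro j hj X hX
    rw [bj, mul_smul_comm, map_smul, smul_eq_mul, mul_sum, map_sum, sum_eq_single j]
    · rw [(hg j).2, one_mul, mul_assoc s, (hg j).2, mul_one]
    · intro k hk hkj
      obtain ⟨C, hC, hρC, -, h3, h4⟩ := horth j hj k (mem_range.1 hk) hkj.symm
      refine h4 _ (mul_mem ?_ ?_)
      · rcases hX with rfl | rfl
        · exact one_mem _
        · exact star_mem hρC
      · have : ∀ i ≤ j, uprod g V i ∈ C := by
          intro i
          induction i with
          | zero => exact fun _ => one_mem _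
          | succ i ih =>
            intro hi
            have hbi : g i * b * star (g i) ∈ C := by
              rw [bj]
              refine SMulMemClass.smul_mem _ (sum_mem fun l hl => ?_)
              exact h3 i (by omega) l (mem_range.1 hl) fun h => by
                have := (Prod.ext_iff.1 h).1
                simp only at this
                omega
            refine mul_mem (ih (by omega)) ?_
            rw [hVe, conj_V (hg i)]
            exact mul_mem (add_mem (one_mem _) (SMulMemClass.smul_mem _ hbi))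
              ((hf.conj (hg i)).mem hC hbi)
        exact this j le_rfl
    · intro h; exact absurd (mem_range.2 hj) h
  have step : ∀ j < L, ∀ X : A, (X = 1 ∨ X = star ρ) →
      ‖t.τ (X * uprod g V (j + 1)) - t.τ (X * uprod g V j) -
        2 * I * (a * t.τ (X * uprod g V j * s))‖ ≤ 4 * (a * (ν / 200) * ν) := by
    intro j hj X hX
    have hX1 : ‖X‖ ≤ 1 := by
      rcases hX with rfl | rfl
      · rw [norm_one]
      · rwa [norm_star]
    have := (hf.conj (hg j)).step ht (norm_mul_unit hX1 (hU j))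
    rw [lin j hj X hX, bjN, bN, ← conj_V (hg j), ← hVe, mul_assoc X] at this
    exact this
  have n2 : ∀ z : ℂ, ‖2 * I * (a * z)‖ = 2 * a * ‖z‖ := fun z => by
    rw [norm_mul, norm_mul, norm_mul, na, norm_I]; simp; ring
  have e1 : ∀ j ≤ L, ‖t.τ (uprod g V j) - 1‖ ≤ 3 * a * j := by
    intro j
    induction j with
    | zero => intro _; simp [uprod, ht.one]
    | succ j ih =>
      intro hj
      have h1 := step j (by omega) 1 (Or.inl rfl)
      simp only [one_mul] at h1
      have h2 : ‖t.τ (uprod g V j * s)‖ ≤ 1 := by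
        have := t.norm_τ_le_amgm (star (uprod g V j)) s one_pos
        rw [star_star, t.N_star, N_unit ht (hU j), ← hνe] at this
        linarith
      have h3 := ih (by omega)
      have e : t.τ (uprod g V (j + 1)) - 1 = (t.τ (uprod g V (j + 1)) - t.τ (uprod g V j) -
          2 * I * (a * t.τ (uprod g V j * s))) + 2 * I * (a * t.τ (uprod g V j * s)) +
          (t.τ (uprod g V j) - 1) := by ring
      rw [e]
      refine (norm_add₃_le).trans ?_
      rw [n2]
      push_cast
      have h5 : a * ‖t.τ (uprod g V j * s)‖ ≤ a := mul_le_of_le_one_right a0 h2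
      have h6 : a * (ν * ν) ≤ a := mul_le_of_le_one_right a0 (by nlinarith)
      nlinarith
  have e2 : ∀ j ≤ L, t.N (uprod g V j - 1) ≤ 6 * (ν / 200) := by
    intro j hj
    rw [t.N_sub_comm, t.N_sub, N_one' ht, N_unit ht (hU j), star_one, one_mul]
    have h1 := (abs_re_le_norm _).trans (e1 j hj)
    rw [sub_re, one_re] at h1
    have h2 : a * j ≤ a * L := mul_le_mul_of_nonneg_left (by exact_mod_cast hj) a0
    linarith [(abs_le.1 h1).1]
  have e3 : ∀ j ≤ L, ‖t.τ (star ρ * uprod g V j * s) - t.τ (star ρ * s)‖ ≤ ν / 4 := by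
    intro j hj
    have e : t.τ (star ρ * uprod g V j * s) - t.τ (star ρ * s) =
        t.τ (star (ρ * s) * (uprod g V j - 1)) := by
      rw [star_mul, hs, mul_sub, mul_one, map_sub, t.comm (star ρ * uprod g V j), t.comm (star ρ),
        mul_assoc]
    rw [e]
    refine (t.norm_τ_le_amgm _ _ (by norm_num : (0 : ℝ) < 1 / 4)).trans ?_
    have h1 := ht.mul_le ρ s
    rw [← hνe] at h1
    have h2 : ‖ρ‖ ^ 2 ≤ 1 := by nlinarith [norm_nonneg ρ]
    have h3 := e2 j hj
    have h4 : t.N (ρ * s) ≤ ν := by nlinarith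
    linarith
  have e4 : ∀ j ≤ L, ‖t.τ (star ρ * uprod g V j) - 2 * I * (a * (j * t.τ (star ρ * s)))‖ ≤
      a * ν * j := by
    intro j
    induction j with
    | zero => intro _; simp [uprod, t.τ_star, h0]
    | succ j ih =>
      intro hj
      have h1 := step j (by omega) _ (Or.inr rfl)
      have h2 := e3 j (by omega)
      have h3 := ih (by omega)
      have e : t.τ (star ρ * uprod g V (j + 1)) - 2 * I * (a * ((j + 1 : ℕ) * t.τ (star ρ * s))) =
          (t.τ (star ρ * uprod g V (j + 1)) - t.τ (star ρ * uprod g V j) -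
          2 * I * (a * t.τ (star ρ * uprod g V j * s))) +
          2 * I * (a * (t.τ (star ρ * uprod g V j * s) - t.τ (star ρ * s))) +
          (t.τ (star ρ * uprod g V j) - 2 * I * (a * (j * t.τ (star ρ * s)))) := by
        push_cast; ring
      rw [e]
      refine (norm_add₃_le).trans ?_
      rw [n2]
      push_cast
      have h5 := mul_le_mul_of_nonneg_left h2 a0
      have h6 : a * ν * ν ≤ a * ν := mul_le_of_le_one_right (mul_nonneg a0 ν0) ν1
      nlinarith
  refine ⟨V, hV, ?_, ?_⟩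
  · have := hf.N_sub ht
    rw [← hVe, bN] at this
    refine this.trans ?_
    rw [le_div_iff₀ L0]
    have : 16 * (a * (ν / 200) * ν) * L = 16 * (ν / 200) * (ν / 200) * ν := by rw [← aL]; ring
    rw [this]
    nlinarith [mul_nonneg ν0 ν0]
  · have h1 := e4 L le_rfl
    have h2 := norm_sub_norm_le (2 * I * (a * (L * t.τ (star ρ * s))))
      (t.τ (star ρ * uprod g V L))
    rw [norm_sub_rev, n2, norm_mul, norm_natCast] at h2
    have h3 : a * ν * L = ν ^ 2 / 200 := by rw [mul_right_comm, aL]; ring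
    have h4 : 2 * a * (L * ‖t.τ (star ρ * s)‖) = ν / 100 * ‖t.τ (star ρ * s)‖ := by
      have : ν / 100 = 2 * (a * L) := by rw [aL]; ring
      rw [this]; ring
    have h5 : ν / 100 * ν ≤ ν / 100 * ‖t.τ (star ρ * s)‖ :=
      mul_le_mul_of_nonneg_left hν (by linarith)
    nlinarith

lemma core2 (ht : TS t) (L : ℕ) (hL : 0 < L) (g : ℕ → A) (hg : ∀ j, g j ∈ unitary A)
    (ρ : A) (hρ : ‖ρ‖ ≤ 1) (h0 : t.τ ρ = 0)
    (horth : ∀ j < L, ∀ k < L, j ≠ k → ∃ C : StarSubalgebra ℂ A, IsClosed (C : Set A) ∧ ρ ∈ C ∧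
      (∀ i < L, ∀ l < L, (i, l) ≠ (j, k) → g i * star (g l) * ρ * g l * star (g i) ∈ C) ∧
      ∀ X ∈ C, t.τ (X * (g j * star (g k) * ρ * g k * star (g j))) = 0)
    (α : ℂ) (hα : ‖α‖ = 1 / 2) (s : A) (hs : s = α • ρ + conj α • star ρ)
    (hν : t.N s ≤ ‖t.τ (star ρ * s)‖) (hν2 : t.N ρ ≤ 2 * t.N s) :
    ∃ V ∈ unitary A, t.N (V - 1) ≤ 1 / L ∧ t.N ρ ^ 2 / 800 ≤ ‖t.τ (star ρ * uprod g V L)‖ := by
  have sa : star s = s := by
    rw [hs, star_add, star_smul, star_smul, star_star, star_def, conj_conj, add_comm]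
  have sn : ‖s‖ ≤ 1 := by
    rw [hs]
    refine (norm_add_le _ _).trans ?_
    rw [norm_smul, norm_smul, norm_star, norm_conj, hα]
    linarith
  have ex : ∀ i l, g i * star (g l) * s * g l * star (g i) =
      α • (g i * star (g l) * ρ * g l * star (g i)) +
        conj α • star (g i * star (g l) * ρ * g l * star (g i)) := by
    intro i l
    simp only [hs, star_mul, star_star, mul_add, add_mul, mul_smul_comm, smul_mul_assoc, mul_assoc]
  obtain ⟨V, hV, h1, h2⟩ := core ht L hL g hg ρ s hρ h0 sa sn hν (by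
    intro j hj k hk hjk
    obtain ⟨C, hC, hρC, h3, h4⟩ := horth j hj k hk hjk
    refine ⟨C, hC, hρC, ?_, ?_, ?_⟩
    · rw [hs]
      exact add_mem (SMulMemClass.smul_mem _ hρC) (SMulMemClass.smul_mem _ (star_mem hρC))
    · intro i hi l hl h
      rw [ex]
      exact add_mem (SMulMemClass.smul_mem _ (h3 i hi l hl h))
        (SMulMemClass.smul_mem _ (star_mem (h3 i hi l hl h)))
    · intro X hX
      have h5 : t.τ (X * star (g j * star (g k) * ρ * g k * star (g j))) = 0 := by
        rw [t.comm, ← star_star X, ← star_mul, t.τ_star, h4 _ (star_mem hX), map_zero]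
      rw [ex, mul_add, mul_smul_comm, mul_smul_comm, map_add, map_smul, map_smul, h4 X hX, h5,
        smul_zero, smul_zero, add_zero])
  refine ⟨V, hV, h1, le_trans ?_ h2⟩
  nlinarith [t.N_nonneg ρ]

end K1

theorem key_abs (ht : TS t) (L : ℕ) (hL : 0 < L) (g : ℕ → A) (hg : ∀ j, g j ∈ unitary A)
    (ρ : A) (hρ : ‖ρ‖ ≤ 1) (h0 : t.τ ρ = 0)
    (horth : ∀ j < L, ∀ k < L, j ≠ k → ∃ C : StarSubalgebra ℂ A, IsClosed (C : Set A) ∧ ρ ∈ C ∧
      (∀ i < L, ∀ l < L, (i, l) ≠ (j, k) → g i * star (g l) * ρ * g l * star (g i) ∈ C) ∧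
      ∀ X ∈ C, t.τ (X * (g j * star (g k) * ρ * g k * star (g j))) = 0) :
    ∃ V ∈ unitary A, t.N (V - 1) ≤ 1 / L ∧ t.N ρ ^ 2 / 800 ≤ ‖t.τ (star ρ * uprod g V L)‖ := by
  obtain ⟨p, hp⟩ : ∃ p : A, p = (1 / 2 : ℂ) • ρ + conj (1 / 2 : ℂ) • star ρ := ⟨_, rfl⟩
  obtain ⟨q, hq⟩ : ∃ q : A, q = (-I / 2 : ℂ) • ρ + conj (-I / 2 : ℂ) • star ρ := ⟨_, rfl⟩
  have psa : star p = p := by
    rw [hp, star_add, star_smul, star_smul, star_star, star_def, conj_conj, add_comm]
  have qsa : star q = q := by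
    rw [hq, star_add, star_smul, star_smul, star_star, star_def, conj_conj, add_comm]
  have c1 : conj (1 / 2 : ℂ) = 1 / 2 := by apply Complex.ext <;> simp
  have c2 : conj (-I / 2 : ℂ) = I / 2 := by rw [map_div₀, map_neg, conj_I, neg_neg, map_ofNat]
  have e : ρ = p + I • q := by
    rw [hp, hq, c1, c2, smul_add, smul_smul, smul_smul]
    have a1 : I * (-I / 2) = 1 / 2 := by rw [← mul_div_assoc, mul_neg, I_mul_I, neg_neg]
    have a2 : I * (I / 2) = -(1 / 2) := by rw [← mul_div_assoc, I_mul_I, neg_div]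
    rw [a1, a2]
    module
  have es : star ρ = p - I • q := by
    rw [e, star_add, star_smul, psa, qsa, star_def, conj_I, neg_smul, sub_eq_add_neg]
  have re : (t.τ (p * q)).im = 0 := by
    have := t.τ_star (p * q)
    rw [star_mul, psa, qsa, t.comm] at this
    exact conj_eq_iff_im.1 this.symm
  have np : t.τ (p * p) = t.N p := by rw [← t.τ_self, psa]
  have nq : t.τ (q * q) = t.N q := by rw [← t.τ_self, qsa]
  have hN : t.N ρ = t.N p + t.N q := by
    rw [e, t.N_add, t.N_smul, psa, mul_smul_comm, map_smul, smul_eq_mul, mul_re, re, norm_I]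
    simp
  rcases le_total (t.N p) (t.N q) with h | h
  · refine K1.core2 ht L hL g hg ρ hρ h0 horth (-I / 2) (by simp) q hq ?_ (by linarith)
    refine le_trans ?_ (abs_im_le_norm _)
    rw [es, sub_mul, smul_mul_assoc, map_sub, map_smul, nq, smul_eq_mul, sub_im, re]
    simpa using le_abs_self _
  · refine K1.core2 ht L hL g hg ρ hρ h0 horth (1 / 2) (by simp) p hp ?_ (by linarith)
    refine le_trans ?_ (re_le_norm _)
    rw [es, sub_mul, smul_mul_assoc, map_sub, map_smul, np, smul_eq_mul, sub_re, t.comm q, mul_re,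
      re]
    simp

end Vale.Agent.P085
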