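import Vale.Agent.P085.K2c
import Vale.Agent.P085.PartF
import Vale.Agent.P085.PartK1

/-! The perturbation step. -/

namespace Vale.Agent.P085
open Vale.Agent.P104

variable {A : Type*} [CStarAlgebra A] {t : Tr A} {B : StarSubalgebra ℂ A}

theorem key (ht : TS t) (D : Design t B) {u : A} (hu : u ∈ unitary A) (r : A) (hr : ‖r‖ ≤ 1)
    (η : ℝ) (hη : 0 < η) : ∃ u' ∈ unitary A, t.N (u' - u) ≤ η ∧
      ∃ y ∈ StarAlgebra.adjoin ℂ ((B : Set A) ∪ {u'}), y ∈ unitary A ∧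
        t.N r ^ 2 / 1000 ≤ ‖t.τ (star r * y)‖ :=
  K2.key_of (fun _ _ _ ht L hL g hg ρ hρ h0 horth => key_abs ht L hL g hg ρ hρ h0 horth) ht
    (fun _ d W δ hδ => free ht D d W δ hδ) hu r hr η hη

end Vale.Agent.P085
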