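import Vale.Agent.P085.B2
import Vale.Agent.P085.PartK2

/-! Part B of P085: `trunc`, `usc` (in `B1`) and `baire`. -/

namespace Vale.Agent.P085

open scoped InnerProductSpace ComplexOrder ComplexConjugate
open Vale.Agent.P104 Vale.Agent.P104.F Filter Topology

variable {A : Type*} [CStarAlgebra A] {t : Tr A} {B : StarSubalgebra ℂ A}

theorem baire (ht : TS t) (D : Design t B)
    (hc : ∀ u : ℕ → A, (∀ n, u n ∈ unitary A) →
      (∀ ε : ℝ, 0 < ε → ∃ N, ∀ m ≥ N, ∀ n ≥ N, t.N (u m - u n) ≤ ε) →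
      ∃ v ∈ unitary A, Tendsto (fun n => t.N (u n - v)) atTop (𝓝 0))
    (d : ℕ → A) (hd : ∀ n, star (d n) = d n ∧ ‖d n‖ ≤ 1) :
    ∃ u ∈ unitary A, ∀ n, ∀ δ : ℝ, 0 < δ →
      ∃ y ∈ (StarAlgebra.adjoin ℂ ((B : Set A) ∪ {u})).topologicalClosure,
        ‖y‖ ≤ 1 ∧ t.N (d n - y) ≤ δ :=
  Bp.baire_of ht (fun _ hu r hr η hη => key ht D hu r hr η hη) hc d hd

end Vale.Agent.P085
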