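import Vale.Agent.P085.F1

/-! Part R1 of P085: the sharp single step. -/

namespace Vale.Agent.P085

open scoped InnerProductSpace ComplexOrder ComplexConjugate
open Vale.Agent.P104 Vale.Agent.P104.F Filter Topology

namespace R1

open Vale.Agent.P104.C

variable {R : Type*} [Ring R] [StarRing R] [Algebra ℂ R] [StarModule ℂ R]

lemma trace_part (t : Tr R) {x P Q u : R} {δ : ℝ} (hδ : 0 ≤ δ) (hν : t.N x = 4 * δ)
    (one : t.τ 1 = 1) (hx : star x = x) (h0 : t.τ x = 0) (y1 : Sq (1 - x)) (y2 : Sq (1 + x))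
    (pP : IsStarProjection P) (pQ : IsStarProjection Q) (hPQ : P * Q = P)
    (yP : x * P = P * x) (yQ : x * Q = Q * x)
    (s1 : Sq (P * x * P - (δ : ℂ) • P)) (s2 : Sq ((δ : ℂ) • (1 - P) - (1 - P) * x * (1 - P)))
    (s3 : Sq (Q * x * Q)) (s4 : Sq (-((1 - Q) * x * (1 - Q))))
    (h1 : u * star u * u = u) (h2 : u * P = u) (h3 : (1 - Q) * u = u)
    (h4 : star u * u = P ∨ u * star u = 1 - Q) :
    δ ^ 2 ≤ (t.τ ((star u * u - u * star u) * x)).re := by
  have hPP : P * P = P := pP.isIdempotentElem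
  have hQQ : Q * Q = Q := pQ.isIdempotentElem
  have pQ' := proj_one_sub pQ
  have pP' := proj_one_sub pP
  have pA := proj_src h1
  have pB := proj_rng h1
  have hQQ' : (1 - Q) * (1 - Q) = 1 - Q := pQ'.isIdempotentElem
  have hPP' : (1 - P) * (1 - P) = 1 - P := pP'.isIdempotentElem
  have yQ' : x * (1 - Q) = (1 - Q) * x := by rw [mul_sub, sub_mul, yQ, mul_one, one_mul]
  have yP' : x * (1 - P) = (1 - P) * x := by rw [mul_sub, sub_mul, yP, mul_one, one_mul]
  have hQP : Q * P = P := by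
    have := congrArg star hPQ
    rwa [star_mul, pP.isSelfAdjoint.star_eq, pQ.isSelfAdjoint.star_eq] at this
  have hAP : star u * u * P = star u * u := by rw [mul_assoc, h2]
  have hBQ : u * star u * (1 - Q) = u * star u := by
    have := congrArg star h3
    rw [star_mul, pQ'.isSelfAdjoint.star_eq] at this
    rw [mul_assoc, this]
  have re_smul : ∀ (k : ℝ) (x : R), (t.τ ((k : ℂ) • x)).re = k * (t.τ x).re := fun k x => by
    rw [map_smul, smul_eq_mul, Complex.re_ofReal_mul]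
  have re_sub : ∀ x x' : R, (t.τ (x - x')).re = (t.τ x).re - (t.τ x').re := fun x x' => by
    rw [map_sub, Complex.sub_re]
  have re_add : ∀ x x' : R, (t.τ (x + x')).re = (t.τ x).re + (t.τ x').re := fun x x' => by
    rw [map_add, Complex.add_re]
  have re_neg : ∀ x : R, (t.τ (-x)).re = -(t.τ x).re := fun x => by
    rw [map_neg, Complex.neg_re]
  have eP : P * x * P = P * x := by rw [mul_assoc, yP, ← mul_assoc, hPP]
  have eP' : (1 - P) * x * (1 - P) = (1 - P) * x := by rw [mul_assoc, yP', ← mul_assoc, hPP']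
  have eQ : Q * x * Q = Q * x := by rw [mul_assoc, yQ, ← mul_assoc, hQQ]
  have eQ' : (1 - Q) * x * (1 - Q) = (1 - Q) * x := by rw [mul_assoc, yQ', ← mul_assoc, hQQ']
  rw [eP] at s1
  rw [eP'] at s2
  rw [eQ] at s3
  rw [eQ'] at s4
  have x0 : (t.τ x).re = 0 := by rw [h0]; simp
  have o1 : (t.τ 1).re = 1 := by rw [one]; simp
  have m0 : (t.τ ((1 - Q) * x)).re = -(t.τ (Q * x)).re := by
    rw [sub_mul, one_mul, re_sub, x0, zero_sub]
  have a1 := tr_mul t s3 y1
  rw [mul_sub, mul_one, re_sub] at a1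
  have a2 := tr_mul t s4 y2
  rw [neg_mul, re_neg, mul_add, mul_one, re_add, m0] at a2
  have a3 : t.N x = (t.τ (Q * x * x)).re + (t.τ ((1 - Q) * x * x)).re := by
    rw [Tr.N, hx, ← re_add, ← add_mul, ← add_mul]; simp
  have a4 := tr_mul t (Sq.of_proj pQ') y2
  rw [mul_add, mul_one, re_add, m0] at a4
  have a5 := tr_mul t (Sq.of_proj pP) y1
  rw [mul_sub, mul_one, re_sub] at a5
  have pD := proj_sub pQ pP hPQ
  have hD : (Q - P) * (1 - P) = Q - P := by
    rw [mul_sub, mul_one, sub_mul, hQP, hPP, sub_self, sub_zero]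
  have a6 := tr_mul t (Sq.of_proj pD) s2
  rw [mul_sub, mul_smul_comm, ← mul_assoc, hD, re_sub, re_smul, sub_mul, re_sub (Q * x)] at a6
  have a7 := tr_sq t (Sq.of_proj (proj_one_sub pD))
  rw [re_sub, o1] at a7
  have a8 := tr_mul t (Sq.of_proj pA) s1
  rw [mul_sub, mul_smul_comm, ← mul_assoc, hAP, re_sub, re_smul] at a8
  have a9 := tr_mul t (Sq.of_proj pB) s4
  rw [mul_neg, re_neg, ← mul_assoc, hBQ] at a9
  have b0 : δ ≤ (t.τ (star u * u)).re := by
    have k := mul_le_mul_of_nonneg_left (show (t.τ (Q - P)).re ≤ 1 by linarith) hδ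
    rcases h4 with h4 | h4
    · rw [h4]; linarith
    · rw [t.comm, h4]; linarith
  rw [sub_mul, re_sub]
  nlinarith [mul_le_mul_of_nonneg_left b0 hδ]

lemma last (t : Tr R) {x u v : R} {δ : ℝ} (one : t.τ 1 = 1) (k1 : u * star u * u = u)
    (huu : u * u = 0)
    (a4 : star v * v * (star u * u - u * star u) * (star v * v) +
      v * star v * (star u * u - u * star u) * (v * star v) +
        v * (star u * u - u * star u) * star v + star v * (star u * u - u * star u) * v = 0)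
    (key : δ ^ 2 ≤ (t.τ ((star u * u - u * star u) * x)).re) :
    (δ ^ 2) ^ 2 ≤ t.N (x - Phi (two v) x) := by
  have huu' : star u * star u = 0 := by rw [← star_mul, huu, star_zero]
  have pp : IsStarProjection (1 - star u * u - u * star u) := by
    refine proj_sub (proj_one_sub (proj_src k1)) (proj_rng k1) ?_
    rw [mul_sub, mul_assoc u (star u) (star u * u), ← mul_assoc (star u), huu']
    simp
  set s := star u * u - u * star u with hs
  have p0 : Phi (two v) s = 0 := Phi_two a4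
  have ss : star s = s := by simp [hs]
  have e2 : t.τ (s * x) = t.τ (star s * (x - Phi (two v) x)) := by
    rw [ss, mul_sub, map_sub, MU.τ_Phi t s x, p0]; simp
  have n1 : t.N s ≤ 1 := by
    have e : star s * s = star u * u + u * star u := by
      have b1 := (proj_src k1).isIdempotentElem.eq
      have b2 := (proj_rng k1).isIdempotentElem.eq
      rw [ss, hs, mul_sub, sub_mul, sub_mul, b1, b2, mul_assoc u (star u) (star u * u),
        ← mul_assoc (star u) (star u), huu', mul_assoc (star u) u, ← mul_assoc u u, huu]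
      simp
    have := tr_sq t (Sq.of_proj pp)
    rw [sub_sub, map_sub, Complex.sub_re, one, ← e] at this
    simpa [Tr.N] using this
  have n2 := t.norm_τ_le s (x - Phi (two v) x)
  rw [← e2] at n2
  have n3 : δ ^ 2 ≤ ‖t.j s‖ * ‖t.j (x - Phi (two v) x)‖ :=
    key.trans ((Complex.re_le_norm _).trans n2)
  have n4 := pow_le_pow_left₀ (sq_nonneg δ) n3 2
  rw [mul_pow, ← t.N_eq, ← t.N_eq] at n4
  have n5 := mul_le_mul_of_nonneg_right n1 (t.N_nonneg (x - Phi (two v) x))
  linarith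

end R1

variable {H : Type*} [NormedAddCommGroup H] [InnerProductSpace ℂ H] [CompleteSpace H]
variable {S : Set (H →L[ℂ] H)} {t : Tr (vN S)}

theorem sharp (h : Good t) (x : vN S) (hx : star x = x) (h1 : ‖x‖ ≤ 1) (h0 : t.τ x = 0) :
    ∃ v : vN S, v * v = 0 ∧ v * star v * v = v ∧ star v * v + v * star v = 1 ∧
      t.N x ^ 4 / 256 ≤ t.N (x - Phi (two v) x) := by
  rcases (t.N_nonneg x).eq_or_lt with hν | hν
  · obtain ⟨v, hv, g2, g1, g3⟩ := exists_halving (one_mem (vN S)) (IsStarProjection.one _) h.na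
    refine ⟨⟨v, hv⟩, Subtype.ext g2, Subtype.ext g1, Subtype.ext g3, ?_⟩
    rw [← hν]
    simpa using t.N_nonneg _
  set δ : ℝ := t.N x / 4 with hδ
  have hδ0 : 0 < δ := by positivity
  have hsa : IsSelfAdjoint (x : H →L[ℂ] H) := congrArg Subtype.val hx
  obtain ⟨P0, pP0, cP, s1, s2⟩ := exists_spectral hsa δ
  obtain ⟨Q0, pQ0, cQ, s3, s4⟩ := exists_spectral hsa 0
  have hPQ0 : P0 * Q0 = P0 := by
    refine C.spectral_le (y := (x : H →L[ℂ] H) + (δ : ℂ) • 1) (μ := δ / 4) (by positivity) pP0 pQ0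
      (cQ P0 (cP _ (Commute.refl _)).symm) ?_ ?_
    · rw [mul_add, add_mul, mul_smul_comm, mul_one, smul_mul_assoc, pP0.isIdempotentElem.eq,
        show ((8 * (δ / 4) : ℝ) : ℂ) = δ + δ by push_cast; ring, add_smul]
      exact add_le_add_left s1 _
    · rw [mul_add, add_mul, mul_smul_comm, mul_one, smul_mul_assoc,
        (C.proj_one_sub pQ0).isIdempotentElem.eq, show ((4 * (δ / 4) : ℝ) : ℂ) = δ by push_cast; ring]
      simpa using s4
  obtain ⟨P, rfl⟩ : ∃ P : vN S, (P : H →L[ℂ] H) = P0 :=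
    ⟨⟨P0, C.mem_vN.2 fun g hg => cP g (C.mem_vN.1 x.2 g hg)⟩, rfl⟩
  obtain ⟨Q, rfl⟩ : ∃ Q : vN S, (Q : H →L[ℂ] H) = Q0 :=
    ⟨⟨Q0, C.mem_vN.2 fun g hg => cQ g (C.mem_vN.1 x.2 g hg)⟩, rfl⟩
  have pP := C.proj_coe pP0
  have pQ := C.proj_coe pQ0
  have hPQ : P * Q = P := Subtype.ext hPQ0
  have pf := C.proj_one_sub pQ
  obtain ⟨u0, hu0, k1, k2, k3, k4⟩ := exists_max_pi P.2 (1 - Q).2 pP0 (C.proj_coe' pf)
  obtain ⟨u, rfl⟩ : ∃ u : vN S, (u : H →L[ℂ] H) = u0 := ⟨⟨u0, hu0⟩, rfl⟩
  replace k1 : u * star u * u = u := Subtype.ext k1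
  replace k2 : u * P = u := Subtype.ext k2
  replace k3 : (1 - Q) * u = u := Subtype.ext k3
  have pr0 := C.proj_sub pP (C.proj_src k1) (by rw [mul_assoc, k2])
  have k5 : star u * u = P ∨ u * star u = 1 - Q := by
    obtain ⟨c, hc, l1, l2⟩ := exists_cover (P - star u * u).2 (C.proj_coe' pr0)
    rcases h.fac c hc with rfl | rfl
    · left
      rw [zero_mul] at l1
      exact (sub_eq_zero.1 (Subtype.ext l1.symm : P - star u * u = 0)).symm
    · right
      have := l2 _ k4
      rw [mul_one] at this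
      exact (sub_eq_zero.1 (Subtype.ext this : 1 - Q - u * star u = 0)).symm
  have huu : u * u = 0 := by
    have : u * u = (u * P) * ((1 - Q) * u) := by rw [k2, k3]
    rw [this, mul_assoc u, ← mul_assoc P, mul_sub, mul_one, hPQ]
    simp
  have huu' : star u * star u = 0 := by rw [← star_mul, huu, star_zero]
  have pp : IsStarProjection (1 - star u * u - u * star u) := by
    refine C.proj_sub (C.proj_one_sub (C.proj_src k1)) (C.proj_rng k1) ?_
    rw [mul_sub, mul_assoc u (star u) (star u * u), ← mul_assoc (star u), huu']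
    simp
  obtain ⟨w0, hw0, g2, g1, g3⟩ := exists_halving (1 - star u * u - u * star u).2 (C.proj_coe' pp)
    (fun q hq _ => h.na q hq (mul_one q))
  obtain ⟨w, rfl⟩ : ∃ w : vN S, (w : H →L[ℂ] H) = w0 := ⟨⟨w0, hw0⟩, rfl⟩
  replace g1 : w * star w * w = w := Subtype.ext g1
  replace g2 : w * w = 0 := Subtype.ext g2
  replace g3 : star w * w + w * star w = 1 - star u * u - u * star u := Subtype.ext g3
  obtain ⟨a1, a2, a3, a4⟩ := C.alg_part k1 huu (mul_one u) (one_mul u) (star_one _) g1 g2 g3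
  refine ⟨u + w, a1, a2, a3, ?_⟩
  have hn : ‖(x : H →L[ℂ] H)‖ ≤ 1 := h1
  have y1 : C.Sq (1 - x) := C.sq_of_nonneg (by
    have := hsa.le_algebraMap_norm_self
    rw [Algebra.algebraMap_eq_smul_one] at this
    have e : ‖(x : H →L[ℂ] H)‖ • (1 : H →L[ℂ] H) ≤ 1 := by
      nth_rw 2 [← one_smul ℝ (1 : H →L[ℂ] H)]
      exact smul_le_smul_of_nonneg_right hn zero_le_one
    exact sub_nonneg.2 (this.trans e))
  have y2 : C.Sq (1 + x) := C.sq_of_nonneg (by
    have := hsa.neg.le_algebraMap_norm_self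
    rw [Algebra.algebraMap_eq_smul_one, norm_neg] at this
    have e : ‖(x : H →L[ℂ] H)‖ • (1 : H →L[ℂ] H) ≤ 1 := by
      nth_rw 2 [← one_smul ℝ (1 : H →L[ℂ] H)]
      exact smul_le_smul_of_nonneg_right hn zero_le_one
    have := sub_nonneg.2 (this.trans e)
    rwa [sub_neg_eq_add] at this)
  have key := R1.trace_part t hδ0.le (by rw [hδ]; ring) h.one hx h0 y1 y2 pP pQ hPQ
    (Subtype.ext (cP _ (Commute.refl _))) (Subtype.ext (cQ _ (Commute.refl _)))
    (C.sq_of_nonneg (sub_nonneg.2 s1)) (C.sq_of_nonneg (sub_nonneg.2 s2))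
    (C.sq_of_nonneg (by simpa using s3)) (C.sq_of_nonneg (by simpa using s4)) k1 k2 k3 k5
  have := R1.last t h.one k1 huu a4 key
  have n6 : t.N x ^ 4 / 256 = (δ ^ 2) ^ 2 := by rw [hδ]; ring
  rwa [n6]

end Vale.Agent.P085
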