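import Vale.Agent.P085.R2b
import Vale.Agent.P085.PartA1
import Vale.Agent.P085.PartN
import Vale.Agent.P085.PartR1

/-! Part R2: existence of a design. -/

namespace Vale.Agent.P085

open scoped InnerProductSpace ComplexOrder ComplexConjugate
open Vale.Agent.P104 Vale.Agent.P104.F Filter Topology Finset

variable {H : Type*} [NormedAddCommGroup H] [InnerProductSpace ℂ H] [CompleteSpace H]
variable {S : Set (H →L[ℂ] H)} {t : Tr (vN S)}

namespace R2

/-- A stage of the tower. -/
structure St (S : Set (H →L[ℂ] H)) where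
  I : Type
  [fin : Fintype I]
  [dec : DecidableEq I]
  E : I → I → vN S
  mu : MU E 1
  le : ∀ y, ‖Phi E y‖ ≤ ‖y‖

attribute [instance] St.fin St.dec

/-- Commutation with a stage. -/
def St.Com (s : St S) (c : vN S) : Prop := ∀ i j, s.E i j * c = c * s.E i j

/-- The first stage. -/
noncomputable def st0 (S : Set (H →L[ℂ] H)) : St S :=
  ⟨Unit, fun _ _ => 1, mu_unit (star_one _) (one_mul _), fun y => by simp [Phi]⟩

/-- The relation between consecutive stages. -/
structure Rel (t : Tr (vN S)) (y : vN S) (s s' : St S) (X Z : vN S) : Prop where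
  ac : AC X Z
  cx : s.Com X
  cz : s.Com Z
  sub : ∀ c, s'.Com c → s.Com c ∧ Commute c X ∧ Commute c Z
  phi : ∀ x, Phi s'.E x = pav X Z (Phi s.E x)
  mono : ∀ x, t.N (Phi s'.E x) ≤ t.N (Phi s.E x)
  drop : t.N (Phi s'.E y) + t.N (Phi s.E y) ^ 4 / 256 ≤ t.N (Phi s.E y)

lemma star_Phi (s : St S) (y : vN S) : star (Phi s.E y) = Phi s.E (star y) := by
  simp only [Phi, star_smul, star_sum, star_mul, s.mu.st, star_inv₀, star_natCast, mul_assoc]

lemma step (h : Good t) (s : St S) {y : vN S} (hy : star y = y) (h1 : ‖y‖ ≤ 1)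
    (h0 : t.τ y = 0) : ∃ (s' : St S) (X Z : vN S), Rel t y s s' X Z := by
  let x : vN (ext s.E) := ⟨(Phi s.E y : vN S), s.mu.mem_ext (s.mu.comm_Phi y)⟩
  have ex : inc s.E x = Phi s.E y := rfl
  have hx0 : star (Phi s.E y) = Phi s.E y := by rw [star_Phi, hy]
  have hx1 := congrArg Subtype.val hx0
  have hx : star x = x := Subtype.ext hx1
  have hτ : t.τ (Phi s.E y) = 0 := by
    rw [← one_mul (Phi s.E y), s.mu.τ_comm_Phi t (fun i j => by simp), one_mul, one_mul, h0]
  obtain ⟨v, v1, v2, v3, v4⟩ := sharp (good_ext h s.mu) x hx ((s.le y).trans h1) hτ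
  have w1 : inc s.E v * inc s.E v = 0 := congrArg (inc s.E) v1
  have w2 : inc s.E v * star (inc s.E v) * inc s.E v = inc s.E v := congrArg (inc s.E) v2
  have w3 : star (inc s.E v) * inc s.E v + inc s.E v * star (inc s.E v) = 1 :=
    congrArg (inc s.E) v3
  have e2 : ∀ a b, two (inc s.E v) a b = inc s.E (two v a b) := fun a b => by
    cases a <;> cases b <;> rfl
  have e3 : inc s.E (Phi (two v) x) = Phi (two (inc s.E v)) (Phi s.E y) := by
    rw [← ex]
    simp only [Phi, map_smul, map_sum, map_mul, e2]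
  rw [t.comap_N, t.comap_N, map_sub, e3, ex] at v4
  have hc : ∀ i j a b, s.E i j * two (inc s.E v) a b = two (inc s.E v) a b * s.E i j :=
    fun i j a b => by rw [e2, comm_inc]
  generalize inc s.E v = w at *
  have m2 : MU (two w) 1 := mu_two w1 w2 w3
  have ac := ac_of w1 w2 w3
  have c1 : ∀ i j, Commute (s.E i j) w := fun i j => hc i j true false
  have c2 : ∀ i j, Commute (s.E i j) (star w) := fun i j => hc i j false true
  refine ⟨⟨s.I × Bool, _, s.mu.prod m2 hc, fun z => ?_⟩, _, _, ac,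
    fun i j => (c1 i j).add_right (c2 i j),
    fun i j => ((c2 i j).mul_right (c1 i j)).sub_right ((c1 i j).mul_right (c2 i j)),
    fun c hcc => ?_, fun z => ?_, fun z => ?_, ?_⟩
  · rw [MU.Phi_prod hc, ← pav_eq w1 w2 w3]
    exact (ac.norm_pav _).trans (s.le z)
  · have d1 : ∀ a b, Commute c (two w a b) := fun a b => by
      rw [← one_mul (two w a b), ← s.mu.sum_eq, sum_mul]
      exact Commute.sum_right _ _ _ fun i _ => (hcc (i, a) (i, b)).symm
    have d2 : ∀ i j, Commute c (s.E i j) := fun i j => by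
      rw [← mul_one (s.E i j), ← m2.sum_eq, mul_sum]
      exact Commute.sum_right _ _ _ fun a _ => (hcc (i, a) (j, a)).symm
    exact ⟨fun i j => (d2 i j).symm, (d1 true false).add_right (d1 false true),
      (d1 false false).sub_right (d1 true true)⟩
  · rw [pav_eq w1 w2 w3]; exact MU.Phi_prod hc z
  · have := m2.pyth t (Phi s.E z)
    rw [← MU.Phi_prod hc] at this
    rw [this]
    exact le_add_of_nonneg_right (t.N_nonneg _)
  · have := m2.pyth t (Phi s.E y)
    rw [← MU.Phi_prod hc] at this v4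
    change t.N (Phi (fun p q : s.I × Bool => s.E p.1 q.1 * two w p.2 q.2) y) + _ ≤ _
    linarith

lemma tower (h : Good t) (y : ℕ → vN S) (hy : ∀ n, star (y n) = y n ∧ ‖y n‖ ≤ 1 ∧ t.τ (y n) = 0) :
    ∃ X Z : ℕ → vN S, Tower X Z ∧ (∀ n x, t.N (Ph X Z (n + 1) x) ≤ t.N (Ph X Z n x)) ∧
      ∀ n, t.N (Ph X Z (n + 1) (y n)) +
      t.N (Ph X Z n (y n)) ^ 4 / 256 ≤ t.N (Ph X Z n (y n)) := by
  choose nx fX fZ hr using fun n (s : St S) => step h s (hy n).1 (hy n).2.1 (hy n).2.2
  obtain ⟨st, s0, hs⟩ : ∃ st : ℕ → St S, st 0 = st0 S ∧ ∀ n, st (n + 1) = nx n (st n) :=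
    ⟨fun n => Nat.rec (st0 S) (fun n s => nx n s) n, rfl, fun _ => rfl⟩
  have r : ∀ n, Rel t (y n) (st n) (st (n + 1)) (fX n (st n)) (fZ n (st n)) := fun n => by
    rw [hs]; exact hr n _
  have p1 : ∀ x : vN S, Phi (fun _ _ : Unit => (1 : vN S)) x = x := fun x => by simp [Phi]
  have p0 : ∀ x : vN S, Phi (st 0).E x = x := by rw [s0]; exact p1
  have down : ∀ m n, m ≤ n → ∀ c, (st n).Com c → (st m).Com c := by
    intro m n hmn
    induction hmn with
    | refl => exact fun _ hc => hc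
    | step _ ih => exact fun c hc => ih c ((r _).sub c hc).1
  have cm : ∀ m n, m < n → ∀ c, (st n).Com c →
      Commute c (fX m (st m)) ∧ Commute c (fZ m (st m)) :=
    fun m n hmn c hc => ((r m).sub c (down _ _ hmn c hc)).2
  have ph : ∀ n x, Ph (fun n => fX n (st n)) (fun n => fZ n (st n)) n x = Phi (st n).E x := by
    intro n x
    induction n with
    | zero => exact (p0 x).symm
    | succ n ih => rw [Ph, ih, (r n).phi]
  refine ⟨fun n => fX n (st n), fun n => fZ n (st n), ⟨fun n => (r n).ac, fun m n => ?_,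
    fun m n => ?_, fun m n hmn => ?_⟩, fun n x => ?_, fun n => ?_⟩
  · rcases lt_trichotomy m n with hl | rfl | hl
    · exact (cm m n hl _ (r n).cx).1.symm
    · exact Commute.refl _
    · exact (cm n m hl _ (r m).cx).1
  · rcases lt_trichotomy m n with hl | rfl | hl
    · exact (cm m n hl _ (r n).cz).2.symm
    · exact Commute.refl _
    · exact (cm n m hl _ (r m).cz).2
  · rcases lt_or_gt_of_ne hmn with hl | hl
    · exact (cm m n hl _ (r n).cz).1.symm
    · exact (cm n m hl _ (r m).cx).2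
  · rw [ph, ph]; exact (r n).mono x
  · rw [ph, ph]; exact (r n).drop

end R2

open R2 in
theorem exists_design [TopologicalSpace.SeparableSpace H] (h : Good t) :
    ∃ X Z : ℕ → vN S, (∀ n, star (X n) = X n ∧ X n * X n = 1) ∧
      (∀ n, star (Z n) = Z n ∧ Z n * Z n = 1) ∧ (∀ m n, X m * X n = X n * X m) ∧
      (∀ m n, Z m * Z n = Z n * Z m) ∧
      Nonempty (Design t (StarAlgebra.adjoin ℂ (Set.range X ∪ Set.range Z))) := by
  obtain ⟨d, hd, hd'⟩ := exists_dense h
  let y : ℕ → vN S := fun k => (2 : ℂ)⁻¹ • (d k - t.τ (d k) • 1)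
  have hy : ∀ k, star (y k) = y k ∧ ‖y k‖ ≤ 1 ∧ t.τ (y k) = 0 := fun k => by
    have e1 := t.τ_star (d k)
    rw [(hd k).1] at e1
    have n1 : ‖(1 : vN S)‖ ≤ 1 := ContinuousLinearMap.norm_id_le
    have e2 := t.norm_τ_le_amgm 1 (d k) one_pos
    have e3 := h.ts.mul_le (d k) 1
    rw [mul_one, t.N_one, h.one] at e3
    rw [star_one, one_mul, t.N_one, h.one] at e2
    have e4 : ‖d k‖ ^ 2 ≤ 1 := pow_le_one₀ (norm_nonneg _) (hd k).2
    simp only [Complex.one_re, mul_one, div_one] at e2 e3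
    refine ⟨by simp [y, (hd k).1, ← e1], ?_, by simp [y, h.one]⟩
    have e5 := norm_sub_le (d k) (t.τ (d k) • 1)
    rw [norm_smul] at e5
    have e6 : ‖t.τ (d k)‖ * ‖(1 : vN S)‖ ≤ 1 := mul_le_one₀ (by linarith) (norm_nonneg _) n1
    have e7 := (hd k).2
    simp only [y, norm_smul, norm_inv, Complex.norm_ofNat]
    linarith
  obtain ⟨X, Z, hT, hmono, hdrop⟩ := tower h (fun n => y (Nat.unpair n).1) (fun n => hy _)
  refine ⟨X, Z, fun n => ⟨(hT.ac n).sx, (hT.ac n).qx⟩, fun n => ⟨(hT.ac n).sz, (hT.ac n).qz⟩,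
    hT.xx, hT.zz, hT.design t h.one (hT.lim t h.one d hd' fun k => ?_)⟩
  have a1 : Tendsto (fun n => t.N (Ph X Z n (y k))) atTop (𝓝 0) := by
    refine tendsto_zero_of_drop (fun _ => t.N_nonneg _) (fun n => hmono n _)
      (frequently_atTop.2 fun N => ⟨Nat.pair k N, Nat.right_le_pair _ _, ?_⟩)
    have := hdrop (Nat.pair k N)
    rwa [Nat.unpair_pair] at this
  have a2 : ∀ n, ‖cen t X Z n (d k)‖ = 2 * √(t.N (Ph X Z n (y k))) := fun n => by
    have b1 : cen t X Z n 1 = 0 := by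
      have hc : (Fintype.card (Om n) : ℂ) ≠ 0 := by rw [card_Om]; positivity
      rw [hT.cen_eq, hT.Ph_eq, h.one]
      simp [hT.sq, ← Nat.cast_smul_eq_nsmul ℂ, smul_smul, hc]
    have b2 : cen t X Z n (y k) = (2 : ℂ)⁻¹ • cen t X Z n (d k) := by
      simp only [y, map_smul, map_sub, b1, smul_zero, sub_zero]
    rw [hT.cen_eq t n (y k), (hy k).2.2, zero_smul, sub_zero] at b2
    rw [t.N_eq, Real.sqrt_sq (norm_nonneg _), b2, norm_smul]
    simp
  simp only [a2]
  simpa using a1.sqrt.const_mul 2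

end Vale.Agent.P085
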