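import Vale.Agent.P085.PartG1
import Vale.Agent.P085.PartA1
import Vale.Agent.P085.PartN
import Vale.Agent.P085.PartR2
import Vale.Agent.P085.PartB

/-! P085 part G, second half: `four` and `single`. -/

namespace Vale.Agent.P085

open scoped InnerProductSpace ComplexOrder ComplexConjugate
open Vale.Agent.P104 Vale.Agent.P104.F Filter Topology

variable {H : Type*} [NormedAddCommGroup H] [InnerProductSpace ℂ H] [CompleteSpace H]
variable {S : Set (H →L[ℂ] H)} {t : Tr (vN S)}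

namespace G

section parts
variable {A : Type*} [CStarAlgebra A]

lemma exists_parts (u : A) : ∃ p q : A, star p = p ∧ star q = q ∧ ‖p‖ ≤ ‖u‖ ∧ ‖q‖ ≤ ‖u‖ ∧
    u = p + Complex.I • q :=
  ⟨realPart u, imaginaryPart u, (realPart u).2, (imaginaryPart u).2, realPart.norm_le u,
    imaginaryPart.norm_le u, (realPart_add_I_smul_imaginaryPart u).symm⟩

end parts

lemma all_of_sa {y : H →L[ℂ] H}
    (h : ∀ z : vN S, star z = z → ‖z‖ ≤ 1 → y * z = z * y) (z : vN S) : y * z = z * y := by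
  have h1 : ∀ z : vN S, star z = z → Commute y z := fun z hz => by
    have hp : (0 : ℝ) < ‖z‖ + 1 := by positivity
    have hc : ((‖z‖ + 1 : ℝ) : ℂ) ≠ 0 := by exact_mod_cast hp.ne'
    have e : Commute y ((((‖z‖ + 1 : ℝ) : ℂ)⁻¹ • z : vN S) : H →L[ℂ] H) := by
      refine h _ ?_ ?_
      · rw [star_smul, hz]; simp
      · rw [norm_smul, norm_inv, Complex.norm_real, Real.norm_of_nonneg hp.le,
          inv_mul_le_iff₀ hp]
        linarith
    have e2 := e.smul_right ((‖z‖ + 1 : ℝ) : ℂ)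
    rwa [SetLike.val_smul, smul_smul, mul_inv_cancel₀ hc, one_smul] at e2
  obtain ⟨p, q, hp, hq, -, -, e⟩ := exists_parts z
  rw [e]
  exact ((h1 p hp).add_right ((h1 q hq).smul_right Complex.I)).eq

end G

theorem four [TopologicalSpace.SeparableSpace H] (h : Good t) : ∃ a : Fin 4 → vN S,
    (∀ i, star (a i) = a i ∧ ‖a i‖ ≤ 1) ∧ ∀ y : H →L[ℂ] H, (∀ i, y * a i = a i * y) →
      ∀ z : vN S, y * z = z * y := by
  obtain ⟨X, Z, hX, hZ, cX, cZ, ⟨D⟩⟩ := exists_design h
  obtain ⟨a1, s1, n1, g1⟩ := series X hX cX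
  obtain ⟨a2, s2, n2, g2⟩ := series Z hZ cZ
  obtain ⟨d, hd, hd'⟩ := exists_dense h
  obtain ⟨u, hu, hb⟩ := baire h.ts D (unitary_complete h) d hd
  obtain ⟨p, q, sp, sq, np, nq, e⟩ := G.exists_parts u
  have nu : ‖u‖ ≤ 1 := G.norm_le_one_of hu.1
  refine ⟨![a1, a2, p, q], fun i => ?_, fun y hy => ?_⟩
  · fin_cases i
    exacts [⟨s1, n1⟩, ⟨s2, n2⟩, ⟨sp, np.trans nu⟩, ⟨sq, nq.trans nu⟩]
  let C : StarSubalgebra ℂ (vN S) :=
    { carrier := {x | Commute y x ∧ Commute y (star x : vN S)}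
      mul_mem' := fun {a b} ha hb => ⟨ha.1.mul_right hb.1, by
        rw [star_mul]; exact hb.2.mul_right ha.2⟩
      add_mem' := fun {a b} ha hb => ⟨ha.1.add_right hb.1, by
        rw [star_add]; exact ha.2.add_right hb.2⟩
      algebraMap_mem' := fun c => ⟨(Algebra.commutes c y).symm, by
        rw [← algebraMap_star_comm]; exact (Algebra.commutes _ y).symm⟩
      star_mem' := fun {a} ha => ⟨ha.2, by rw [star_star]; exact ha.1⟩ }
  have hC : IsClosed (C : Set (vN S)) := by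
    refine IsClosed.inter (isClosed_eq (f := fun x : vN S => y * x) (g := fun x => x * y)
      (by fun_prop) (by fun_prop)) (isClosed_eq (f := fun x : vN S => y * (star x : vN S))
        (g := fun x => (star x : vN S) * y) (by fun_prop) (by fun_prop))
  have sa : ∀ x : vN S, star x = x → y * x = x * y → x ∈ C := fun x h1 h2 =>
    ⟨h2, by rw [h1]; exact h2⟩
  have hB : StarAlgebra.adjoin ℂ (Set.range X ∪ Set.range Z) ≤ C := by
    refine StarAlgebra.adjoin_le ?_
    rintro _ (⟨n, rfl⟩ | ⟨n, rfl⟩)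
    · exact sa _ (hX n).1 (g1 y (hy 0) n)
    · exact sa _ (hZ n).1 (g2 y (hy 1) n)
  have huC : u ∈ C := e ▸ C.add_mem (sa p sp (hy 2)) (C.smul_mem (sa q sq (hy 3)) _)
  have hcl : (StarAlgebra.adjoin ℂ
      ((StarAlgebra.adjoin ℂ (Set.range X ∪ Set.range Z) : Set (vN S)) ∪ {u})).topologicalClosure
        ≤ C :=
    StarSubalgebra.topologicalClosure_minimal (StarAlgebra.adjoin_le
      (Set.union_subset hB (Set.singleton_subset_iff.2 huC))) hC
  refine G.all_of_sa fun z hz hz1 => comm_of_lim h z y 1 fun δ hδ => ?_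
  obtain ⟨n, hn⟩ := hd' z hz hz1 (δ / 4) (by positivity)
  obtain ⟨x, hx, hx1, hx2⟩ := hb n (δ / 4) (by positivity)
  refine ⟨x, hx1, ?_, (hcl hx).1⟩
  have := t.N_add_le (z - d n) (d n - x)
  rw [sub_add_sub_cancel] at this
  linarith

theorem single [TopologicalSpace.SeparableSpace H] (h : Good t) : ∃ x : vN S,
    ∀ y : H →L[ℂ] H, y * x = x * y →
      y * star (x : H →L[ℂ] H) = star (x : H →L[ℂ] H) * y → ∀ z : vN S, y * z = z * y := by
  obtain ⟨I, _, _, E, hE, hI⟩ := exists_mu t (z := 1)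
    ⟨(vN S).one_mem, IsStarProjection.one _, fun x _ => by simp⟩ h.na (by simp [Tr.N]) 4
  obtain ⟨a, ha, hg⟩ := four (good_ext h hE)
  let b : I → vN S := fun i =>
    if hi : (Fintype.equivFin I i : ℕ) < 4 then inc E (a ⟨_, hi⟩) else 0
  obtain ⟨x, hx⟩ := mat_gen hE b (fun i => by
    simp only [b]
    split_ifs with hi
    · exact ⟨by rw [← map_star, (ha _).1], (ha _).2⟩
    · simp) (fun i j k => by
    simp only [b]
    split_ifs with hi
    · exact comm_inc E _ i j
    · simp)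
  refine ⟨x, fun y y1 y2 z => ?_⟩
  obtain ⟨c1, c2⟩ := hx y y1 y2
  have c3 := hg y fun k => by
    have := c2 ((Fintype.equivFin I).symm ⟨k, k.2.trans_le hI⟩)
    simpa only [b, Equiv.apply_symm_apply, k.2, dif_pos, Fin.eta, coe_inc] using this
  have e : (z : H →L[ℂ] H) = ∑ i, ∑ j, ((cf E z i j : vN S) : H →L[ℂ] H) * E i j := by
    have := congrArg Subtype.val (hE.sum_cf z)
    simpa using this.symm
  rw [e]
  exact (Commute.sum_right _ _ _ fun i _ => Commute.sum_right _ _ _ fun j _ =>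
    Commute.mul_right (c3 ⟨_, hE.mem_ext (hE.comm_cf z i j)⟩) (c1 i j)).eq

end Vale.Agent.P085
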