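import Vale.Agent.P104.PartB
import Vale.Agent.P085.PartG
import Vale.Agent.P085.PartA2

/-! Final assembly for P085. -/

namespace Vale.Agent.P085

open scoped InnerProductSpace ComplexOrder ComplexConjugate
open Vale.Agent.P104 Vale.Agent.P104.F Filter Topology

variable {H : Type*} [NormedAddCommGroup H] [InnerProductSpace ℂ H] [CompleteSpace H]

lemma exists_vN (M : VonNeumannAlgebra H) : ∃ S, M.toStarSubalgebra = vN S := by
  refine ⟨Set.centralizer M, StarSubalgebra.ext fun x => ⟨fun hx => mem_vN.2 fun g hg =>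
    ⟨(hg x hx).symm, ?_⟩, fun hx => ?_⟩⟩
  · simpa using congrArg star (hg _ (star_mem hx))
  · change x ∈ (M : Set (H →L[ℂ] H))
    rw [← M.centralizer_centralizer]
    exact fun g hg => (mem_vN.1 hx g hg).1

lemma approx {x z : H →L[ℂ] H}
    (h : ∀ y : H →L[ℂ] H, y * x = x * y → y * star x = star x * y → y * z = z * y)
    (F : Finset H) {δ : ℝ} (hδ : 0 < δ) :
    ∃ p ∈ StarAlgebra.adjoin ℂ {x}, ∀ ξ ∈ F, ‖p ξ - z ξ‖ < δ := by
  let A := StarAlgebra.adjoin ℂ ({x} : Set (H →L[ℂ] H))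
  have hx : x ∈ A := StarAlgebra.self_mem_adjoin_singleton ℂ x
  have hz : z ∈ vN (vN (Set.range A.subtype) : Set (H →L[ℂ] H)) := by
    have k : ∀ g ∈ vN (Set.range A.subtype), g * z = z * g := fun g hg =>
      h g (mem_vN.1 hg x ⟨⟨x, hx⟩, rfl⟩).1.symm (mem_vN.1 hg x ⟨⟨x, hx⟩, rfl⟩).2.symm
    exact mem_vN.2 fun g hg => ⟨k g hg, k _ (star_mem hg)⟩
  let ξ : Fin F.card → H := fun i => F.equivFin.symm i
  have h1 := B.bicomm A.subtype hz ξ (F := closure (Set.range fun a : A => fun i => a.1 (ξ i)))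
    isClosed_closure fun a => subset_closure ⟨a, rfl⟩
  obtain ⟨_, ⟨a, rfl⟩, ha⟩ := Metric.mem_closure_iff.1 h1 δ hδ
  refine ⟨a, a.2, fun η hη => ?_⟩
  have h2 := (dist_pi_lt_iff hδ).1 ha (F.equivFin ⟨η, hη⟩)
  simp only [ξ, Equiv.symm_apply_apply] at h2
  rwa [dist_comm, dist_eq_norm] at h2

lemma mem_wot {x z : H →L[ℂ] H}
    (h : ∀ y : H →L[ℂ] H, y * x = x * y → y * star x = star x * y → y * z = z * y) :
    ContinuousLinearMapWOT.ofCLM z ∈ closure (ContinuousLinearMapWOT.ofCLM ''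
      (StarAlgebra.adjoin ℂ {x} : Set (H →L[ℂ] H))) := by
  classical
  choose p hp1 hp2 using fun i : Finset H × ℕ =>
    approx h i.1 (δ := 1 / ((i.2 : ℝ) + 1)) (by positivity)
  refine mem_closure_of_tendsto (f := fun i => ContinuousLinearMapWOT.ofCLM (p i))
    (b := (atTop : Filter (Finset H × ℕ))) ?_ (Eventually.of_forall fun i => ⟨_, hp1 i, rfl⟩)
  refine ContinuousLinearMapWOT.tendsto_iff_forall_dual_apply_tendsto.2 fun ξ f =>
    (f.continuous.tendsto _).comp ?_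
  refine tendsto_iff_norm_sub_tendsto_zero.2 ?_
  have l1 : Tendsto (fun i : Finset H × ℕ => 1 / ((i.2 : ℝ) + 1)) atTop (𝓝 0) := by
    rw [← prod_atTop_atTop_eq]
    exact tendsto_one_div_add_atTop_nhds_zero_nat.comp tendsto_snd
  refine squeeze_zero' (Eventually.of_forall fun _ => norm_nonneg _) ?_ l1
  filter_upwards [eventually_ge_atTop (({ξ} : Finset H), 0)] with i hi
  exact (hp2 i ξ (hi.1 (Finset.mem_singleton_self ξ))).le

lemma conclude (M : VonNeumannAlgebra H) {x : H →L[ℂ] H}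
    (h : ∀ y : H →L[ℂ] H, y * x = x * y → y * star x = star x * y → ∀ z ∈ M, y * z = z * y) :
    (∀ N : VonNeumannAlgebra H, x ∈ N → M ≤ N) ∧
      ∀ z ∈ M, ContinuousLinearMapWOT.ofCLM z ∈ closure (ContinuousLinearMapWOT.ofCLM ''
        (StarAlgebra.adjoin ℂ {x} : Set (H →L[ℂ] H))) := by
  refine ⟨fun N hx z hz => ?_, fun z hz => mem_wot fun y h1 h2 => h y h1 h2 z hz⟩
  change z ∈ (N : Set (H →L[ℂ] H))
  rw [← N.centralizer_centralizer]
  exact fun y hy => h y (hy x hx).symm (hy _ (star_mem hx)).symm z hz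

theorem factor_case [TopologicalSpace.SeparableSpace H] (N : StarSubalgebra ℂ (H →L[ℂ] H))
    (hN : ∃ S, N = vN S) (hfac : ∀ x ∈ N, (∀ y ∈ N, x * y = y * x) → ∃ c : ℂ, x = c • 1)
    (hinf : ¬ FiniteDimensional ℂ N) (τ : N →ₗ[ℂ] ℂ) (h1 : τ 1 = 1)
    (hpos : ∀ x, 0 ≤ τ (star x * x)) (htr : ∀ x y, τ (x * y) = τ (y * x))
    (hf : ∀ x, τ (star x * x) = 0 → x = 0) :
    ∃ x ∈ N, ∀ y : H →L[ℂ] H, y * x = x * y → y * star x = star x * y →
      ∀ z ∈ N, y * z = z * y := by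
  obtain ⟨S, rfl⟩ := hN
  let t : Tr (vN S) := ⟨τ, htr, hpos⟩
  have f1 : ∀ x, t.N x = 0 → x = 0 := fun x hx => hf x (by
    have := t.τ_self x
    rw [hx] at this
    exact this)
  have f2 : ∀ c, IsCentral S c → c = 0 ∨ c = 1 := by
    intro c hc
    obtain ⟨s, rfl⟩ := hfac c hc.1 hc.2.2
    have e := hc.2.1.isIdempotentElem.eq
    rw [smul_mul_assoc, one_mul, smul_smul] at e
    by_cases h0 : s = 0
    · left; rw [h0, zero_smul]
    · right
      have := congrArg (s⁻¹ • ·) e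
      simp only [smul_smul] at this
      rwa [← mul_assoc, inv_mul_cancel₀ h0, one_mul, one_smul] at this
  obtain ⟨x, hx⟩ := single (t := t)
    ⟨h1, f1, vec_of t h1 f1 f2, f2, na_of t h1 f1 f2 hinf⟩
  exact ⟨x, x.2, fun y a b z hz => hx y a b ⟨z, hz⟩⟩

end Vale.Agent.P085
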