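import Vale.Agent.P104.PartF
import Vale.Agent.P104.I2

/-! Working definitions for P085 (generator problem). -/

namespace Vale.Agent.P085

open scoped InnerProductSpace ComplexOrder ComplexConjugate
open Vale.Agent.P104 Vale.Agent.P104.F Filter Topology

section abstract
variable {A : Type*} [CStarAlgebra A]

/-- Tracial state compatible with the norm. -/
structure TS (t : Tr A) : Prop where
  one : t.τ 1 = 1
  mul_le : ∀ x y, t.N (x * y) ≤ ‖x‖ ^ 2 * t.N y

/-- A sequence of finite families of self-adjoint unitaries of `B` that mix `A`. -/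
structure Design (t : Tr A) (B : StarSubalgebra ℂ A) where
  Ω : ℕ → Type
  [fin : ∀ N, Fintype (Ω N)]
  ne : ∀ N, Nonempty (Ω N)
  a : ∀ N, Ω N → A
  mem : ∀ N ω, a N ω ∈ B
  sa : ∀ N ω, star (a N ω) = a N ω
  sq : ∀ N ω, a N ω * a N ω = 1
  mix : ∀ x y, Tendsto (fun N => ((Fintype.card (Ω N) : ℂ))⁻¹ *
    ∑ ω, t.τ (a N ω * x * a N ω * y)) atTop (𝓝 (t.τ x * t.τ y))
  var : ∀ x, Tendsto (fun N => ((Fintype.card (Ω N) : ℝ))⁻¹ *
    ∑ ω, ‖t.τ (a N ω * x)‖ ^ 2) atTop (𝓝 0)

attribute [instance] Design.fin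

end abstract

section words
variable {A J G : Type*}

/-- Words in elements of `A` and letters `c j`, `star (c j)`. -/
abbrev Word (A J : Type*) := List (A ⊕ J × Bool)

/-- Value of a letter. -/
def val [Star A] (c : J → A) : A ⊕ J × Bool → A
  | .inl x => x
  | .inr (j, true) => c j
  | .inr (j, false) => star (c j)

/-- Value of a word. -/
def ev [Monoid A] [Star A] (c : J → A) (l : Word A J) : A := (l.map (val c)).prod

/-- Degree of a letter. -/
def dval [Group G] (d : J → G) : A ⊕ J × Bool → G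
  | .inl _ => 1
  | .inr (j, true) => d j
  | .inr (j, false) => (d j)⁻¹

/-- Degree of a word. -/
def deg [Group G] (d : J → G) (l : Word A J) : G := (l.map (dval d)).prod

/-- Ordered product of conjugates of `V`. -/
def uprod [Monoid A] [Star A] (g : ℕ → A) (V : A) : ℕ → A
  | 0 => 1
  | j + 1 => uprod g V j * (g j * V * star (g j))

end words

section vn
variable {H : Type*} [NormedAddCommGroup H] [InnerProductSpace ℂ H] [CompleteSpace H]

/-- Working form of a II_1 factor with its trace. -/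
structure Good {S : Set (H →L[ℂ] H)} (t : Tr (vN S)) : Prop where
  one : t.τ 1 = 1
  faith : ∀ x, t.N x = 0 → x = 0
  vec : ∃ (n : ℕ) (ξ η : Fin n → H), ∀ x : vN S,
    t.τ x = ∑ i, ⟪η i, (x : H →L[ℂ] H) (ξ i)⟫_ℂ
  fac : ∀ c, IsCentral S c → c = 0 ∨ c = 1
  na : NoAbel S 1

lemma Good.ts {S : Set (H →L[ℂ] H)} {t : Tr (vN S)} (h : Good t) : TS t :=
  ⟨h.one, fun x y => t.N_mul_le_norm x y⟩

end vn

end Vale.Agent.P085
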