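import Vale.Agent.P085.Defs

/-! Part F of P085: words and their second order expansion. -/

namespace Vale.Agent.P085

open scoped InnerProductSpace ComplexOrder ComplexConjugate
open Vale.Agent.P104 Vale.Agent.P104.F Filter Topology

section words
variable {A J G : Type*}

@[simp] lemma ev_nil [Monoid A] [Star A] (c : J → A) : ev c [] = 1 := rfl

@[simp] lemma ev_cons [Monoid A] [Star A] (c : J → A) (h : A ⊕ J × Bool) (l : Word A J) :
    ev c (h :: l) = val c h * ev c l := by simp [ev]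

@[simp] lemma ev_append [Monoid A] [Star A] (c : J → A) (l l' : Word A J) :
    ev c (l ++ l') = ev c l * ev c l' := by simp [ev]

@[simp] lemma deg_nil [Group G] (d : J → G) : deg d ([] : Word A J) = 1 := rfl

@[simp] lemma deg_cons [Group G] (d : J → G) (h : A ⊕ J × Bool) (l : Word A J) :
    deg d (h :: l) = dval d h * deg d l := by simp [deg]

@[simp] lemma deg_append [Group G] (d : J → G) (l l' : Word A J) :
    deg d (l ++ l') = deg d l * deg d l' := by simp [deg]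

end words

section abs
variable {A : Type*} [CStarAlgebra A] {t : Tr A}

lemma norm_unitary_le {u : A} (hu : u ∈ unitary A) : ‖u‖ ≤ 1 := by
  rcases subsingleton_or_nontrivial A with h | h
  · rw [Subsingleton.elim u 0]; simp
  · exact (CStarRing.norm_of_mem_unitary hu).le

lemma TS.N_one (ht : TS t) : t.N 1 = 1 := by rw [t.N_one, ht.one]; simp

lemma TS.N_le (ht : TS t) (x : A) : t.N x ≤ ‖x‖ ^ 2 := by
  have := ht.mul_le x 1
  rwa [mul_one, ht.N_one, mul_one] at this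

lemma TS.norm_j_le (ht : TS t) (x : A) : ‖t.j x‖ ≤ ‖x‖ := by
  have := ht.N_le x
  rw [t.N_eq] at this
  exact (pow_le_pow_iff_left₀ (norm_nonneg _) (norm_nonneg _) two_ne_zero).1 this

lemma TS.norm_τ_le (ht : TS t) (x : A) : ‖t.τ x‖ ≤ ‖x‖ := by
  have h := t.norm_τ_le 1 x
  have h1 : ‖t.j (1 : A)‖ ≤ 1 := (ht.norm_j_le 1).trans (norm_unitary_le (one_mem _))
  rw [star_one, one_mul] at h
  calc ‖t.τ x‖ ≤ ‖t.j (1 : A)‖ * ‖t.j x‖ := h
    _ ≤ 1 * ‖x‖ := mul_le_mul h1 (ht.norm_j_le x) (norm_nonneg _) zero_le_one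
    _ = ‖x‖ := one_mul _

end abs

namespace Fr

variable {A : Type*} [CStarAlgebra A] {J : Type} [DecidableEq J]

/-- First variation of a letter. -/
noncomputable def dv (c : J → A) (j₀ : J) (a : A) : A ⊕ J × Bool → A
  | .inl _ => 0
  | .inr (j, true) => if j = j₀ then Complex.I • (a * c j) else 0
  | .inr (j, false) => if j = j₀ then (-Complex.I) • (star (c j) * a) else 0

/-- First order term. -/
noncomputable def P1 (c : J → A) (j₀ : J) (a : A) : Word A J → A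
  | [] => 0
  | h :: l => val c h * P1 c j₀ a l + dv c j₀ a h * ev c l

/-- Second order term. -/
noncomputable def P2 (c : J → A) (j₀ : J) (a : A) : Word A J → A
  | [] => 0
  | h :: l => val c h * P2 c j₀ a l + dv c j₀ a h * P1 c j₀ a l

/-- The unnormalised perturbed word. -/
noncomputable def Q (c : J → A) (j₀ : J) (a : A) (γ : ℝ) : Word A J → A
  | [] => 1
  | h :: l => (val c h + (γ : ℂ) • dv c j₀ a h) * Q c j₀ a γ l

/-- Indicator of the letter index. -/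
def ind (j₀ : J) : A ⊕ J × Bool → ℕ
  | .inl _ => 0
  | .inr (j, _) => if j = j₀ then 1 else 0

/-- Number of letters with a given index. -/
def cnt (j₀ : J) : Word A J → ℕ
  | [] => 0
  | h :: l => ind j₀ h + cnt j₀ l

/-- Normalising constant. -/
noncomputable def al (γ : ℝ) : ℝ := (√(1 + γ ^ 2))⁻¹

lemma al_sq (γ : ℝ) : al γ ^ 2 * (1 + γ ^ 2) = 1 := by
  have h : (0 : ℝ) < 1 + γ ^ 2 := by positivity
  rw [al, inv_pow, Real.sq_sqrt h.le, inv_mul_cancel₀ h.ne']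

/-- The update of one letter. -/
noncomputable def upd (c : J → A) (j₀ : J) (a : A) (γ : ℝ) : J → A :=
  Function.update c j₀ ((al γ : ℂ) • (c j₀ + (γ : ℂ) • (Complex.I • (a * c j₀))))

lemma val_upd (c : J → A) (j₀ : J) {a : A} (ha : star a = a) (γ : ℝ) (h : A ⊕ J × Bool) :
    val (upd c j₀ a γ) h = ((al γ : ℂ) ^ ind j₀ h) • (val c h + (γ : ℂ) • dv c j₀ a h) := by
  rcases h with x | ⟨j, _ | _⟩
  · simp [val, dv, ind]
  · by_cases e : j = j₀
    · subst e; simp [val, dv, ind, upd, ha]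
    · simp [val, dv, ind, upd, e]
  · by_cases e : j = j₀
    · subst e; simp [val, dv, ind, upd]
    · simp [val, dv, ind, upd, e]

lemma ev_upd (c : J → A) (j₀ : J) {a : A} (ha : star a = a) (γ : ℝ) (l : Word A J) :
    ev (upd c j₀ a γ) l = ((al γ : ℂ) ^ cnt j₀ l) • Q c j₀ a γ l := by
  induction l with
  | nil => simp [Q, cnt]
  | cons h l ih =>
    rw [ev_cons, ih, val_upd c j₀ ha, Q, cnt, smul_mul_assoc, mul_smul_comm, smul_smul, pow_add]

lemma upd_mem {B : StarSubalgebra ℂ A} {c : J → A} (hc : ∀ j, c j ∈ B ∧ c j ∈ unitary A)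
    (j₀ : J) {a : A} (hB : a ∈ B) (ha : star a = a) (h2 : a * a = 1) (γ : ℝ) (j : J) :
    upd c j₀ a γ j ∈ B ∧ upd c j₀ a γ j ∈ unitary A := by
  by_cases e : j = j₀
  · subst e
    simp only [upd, Function.update_self]
    refine ⟨SMulMemClass.smul_mem _ (add_mem (hc j).1 (SMulMemClass.smul_mem _
      (SMulMemClass.smul_mem _ (mul_mem hB (hc j).1)))), ?_⟩
    have e1 : (al γ : ℂ) • (c j + (γ : ℂ) • (Complex.I • (a * c j))) =
        ((al γ : ℂ) • (1 + ((γ : ℂ) * Complex.I) • a)) * c j := by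
      simp [add_mul, smul_smul, mul_assoc]
    rw [e1]
    refine mul_mem ?_ (hc j).2
    have e2 : (al γ : ℂ) ^ 2 * (1 + (γ : ℂ) ^ 2) = 1 := by exact_mod_cast al_sq γ
    have e3 : ∀ s : ℂ, s * s = -(γ : ℂ) ^ 2 →
        ((al γ : ℂ) • (1 + (-s) • a)) * ((al γ : ℂ) • (1 + s • a)) = 1 := by
      intro s hs
      have : (1 + (-s) • a) * (1 + s • a) = (1 + (γ : ℂ) ^ 2) • (1 : A) := by
        have hs' : (γ : ℂ) ^ 2 = -s * s := by rw [neg_mul, hs, neg_neg]
        rw [hs']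
        simp only [add_mul, mul_add, one_mul, mul_one, smul_mul_assoc, mul_smul_comm, h2]
        module
      rw [smul_mul_assoc, mul_smul_comm, this, smul_smul, smul_smul, ← pow_two, e2, one_smul]
    have hs : ((γ : ℂ) * Complex.I) * ((γ : ℂ) * Complex.I) = -(γ : ℂ) ^ 2 := by
      ring_nf; simp
    have es : star ((al γ : ℂ) • (1 + ((γ : ℂ) * Complex.I) • a)) =
        (al γ : ℂ) • (1 + (-((γ : ℂ) * Complex.I)) • a) := by
      simp [star_smul, ha]
    constructor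
    · rw [es]; exact e3 _ hs
    · rw [es]
      have := e3 (-((γ : ℂ) * Complex.I)) (by rw [neg_mul_neg, hs])
      rwa [neg_neg] at this
  · simp only [upd, Function.update_of_ne e]; exact hc j

omit [DecidableEq J] in
lemma norm_val (h : A ⊕ J × Bool) : ∃ k : ℝ, 1 ≤ k ∧ ∀ c : J → A, (∀ j, c j ∈ unitary A) →
    ‖val c h‖ ≤ k := by
  rcases h with x | ⟨j, _ | _⟩
  · exact ⟨‖x‖ + 1, by linarith [norm_nonneg x], fun c _ => by simp [val]⟩
  · exact ⟨1, le_rfl, fun c hc => by simpa [val] using norm_unitary_le (hc j)⟩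
  · exact ⟨1, le_rfl, fun c hc => by simpa [val] using norm_unitary_le (hc j)⟩

lemma norm_dv {c : J → A} (hc : ∀ j, c j ∈ unitary A) (j₀ : J) {a : A} (ha : a ∈ unitary A)
    (h : A ⊕ J × Bool) : ‖dv c j₀ a h‖ ≤ 1 := by
  rcases h with x | ⟨j, _ | _⟩
  · simp [dv]
  · simp only [dv]
    split_ifs
    · rw [norm_smul]
      simpa using norm_unitary_le (mul_mem (Unitary.star_mem (hc j)) ha)
    · simp
  · simp only [dv]
    split_ifs
    · rw [norm_smul]
      simpa using norm_unitary_le (mul_mem ha (hc j))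
    · simp

lemma expand (l : Word A J) : ∃ K : ℝ, 1 ≤ K ∧ ∀ c : J → A, (∀ j, c j ∈ unitary A) →
    ‖ev c l‖ ≤ K ∧ ∀ j₀ : J, ∀ a ∈ unitary A, ‖P1 c j₀ a l‖ ≤ K ∧ ‖P2 c j₀ a l‖ ≤ K ∧
      ∀ γ : ℝ, 0 ≤ γ → γ ≤ 1 → ‖Q c j₀ a γ l - (ev c l + (γ : ℂ) • P1 c j₀ a l +
        ((γ : ℂ) ^ 2) • P2 c j₀ a l)‖ ≤ K * γ ^ 3 := by
  induction l with
  | nil =>
    refine ⟨1, le_rfl, fun c _ => ⟨norm_unitary_le (one_mem _), fun j₀ a _ =>
      ⟨by simp [P1], by simp [P2], fun γ h0 _ => ?_⟩⟩⟩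
    simp only [Q, P1, P2, ev_nil, smul_zero, add_zero, sub_self, norm_zero]
    positivity
  | cons h l ih =>
    obtain ⟨K, hK, ih⟩ := ih
    obtain ⟨k, hk, hv⟩ := norm_val h
    have hkK : 1 ≤ k * K := by nlinarith
    refine ⟨3 * (k * K), by linarith, fun c hc => ?_⟩
    obtain ⟨i0, ih⟩ := ih c hc
    have hx := hv c hc
    have mm : ∀ {x y : A} {p q : ℝ}, ‖x‖ ≤ p → ‖y‖ ≤ q → ‖x * y‖ ≤ p * q := fun hx hy =>
      (norm_mul_le _ _).trans (mul_le_mul hx hy (norm_nonneg _) ((norm_nonneg _).trans hx))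
    refine ⟨by rw [ev_cons]; linarith [mm hx i0], fun j₀ a ha => ?_⟩
    obtain ⟨i1, i2, i3⟩ := ih j₀ a ha
    have hy : ‖dv c j₀ a h‖ ≤ k := (norm_dv hc j₀ ha h).trans hk
    refine ⟨?_, ?_, fun γ h0 h1 => ?_⟩
    · rw [P1]; linarith [norm_add_le (val c h * P1 c j₀ a l) (dv c j₀ a h * ev c l),
        mm hx i1, mm hy i0]
    · rw [P2]; linarith [norm_add_le (val c h * P2 c j₀ a l) (dv c j₀ a h * P1 c j₀ a l),
        mm hx i2, mm hy i1]
    · have i4 := i3 γ h0 h1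
      set R := Q c j₀ a γ l - (ev c l + (γ : ℂ) • P1 c j₀ a l + ((γ : ℂ) ^ 2) • P2 c j₀ a l)
        with hR
      have eQ : Q c j₀ a γ l = ev c l + (γ : ℂ) • P1 c j₀ a l +
        ((γ : ℂ) ^ 2) • P2 c j₀ a l + R := by rw [hR]; abel
      have e : Q c j₀ a γ (h :: l) - (ev c (h :: l) + (γ : ℂ) • P1 c j₀ a (h :: l) +
          ((γ : ℂ) ^ 2) • P2 c j₀ a (h :: l)) = ((γ : ℂ) ^ 3) • (dv c j₀ a h * P2 c j₀ a l) +
            (val c h * R + (γ : ℂ) • (dv c j₀ a h * R)) := by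
        rw [Q, P1, P2, ev_cons, eQ]
        simp only [add_mul, mul_add, smul_add, smul_mul_assoc, mul_smul_comm, smul_smul]
        module
      rw [e]
      have b1 : ‖((γ : ℂ) ^ 3) • (dv c j₀ a h * P2 c j₀ a l)‖ ≤ γ ^ 3 * (k * K) := by
        rw [norm_smul, norm_pow, Complex.norm_real, Real.norm_of_nonneg h0]
        exact mul_le_mul_of_nonneg_left (mm hy i2) (by positivity)
      have b2 : ‖(γ : ℂ) • (dv c j₀ a h * R)‖ ≤ k * (K * γ ^ 3) := by
        rw [norm_smul, Complex.norm_real, Real.norm_of_nonneg h0]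
        exact (mul_le_of_le_one_left (norm_nonneg _) h1).trans (mm hy i4)
      have b3 := mm hx i4
      have b4 := norm_add_le (val c h * R) ((γ : ℂ) • (dv c j₀ a h * R))
      have b5 := norm_add_le (((γ : ℂ) ^ 3) • (dv c j₀ a h * P2 c j₀ a l))
        (val c h * R + (γ : ℂ) • (dv c j₀ a h * R))
      nlinarith

omit [CStarAlgebra A] in
lemma exists_cnt {G : Type} [Group G] (d : J → G) (l : Word A J) (h : deg d l ≠ 1) :
    ∃ j, 0 < cnt j l := by
  induction l with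
  | nil => simp at h
  | cons x l ih =>
    rcases x with x | ⟨j, b⟩
    · obtain ⟨j, hj⟩ := ih (by simpa [dval] using h)
      exact ⟨j, by simpa [cnt, ind] using hj⟩
    · exact ⟨j, by simp [cnt, ind]⟩

lemma scalar {W p1 p2 r : ℂ} {K γ e : ℝ} (h0 : 0 ≤ γ) (h1 : γ ≤ 1) (he : 0 < e)
    (hW : ‖W‖ ≤ K) (hp2 : ‖p2‖ ≤ K) (hr : ‖r‖ ≤ K * γ ^ 3) :
    ‖W + γ * p1 + γ ^ 2 * p2 + r‖ ^ 2 ≤ ‖W‖ ^ 2 + 2 * γ ^ 2 * (conj W * p2).re +
      (2 + K ^ 2 / e) * ‖p1‖ ^ 2 + e + 10 * K ^ 2 * γ ^ 3 := by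
  have hK : 0 ≤ K := (norm_nonneg _).trans hW
  have e1 : ∀ z : ℂ, ‖W + z‖ ^ 2 = ‖W‖ ^ 2 + 2 * (conj W * z).re + ‖z‖ ^ 2 := by
    intro z
    simp only [Complex.sq_norm, Complex.normSq_apply, Complex.add_re, Complex.add_im,
      Complex.mul_re, Complex.conj_re, Complex.conj_im]
    ring
  have e2 : W + γ * p1 + γ ^ 2 * p2 + r = W + (γ * p1 + (γ ^ 2 * p2 + r)) := by ring
  rw [e2, e1]
  have g2 : γ ^ 3 ≤ γ ^ 2 := pow_le_pow_of_le_one h0 h1 (by norm_num)
  have g3 : γ ^ 4 ≤ γ ^ 3 := pow_le_pow_of_le_one h0 h1 (by norm_num)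
  have n1 : ‖(γ : ℂ) * p1‖ ≤ ‖p1‖ := by
    rw [norm_mul, Complex.norm_real, Real.norm_of_nonneg h0]
    exact mul_le_of_le_one_left (norm_nonneg _) h1
  have n2 : ‖(γ : ℂ) ^ 2 * p2 + r‖ ≤ 2 * K * γ ^ 2 := by
    have := norm_add_le ((γ : ℂ) ^ 2 * p2) r
    rw [norm_mul, norm_pow, Complex.norm_real, Real.norm_of_nonneg h0] at this
    nlinarith [mul_le_mul_of_nonneg_left hp2 (sq_nonneg γ), mul_le_mul_of_nonneg_left g2 hK]
  have n3 : ‖(γ : ℂ) * p1 + ((γ : ℂ) ^ 2 * p2 + r)‖ ^ 2 ≤ 2 * ‖p1‖ ^ 2 + 8 * K ^ 2 * γ ^ 3 := by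
    have a1 := norm_add_sq_le_two ((γ : ℂ) * p1) ((γ : ℂ) ^ 2 * p2 + r)
    have a2 := pow_le_pow_left₀ (norm_nonneg _) n1 2
    have a3 := pow_le_pow_left₀ (norm_nonneg _) n2 2
    nlinarith [mul_le_mul_of_nonneg_left g3 (sq_nonneg K)]
  have e3 : (conj W * ((γ : ℂ) * p1 + ((γ : ℂ) ^ 2 * p2 + r))).re =
      (conj W * ((γ : ℂ) * p1)).re + γ ^ 2 * (conj W * p2).re + (conj W * r).re := by
    have : conj W * ((γ : ℂ) * p1 + ((γ : ℂ) ^ 2 * p2 + r)) =
        conj W * ((γ : ℂ) * p1) + ((γ ^ 2 : ℝ) : ℂ) * (conj W * p2) + conj W * r := by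
      push_cast; ring
    rw [this, Complex.add_re, Complex.add_re, Complex.re_ofReal_mul]
  have rb : ∀ z : ℂ, (conj W * z).re ≤ K * ‖z‖ := fun z => by
    refine (Complex.re_le_norm _).trans ?_
    rw [norm_mul, Complex.norm_conj]
    exact mul_le_mul_of_nonneg_right hW (norm_nonneg _)
  have n4 := rb ((γ : ℂ) * p1)
  have n5 := rb r
  have n6 : 2 * (K * ‖p1‖) ≤ e + K ^ 2 / e * ‖p1‖ ^ 2 := by
    have : e + K ^ 2 / e * ‖p1‖ ^ 2 - 2 * (K * ‖p1‖) = (e - K * ‖p1‖) ^ 2 / e := by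
      field_simp; ring
    have h' : 0 ≤ (e - K * ‖p1‖) ^ 2 / e := by positivity
    linarith
  rw [e3]
  nlinarith [mul_le_mul_of_nonneg_left n1 hK, mul_le_mul_of_nonneg_left hr hK]

end Fr

end Vale.Agent.P085
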