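import Vale.Agent.P085.Defs

/-! Cayley transform estimates for part K1 of P085. -/

namespace Vale.Agent.P085.K1

open scoped InnerProductSpace ComplexOrder ComplexConjugate
open Vale.Agent.P104 Complex

variable {A : Type*} [CStarAlgebra A] {t : Tr A}

/-- `f` is the inverse of `1 - i b`, with `b` self-adjoint and small. -/
structure Cay (b f : A) : Prop where
  sa : star b = b
  l : f * (1 - I • b) = 1
  r : (1 - I • b) * f = 1
  small : ‖b‖ ≤ 1 / 2

lemma nI (b : A) : ‖I • b‖ = ‖b‖ := by rw [norm_smul, norm_I, one_mul]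

lemma exists_cay {b : A} (hb : star b = b) (h : ‖b‖ ≤ 1 / 2) : ∃ f, Cay b f := by
  have h1 : ‖I • b‖ < 1 := by rw [nI]; linarith
  exact ⟨∑' n, (I • b) ^ n, hb, geom_series_mul_neg _ h1, mul_neg_geom_series _ h1, h⟩

lemma Cay.mem {b f : A} (h : Cay b f) {C : StarSubalgebra ℂ A} (hC : IsClosed (C : Set A))
    (hb : b ∈ C) : f ∈ C := by
  have h1 : ‖I • b‖ < 1 := by rw [nI]; linarith [h.small]
  have e : f = ∑' n, (I • b) ^ n := by
    calc f = f * ((1 - I • b) * ∑' n, (I • b) ^ n) := by rw [mul_neg_geom_series _ h1, mul_one]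
      _ = _ := by rw [← mul_assoc, h.l, one_mul]
  rw [e]
  exact tsum_mem hC fun n => pow_mem (SMulMemClass.smul_mem _ hb) n

lemma Cay.eq1 {b f : A} (h : Cay b f) : f = 1 + I • (b * f) := by
  have := h.r
  rw [sub_mul, one_mul, smul_mul_assoc] at this
  exact eq_add_of_sub_eq this

lemma Cay.eq2 {b f : A} (h : Cay b f) : f = 1 + I • (f * b) := by
  have := h.l
  rw [mul_sub, mul_one, mul_smul_comm] at this
  exact eq_add_of_sub_eq this

lemma Cay.comm {b f : A} (h : Cay b f) : b * f = f * b := by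
  have e : I • (b * f) = I • (f * b) := add_left_cancel (h.eq1.symm.trans h.eq2)
  exact smul_right_injective A I_ne_zero e

lemma Cay.norm_le [Nontrivial A] {b f : A} (h : Cay b f) : ‖f‖ ≤ 2 := by
  have h1 : ‖f‖ ≤ 1 + ‖b‖ * ‖f‖ := by
    calc ‖f‖ = ‖1 + I • (b * f)‖ := by rw [← h.eq1]
      _ ≤ ‖(1 : A)‖ + ‖I • (b * f)‖ := norm_add_le _ _
      _ ≤ _ := by rw [norm_one, nI]; linarith [norm_mul_le b f]
  nlinarith [h.small, norm_nonneg f]

lemma Cay.unit {b f : A} (h : Cay b f) : (1 + I • b) * f ∈ unitary A := by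
  have s1 : star (1 + I • b) = 1 - I • b := by
    rw [star_add, star_one, star_smul, h.sa, star_def, conj_I, neg_smul, sub_eq_add_neg]
  have s2 : star (1 - I • b) = 1 + I • b := by rw [← s1, star_star]
  have l' : (1 + I • b) * star f = 1 := by rw [← s2, ← star_mul, h.l, star_one]
  have r' : star f * (1 + I • b) = 1 := by rw [← s2, ← star_mul, h.r, star_one]
  have c : (1 - I • b) * (1 + I • b) = (1 + I • b) * (1 - I • b) := by
    generalize I • b = z
    noncomm_ring
  have e : (1 + I • b) * f = f * (1 + I • b) := by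
    rw [add_mul, mul_add, one_mul, mul_one, smul_mul_assoc, mul_smul_comm, h.comm]
  constructor
  · rw [star_mul, s1]
    calc _ = star f * ((1 - I • b) * (1 + I • b)) * f := by simp only [mul_assoc]
      _ = (star f * (1 + I • b)) * ((1 - I • b) * f) := by rw [c]; simp only [mul_assoc]
      _ = 1 := by rw [r', h.r, one_mul]
  · rw [e, star_mul, s1]
    calc _ = f * ((1 + I • b) * (1 - I • b)) * star f := by simp only [mul_assoc]
      _ = (f * (1 - I • b)) * ((1 + I • b) * star f) := by rw [← c]; simp only [mul_assoc]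
      _ = 1 := by rw [l', h.l, one_mul]

lemma Cay.sub1 {b f : A} (h : Cay b f) : (1 + I • b) * f - 1 = (2 * I) • (b * f) := by
  rw [add_mul, one_mul, smul_mul_assoc, mul_smul, two_smul]
  nth_rewrite 1 [h.eq1]
  abel

lemma Cay.sub2 {b f : A} (h : Cay b f) :
    (1 + I • b) * f - 1 = (2 * I) • b - (2 : ℂ) • (b * f * b) := by
  rw [h.sub1]
  nth_rewrite 1 [h.eq2]
  rw [mul_add, mul_one, mul_smul_comm, smul_add, smul_smul, mul_assoc 2, I_mul_I, mul_neg,
    mul_one, neg_smul, mul_assoc, sub_eq_add_neg]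

lemma Cay.conj {b f g : A} (h : Cay b f) (hg : g ∈ unitary A) :
    Cay (g * b * star g) (g * f * star g) := by
  have e : 1 - I • (g * b * star g) = g * (1 - I • b) * star g := by
    rw [mul_sub, sub_mul, mul_one, hg.2, mul_smul_comm, smul_mul_assoc]
  refine ⟨by simp only [star_mul, star_star, h.sa, mul_assoc], ?_, ?_, ?_⟩
  · rw [e]
    calc _ = g * (f * (star g * g) * (1 - I • b)) * star g := by simp only [mul_assoc]
      _ = 1 := by rw [hg.1, mul_one, h.l, mul_one, hg.2]
  · rw [e]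
    calc _ = g * ((1 - I • b) * (star g * g) * f) * star g := by simp only [mul_assoc]
      _ = 1 := by rw [hg.1, mul_one, h.r, mul_one, hg.2]
  · rw [CStarRing.norm_mul_mem_unitary _ (Unitary.star_mem hg), CStarRing.norm_mem_unitary_mul _ hg]
    exact h.small

lemma conj_V {b f g : A} (hg : g ∈ unitary A) :
    g * ((1 + I • b) * f) * star g = (1 + I • (g * b * star g)) * (g * f * star g) := by
  have e : 1 + I • (g * b * star g) = g * (1 + I • b) * star g := by
    rw [mul_add, add_mul, mul_one, hg.2, mul_smul_comm, smul_mul_assoc]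
  rw [e]
  calc _ = g * ((1 + I • b) * (star g * g) * f) * star g := by rw [hg.1, mul_one]
    _ = _ := by simp only [mul_assoc]

lemma nontriv (ht : TS t) : Nontrivial A := by
  by_contra h
  rw [not_nontrivial_iff_subsingleton] at h
  have := ht.one
  rw [Subsingleton.elim (1 : A) 0, map_zero] at this
  exact zero_ne_one this

lemma N_mul_le' (ht : TS t) (x y : A) : t.N (x * y) ≤ ‖y‖ ^ 2 * t.N x := by
  rw [← t.N_star, star_mul, ← norm_star y, ← t.N_star x]
  exact ht.mul_le _ _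

lemma N_one' (ht : TS t) : t.N 1 = 1 := by rw [t.N_one, ht.one]; rfl

lemma N_le_one (ht : TS t) {x : A} (hx : ‖x‖ ≤ 1) : t.N x ≤ 1 := by
  have := ht.mul_le x 1
  rw [mul_one, N_one' ht, mul_one] at this
  nlinarith [norm_nonneg x]

lemma Cay.N_sub (ht : TS t) {b f : A} (h : Cay b f) :
    t.N ((1 + I • b) * f - 1) ≤ 16 * t.N b := by
  haveI := nontriv ht
  rw [h.sub1, t.N_smul]
  have h1 := N_mul_le' ht b f
  have h2 : ‖f‖ ^ 2 ≤ 4 := by nlinarith [h.norm_le, norm_nonneg f]
  have h3 : ‖(2 * I : ℂ)‖ ^ 2 = 4 := by simp; norm_num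
  rw [h3]
  nlinarith [t.N_nonneg b]

lemma Cay.quad (ht : TS t) {b f Y : A} (h : Cay b f) (hY : ‖Y‖ ≤ 1) :
    ‖t.τ (Y * (b * f * b))‖ ≤ 2 * t.N b := by
  haveI := nontriv ht
  have e : t.τ (Y * (b * f * b)) = t.τ (star (star Y * b) * (b * f)) := by
    rw [star_mul, star_star, h.sa, ← mul_assoc, t.comm, mul_assoc]
  rw [e]
  refine (t.norm_τ_le_amgm _ _ (by norm_num : (0 : ℝ) < 2)).trans ?_
  have h1 := N_mul_le' ht b f
  have h2 : ‖f‖ ^ 2 ≤ 4 := by nlinarith [h.norm_le, norm_nonneg f]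
  have h3 := ht.mul_le (star Y) b
  have h4 : ‖star Y‖ ^ 2 ≤ 1 := by rw [norm_star]; nlinarith [norm_nonneg Y]
  nlinarith [t.N_nonneg b]

/-- One step of the telescoping sum. -/
lemma Cay.step (ht : TS t) {b f Y : A} (h : Cay b f) (hY : ‖Y‖ ≤ 1) :
    ‖t.τ (Y * ((1 + I • b) * f)) - t.τ Y - 2 * I * t.τ (Y * b)‖ ≤ 4 * t.N b := by
  have e : t.τ (Y * ((1 + I • b) * f)) - t.τ Y - 2 * I * t.τ (Y * b) =
      -2 * t.τ (Y * (b * f * b)) := by
    have : Y * ((1 + I • b) * f) = Y + Y * ((1 + I • b) * f - 1) := by noncomm_ring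
    rw [this, h.sub2, mul_sub, mul_smul_comm, mul_smul_comm, map_add, map_sub, map_smul, map_smul,
      smul_eq_mul, smul_eq_mul]
    ring
  rw [e, norm_mul]
  have := h.quad ht hY
  have h2 : ‖(-2 : ℂ)‖ = 2 := by simp
  rw [h2]; linarith

end Vale.Agent.P085.K1
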