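import Vale.Agent.P085.Defs

/-! Gradings by a group and the wreath type group used for the perturbation step. -/

namespace Vale.Agent.P085.K2

open scoped InnerProductSpace ComplexOrder ComplexConjugate
open Vale.Agent.P104 Vale.Agent.P104.F Filter Topology

section gr
variable {A : Type*} [CStarAlgebra A] {t : Tr A}

lemma norm_τ_le (ht : TS t) (x : A) : ‖t.τ x‖ ≤ ‖x‖ := by
  have h := t.norm_τ_le 1 x
  rw [star_one, one_mul] at h
  have h1 : t.N 1 = 1 := by rw [t.N_one, ht.one]; simp
  have h2 : ‖t.j (1 : A)‖ = 1 := by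
    have := t.N_eq 1
    rw [h1] at this
    have h0 := norm_nonneg (t.j (1 : A))
    nlinarith
  have h3 : ‖t.j x‖ ≤ ‖x‖ := by
    have := ht.mul_le x 1
    rw [mul_one, h1, mul_one, t.N_eq] at this
    exact le_of_sq_le_sq this (norm_nonneg _)
  rw [h2, one_mul] at h
  exact h.trans h3

lemma cont_τ (ht : TS t) : Continuous t.τ :=
  (t.τ.mkContinuous 1 (fun x => by simpa using norm_τ_le ht x)).continuous

/-- A grading relation compatible with the trace. -/
structure Gr (t : Tr A) (G : Type) [Group G] where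
  R : G → A → Prop
  mul : ∀ {a b x y}, R a x → R b y → R (a * b) (x * y)
  star : ∀ {a x}, R a x → R a⁻¹ (star x)
  zero : ∀ {a x}, R a x → a ≠ 1 → t.τ x = 0

lemma exists_C (ht : TS t) {G : Type} [Group G] (gr : Gr t G) (Γ : Subgroup G) :
    ∃ C : StarSubalgebra ℂ A, IsClosed (C : Set A) ∧ (∀ a ∈ Γ, ∀ x, gr.R a x → x ∈ C) ∧
      ∀ X ∈ C, ∀ a, a ∉ Γ → ∀ z, gr.R a z → t.τ (X * z) = 0 := by
  let Ann : A → Prop := fun Y => ∀ a, a ∉ Γ → ∀ z, gr.R a z → t.τ (Y * z) = 0
  let C : StarSubalgebra ℂ A :=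
    { carrier := {X | ∀ Y, Ann Y → Ann (Y * X) ∧ Ann (Y * star X)}
      mul_mem' := fun {X X'} hX hX' Y hY => by
        refine ⟨?_, ?_⟩
        · rw [← mul_assoc]; exact (hX' _ (hX Y hY).1).1
        · rw [star_mul, ← mul_assoc]; exact (hX _ (hX' Y hY).2).2
      add_mem' := fun {X X'} hX hX' Y hY => by
        refine ⟨fun a ha z hz => ?_, fun a ha z hz => ?_⟩
        · rw [mul_add, add_mul, map_add, (hX Y hY).1 a ha z hz, (hX' Y hY).1 a ha z hz, add_zero]
        · rw [star_add, mul_add, add_mul, map_add, (hX Y hY).2 a ha z hz,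
            (hX' Y hY).2 a ha z hz, add_zero]
      algebraMap_mem' := fun c Y hY => by
        refine ⟨fun a ha z hz => ?_, fun a ha z hz => ?_⟩
        · rw [Algebra.algebraMap_eq_smul_one, mul_smul_comm, smul_mul_assoc, map_smul, mul_one,
            hY a ha z hz, smul_zero]
        · rw [Algebra.algebraMap_eq_smul_one, star_smul, star_one, mul_smul_comm, smul_mul_assoc,
            map_smul, mul_one, hY a ha z hz, smul_zero]
      star_mem' := fun {X} hX Y hY => by
        refine ⟨(hX Y hY).2, ?_⟩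
        rw [star_star]; exact (hX Y hY).1 }
  refine ⟨C, ?_, ?_, ?_⟩
  · have : (C : Set A) = ⋂ Y, ⋂ (_ : Ann Y), ⋂ a, ⋂ (_ : a ∉ Γ), ⋂ z, ⋂ (_ : gr.R a z),
        ({X | t.τ (Y * X * z) = 0} ∩ {X | t.τ (Y * star X * z) = 0}) := by
      ext X
      simp only [Set.mem_iInter, Set.mem_inter_iff, Set.mem_ofPred_eq]
      exact ⟨fun h Y hY a ha z hz => ⟨(h Y hY).1 a ha z hz, (h Y hY).2 a ha z hz⟩,
        fun h Y hY => ⟨fun a ha z hz => (h Y hY a ha z hz).1, fun a ha z hz => (h Y hY a ha z hz).2⟩⟩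
    rw [this]
    have hc := cont_τ ht
    refine isClosed_iInter fun Y => isClosed_iInter fun _ => isClosed_iInter fun a =>
      isClosed_iInter fun _ => isClosed_iInter fun z => isClosed_iInter fun _ =>
      IsClosed.inter (isClosed_eq ?_ continuous_const) (isClosed_eq ?_ continuous_const)
    · exact hc.comp ((continuous_const.mul continuous_id).mul continuous_const)
    · exact hc.comp ((continuous_const.mul continuous_star).mul continuous_const)
  · intro b hb x hx Y hY
    refine ⟨fun a ha z hz => ?_, fun a ha z hz => ?_⟩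
    · rw [mul_assoc]
      exact hY _ (fun h => ha ((Γ.mul_mem_cancel_left hb).1 h)) _ (gr.mul hx hz)
    · rw [mul_assoc]
      exact hY _ (fun h => ha ((Γ.mul_mem_cancel_left (Γ.inv_mem hb)).1 h)) _
        (gr.mul (gr.star hx) hz)
  · intro X hX a ha z hz
    have h1 : Ann 1 := fun a ha z hz => by
      rw [one_mul]; exact gr.zero hz (fun h => ha (h ▸ Γ.one_mem))
    have := (hX 1 h1).1 a ha z hz
    rwa [one_mul] at this

end gr

section grp

/-- The group of permutations carrying the grading. -/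
abbrev GG : Type := Equiv.Perm ((ℕ → ℤ) × ℤ)

/-- Translation in the first coordinate. -/
def T (a : ℕ → ℤ) : GG where
  toFun p := (p.1 + a, p.2)
  invFun p := (p.1 - a, p.2)
  left_inv p := by simp
  right_inv p := by simp

/-- Elementary shear at the origin. -/
noncomputable def om : GG := by
  classical
  exact
  { toFun := fun p => (p.1, p.2 + if p.1 = 0 then 1 else 0)
    invFun := fun p => (p.1, p.2 - if p.1 = 0 then 1 else 0)
    left_inv := fun p => by simp
    right_inv := fun p => by simp }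

/-- Positions. -/
def pos : ℕ → ℕ → ℤ
  | 0 => 0
  | k + 1 => Pi.single k 1

/-- Degrees of the letters. -/
noncomputable def dd (L k : ℕ) : GG :=
  if k < L then (T (pos k))⁻¹ * T (pos (k + 1)) else (T (pos L))⁻¹ * om

lemma T_zero : T 0 = 1 := by ext p <;> simp [T]

lemma om_ne : om⁻¹ ≠ 1 := by
  intro h
  have := congrArg (fun e : GG => (e (0, 0)).2) h
  simp [om, Equiv.Perm.inv_def] at this

lemma conj_fix (a b c : ℕ → ℤ) :
    (T a * (T b)⁻¹ * om⁻¹ * T b * (T a)⁻¹) (c, 0) = (c, 0) ↔ c ≠ a - b := by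
  have e : c - a + b = 0 ↔ c = a - b := by
    constructor
    · intro h; rw [← sub_eq_zero, ← h]; abel
    · intro h; rw [h]; abel
  by_cases h : c = a - b
  · simp [T, om, Equiv.Perm.inv_def, e, h]
  · simp [T, om, Equiv.Perm.inv_def, e, h]

lemma single_inj {i l j k : ℕ} (hjk : j ≠ k) (h : (i, l) ≠ (j, k)) :
    (Pi.single j 1 - Pi.single k 1 : ℕ → ℤ) ≠ Pi.single i 1 - Pi.single l 1 := by
  intro e
  have e1 := congrFun e j
  have e2 := congrFun e k
  simp only [Pi.sub_apply, Pi.single_apply, if_true, hjk, hjk.symm, if_false] at e1 e2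
  apply h
  by_cases h1 : j = i
  · by_cases h2 : k = l
    · rw [h1, h2]
    · exfalso; split_ifs at e2 <;> omega
  · exfalso; split_ifs at e1 <;> omega

end grp

end Vale.Agent.P085.K2
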