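import Vale.Agent.P085.K2a

/-! Initial products, the orthogonality condition and the limit algebra. -/

namespace Vale.Agent.P085.K2

open scoped InnerProductSpace ComplexOrder ComplexConjugate BoundedContinuousFunction
open Vale.Agent.P104 Vale.Agent.P104.F Filter Topology

section pw
variable {A : Type*} [CStarAlgebra A] {t : Tr A}

/-- Initial products. -/
def pw (c : ℕ → A) (u : A) : ℕ → A
  | 0 => 1
  | k + 1 => pw c u k * c k * u

lemma pw_unitary {c : ℕ → A} {u : A} (hc : ∀ k, c k ∈ unitary A) (hu : u ∈ unitary A) :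
    ∀ k, pw c u k ∈ unitary A
  | 0 => one_mem _
  | k + 1 => mul_mem (mul_mem (pw_unitary hc hu k) (hc k)) hu

lemma pw_mem {Q : StarSubalgebra ℂ A} {c : ℕ → A} {u : A} (hc : ∀ k, c k ∈ Q) (hu : u ∈ Q) :
    ∀ k, pw c u k ∈ Q
  | 0 => one_mem _
  | k + 1 => mul_mem (mul_mem (pw_mem hc hu k) (hc k)) hu

lemma uprod_pw {c : ℕ → A} {u : A} (hc : ∀ k, c k ∈ unitary A) (hu : u ∈ unitary A) (V : A) :
    ∀ k, uprod (fun j => pw c u (j + 1)) V k * pw c u k = pw c (u * V) k
  | 0 => by simp [uprod, pw]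
  | k + 1 => by
    have h1 : star (pw c u (k + 1)) * pw c u (k + 1) = 1 :=
      Unitary.star_mul_self_of_mem (pw_unitary hc hu _)
    rw [uprod, mul_assoc, mul_assoc (pw c u (k + 1) * V), h1, mul_one, pw, pw,
      ← uprod_pw hc hu V k]
    simp only [mul_assoc]

lemma pw_gr (gr : Gr t GG) (L : ℕ) {c : ℕ → A} {u : A} (h1 : gr.R 1 1) (hu : gr.R 1 u)
    (hc : ∀ k ≤ L, gr.R (dd L k) (c k)) : ∀ k ≤ L, gr.R (T (pos k)) (pw c u k)
  | 0, _ => by simpa [pos, T_zero, pw] using h1
  | k + 1, hk => by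
    have := gr.mul (gr.mul (pw_gr gr L h1 hu hc k (by omega)) (hc k (by omega))) hu
    rw [dd, if_pos (by omega), mul_inv_cancel_left, mul_one] at this
    exact this

lemma w_gr (gr : Gr t GG) (L : ℕ) {c : ℕ → A} {u r : A} (h1 : gr.R 1 1) (hu : gr.R 1 u)
    (hr : gr.R 1 r) (hc : ∀ k ≤ L, gr.R (dd L k) (c k)) :
    gr.R om⁻¹ (r * star (pw c u L * c L)) := by
  have := gr.mul (pw_gr gr L h1 hu hc L le_rfl) (hc L le_rfl)
  rw [dd, if_neg (lt_irrefl _), mul_inv_cancel_left] at this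
  simpa using gr.mul hr (gr.star this)

lemma orth (ht : TS t) (gr : Gr t GG) (L : ℕ) {g : ℕ → A} {ρ : A} (hρ : gr.R om⁻¹ ρ)
    (hg : ∀ k < L, gr.R (T (Pi.single k 1)) (g k)) :
    ∀ j < L, ∀ k < L, j ≠ k → ∃ C : StarSubalgebra ℂ A, IsClosed (C : Set A) ∧ ρ ∈ C ∧
      (∀ i < L, ∀ l < L, (i, l) ≠ (j, k) → g i * star (g l) * ρ * g l * star (g i) ∈ C) ∧
      ∀ X ∈ C, t.τ (X * (g j * star (g k) * ρ * g k * star (g j))) = 0 := by
  intro j hj k hk hjk
  obtain ⟨C, h1, h2, h3⟩ := exists_C ht gr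
    (MulAction.stabilizer GG ((Pi.single j 1 - Pi.single k 1, 0) : (ℕ → ℤ) × ℤ))
  have key : ∀ i < L, ∀ l < L, gr.R (T (Pi.single i 1) * (T (Pi.single l 1))⁻¹ * om⁻¹ *
      T (Pi.single l 1) * (T (Pi.single i 1))⁻¹) (g i * star (g l) * ρ * g l * star (g i)) :=
    fun i hi l hl => gr.mul (gr.mul (gr.mul (gr.mul (hg i hi) (gr.star (hg l hl))) hρ) (hg l hl))
      (gr.star (hg i hi))
  have h4 : ∀ i < L, ∀ l < L, (i, l) ≠ (j, k) → g i * star (g l) * ρ * g l * star (g i) ∈ C :=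
    fun i hi l hl h => h2 _ (by
      rw [MulAction.mem_stabilizer_iff, Equiv.Perm.smul_def, conj_fix]
      exact single_inj hjk h) _ (key i hi l hl)
  refine ⟨C, h1, ?_, h4, fun X hX => h3 X hX _ ?_ _ (key j hj k hk)⟩
  · refine h2 _ ?_ _ hρ
    have := (conj_fix 0 0 (Pi.single j 1 - Pi.single k 1)).2
      (by simpa using single_inj (i := j) (l := j) hjk (by simp [hjk]))
    rw [T_zero] at this
    rw [MulAction.mem_stabilizer_iff, Equiv.Perm.smul_def]
    simpa using this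
  · rw [MulAction.mem_stabilizer_iff, Equiv.Perm.smul_def, conj_fix]
    simp

end pw

section lim
variable {A : Type*} [CStarAlgebra A] {t : Tr A}
variable {I : Type*} [TopologicalSpace I]

lemma exists_lim (ht : TS t) (U : Ultrafilter I) (X : I →ᵇ A) :
    ∃ z : ℂ, Tendsto (fun i => t.τ (X i)) U (𝓝 z) := by
  obtain ⟨z, -, hz⟩ := (isCompact_closedBall (0 : ℂ) ‖X‖).ultrafilter_le_nhds
    (U.map fun i => t.τ (X i)) (by
      rw [Ultrafilter.coe_map, le_principal_iff, mem_map]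
      exact Eventually.of_forall fun i => by
        simpa using (norm_τ_le ht _).trans (X.norm_coe_le_norm i))
  exact ⟨z, hz⟩

lemma exists_tr (ht : TS t) (U : Ultrafilter I) : ∃ s : Tr (I →ᵇ A), TS s ∧
    (∀ X, Tendsto (fun i => t.τ (X i)) U (𝓝 (s.τ X))) ∧
    ∀ X, Tendsto (fun i => t.N (X i)) U (𝓝 (s.N X)) := by
  choose f hf using exists_lim ht U
  let s : Tr (I →ᵇ A) :=
    { τ :=
        { toFun := f
          map_add' := fun X Y => tendsto_nhds_unique (hf (X + Y)) (by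
            simpa using (hf X).add (hf Y))
          map_smul' := fun c X => tendsto_nhds_unique (hf (c • X)) (by
            simpa using (hf X).const_mul c) }
      comm := fun X Y => tendsto_nhds_unique (hf (X * Y)) (by
        simpa [t.comm (X _)] using hf (Y * X))
      pos := fun X => ge_of_tendsto' (hf (star X * X)) (fun i => t.pos (X i)) }
  have hN : ∀ X, Tendsto (fun i => t.N (X i)) U (𝓝 (s.N X)) := fun X =>
    (Complex.continuous_re.tendsto _).comp (hf (star X * X))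
  refine ⟨s, ⟨?_, fun X Y => ?_⟩, hf, hN⟩
  · exact tendsto_nhds_unique (hf 1) (by simpa [ht.one] using tendsto_const_nhds)
  · refine le_of_tendsto_of_tendsto' (hN (X * Y)) ((hN Y).const_mul (‖X‖ ^ 2)) fun i => ?_
    refine (ht.mul_le (X i) (Y i)).trans (mul_le_mul_of_nonneg_right ?_ (t.N_nonneg _))
    exact pow_le_pow_left₀ (norm_nonneg _) (X.norm_coe_le_norm i) 2

lemma unitary_apply {V : I →ᵇ A} (hV : V ∈ unitary (I →ᵇ A)) (i : I) : V i ∈ unitary A :=
  ⟨congrArg (fun X : I →ᵇ A => X i) hV.1, congrArg (fun X : I →ᵇ A => X i) hV.2⟩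

lemma unitary_of {V : I →ᵇ A} (hV : ∀ i, V i ∈ unitary A) : V ∈ unitary (I →ᵇ A) :=
  ⟨BoundedContinuousFunction.ext fun i => (hV i).1, BoundedContinuousFunction.ext fun i => (hV i).2⟩

lemma pw_apply (c : ℕ → I →ᵇ A) (u : I →ᵇ A) (i : I) :
    ∀ k, pw c u k i = pw (fun k => c k i) (u i) k
  | 0 => rfl
  | k + 1 => by rw [pw, pw, ← pw_apply c u i k]; rfl

lemma uprod_apply (g : ℕ → I →ᵇ A) (V : I →ᵇ A) (i : I) :
    ∀ k, uprod g V k i = uprod (fun k => g k i) (V i) k
  | 0 => rfl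
  | k + 1 => by rw [uprod, uprod, ← uprod_apply g V i k]; rfl

end lim

section words
variable {A J G : Type*} [Monoid A] [StarMul A] [Group G]

/-- Adjoint of a letter. -/
def flip : A ⊕ J × Bool → A ⊕ J × Bool
  | .inl x => .inl (star x)
  | .inr (j, b) => .inr (j, !b)

lemma ev_append (c : J → A) (l l' : Word A J) : ev c (l ++ l') = ev c l * ev c l' := by
  simp [ev]

omit [Monoid A] [StarMul A] in
lemma deg_append (d : J → G) (l l' : Word A J) : deg d (l ++ l') = deg d l * deg d l' := by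
  simp [deg]

lemma ev_flip (c : J → A) : ∀ l : Word A J, ev c (l.map flip).reverse = star (ev c l)
  | [] => by simp [ev]
  | a :: l => by
    have h : val c (flip a) = star (val c a) := by
      rcases a with x | ⟨j, _ | _⟩ <;> simp [flip, val]
    rw [List.map_cons, List.reverse_cons, ev_append, ev_flip c l]
    simp [ev, h]

lemma deg_flip (d : J → G) : ∀ l : Word A J, deg d (l.map flip).reverse = (deg d l)⁻¹
  | [] => by simp [deg]
  | a :: l => by
    have h : dval d (flip a) = (dval d a)⁻¹ := by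
      rcases a with x | ⟨j, _ | _⟩ <;> simp [flip, dval]
    rw [List.map_cons, List.reverse_cons, deg_append, deg_flip d l]
    simp [deg, h]

end words

end Vale.Agent.P085.K2
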