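import Vale.Agent.P085.K2b

/-! The perturbation step from approximate freeness and the abstract estimate. -/

namespace Vale.Agent.P085.K2

open scoped InnerProductSpace ComplexOrder ComplexConjugate BoundedContinuousFunction
open Vale.Agent.P104 Vale.Agent.P104.F Filter Topology

universe w

/-- Statement of the abstract estimate. -/
def Abs : Prop := ∀ (A : Type w) [CStarAlgebra A] (t : Tr A), TS t → ∀ L : ℕ, 0 < L →
  ∀ g : ℕ → A, (∀ j, g j ∈ unitary A) → ∀ ρ : A, ‖ρ‖ ≤ 1 → t.τ ρ = 0 →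
    (∀ j < L, ∀ k < L, j ≠ k → ∃ C : StarSubalgebra ℂ A, IsClosed (C : Set A) ∧ ρ ∈ C ∧
      (∀ i < L, ∀ l < L, (i, l) ≠ (j, k) → g i * star (g l) * ρ * g l * star (g i) ∈ C) ∧
      ∀ X ∈ C, t.τ (X * (g j * star (g k) * ρ * g k * star (g j))) = 0) →
    ∃ V ∈ unitary A, t.N (V - 1) ≤ 1 / L ∧ t.N ρ ^ 2 / 800 ≤ ‖t.τ (star ρ * uprod g V L)‖

variable {A : Type w} [CStarAlgebra A] {t : Tr A} {B : StarSubalgebra ℂ A}

lemma key_gr (habs : Abs.{w}) (ht : TS t) (gr : Gr t GG) (L : ℕ) (hL : 0 < L) {c : ℕ → A}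
    {u r : A} (hcu : ∀ k, c k ∈ unitary A) (huu : u ∈ unitary A) (hr1 : ‖r‖ ≤ 1)
    (h1 : gr.R 1 1) (hu : gr.R 1 u) (hr : gr.R 1 r) (hc : ∀ k ≤ L, gr.R (dd L k) (c k)) :
    ∃ V ∈ unitary A, t.N (V - 1) ≤ 1 / L ∧
      t.N r ^ 2 / 800 ≤ ‖t.τ (star r * (pw c (u * V) L * c L))‖ := by
  have hw : pw c u L * c L ∈ unitary A := mul_mem (pw_unitary hcu huu L) (hcu L)
  have hρ := w_gr gr L h1 hu hr hc
  obtain ⟨V, hV, h2, h3⟩ := habs A t ht L hL (fun j => pw c u (j + 1))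
    (fun j => pw_unitary hcu huu _) (r * star (pw c u L * c L))
    (by rwa [CStarRing.norm_mul_mem_unitary _ (Unitary.star_mem hw)]) (gr.zero hρ om_ne)
    (orth ht gr L hρ fun k hk => pw_gr gr L h1 hu hc (k + 1) hk)
  refine ⟨V, hV, h2, ?_⟩
  rw [t.N_mul_unitary (Unitary.star_mem hw), star_mul, star_star, mul_assoc, t.comm,
    mul_assoc, ← mul_assoc _ (pw c u L), uprod_pw hcu huu] at h3
  exact h3

lemma transfer (habs : Abs.{w}) (ht : TS t) {I : Type w} [TopologicalSpace I]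
    [DiscreteTopology I] (U : Ultrafilter I) (L : ℕ) (hL : 0 < L) (c : I → Fin (L + 1) → A)
    (hcu : ∀ i j, c i j ∈ unitary A)
    (hfree : ∀ l : Word A (Fin (L + 1)), deg (fun j : Fin (L + 1) => dd L j) l ≠ 1 →
      Tendsto (fun i => t.τ (ev (c i) l)) U (𝓝 0))
    {u : A} (hu : u ∈ unitary A) {r : A} (hr : ‖r‖ ≤ 1) (hN : 0 < t.N r) {η : ℝ}
    (hη : 1 / (L : ℝ) < η) : ∃ i, ∃ V ∈ unitary A, t.N (V - 1) ≤ η ∧
      t.N r ^ 2 / 1000 ≤ ‖t.τ (star r * (pw (fun k => c i (Fin.ofNat (L + 1) k)) (u * V) L *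
        c i (Fin.ofNat (L + 1) L)))‖ := by
  obtain ⟨s, hs, hτ, hsN⟩ := exists_tr ht U
  let gr : Gr s GG :=
    { R := fun a X => ∃ l : Word A (Fin (L + 1)), deg (fun j : Fin (L + 1) => dd L j) l = a ∧
        ∀ i, X i = ev (c i) l
      mul := by
        rintro a b X Y ⟨l, rfl, hl⟩ ⟨l', rfl, hl'⟩
        exact ⟨l ++ l', deg_append _ _ _, fun i => by rw [ev_append, ← hl, ← hl']; rfl⟩
      star := by
        rintro a X ⟨l, rfl, hl⟩
        exact ⟨_, deg_flip _ l, fun i => by rw [ev_flip, ← hl]; rfl⟩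
      zero := by
        rintro a X ⟨l, rfl, hl⟩ h
        exact tendsto_nhds_unique (hτ X) (by simpa only [hl] using hfree l h) }
  let cc : ℕ → I →ᵇ A := fun k => BoundedContinuousFunction.ofNormedAddCommGroupDiscrete
    (fun i => c i (Fin.ofNat (L + 1) k)) ‖(1 : A)‖ fun i => by
      rw [← CStarRing.norm_mul_mem_unitary 1 (hcu i (Fin.ofNat (L + 1) k)), one_mul]
  have hconst : ∀ x : A, gr.R 1 (BoundedContinuousFunction.const I x) := fun x =>
    ⟨[.inl x], by simp [deg, dval], fun i => by simp [ev, val]⟩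
  obtain ⟨V, hV, h2, h3⟩ := key_gr habs hs gr L hL (c := cc)
    (u := BoundedContinuousFunction.const I u) (r := BoundedContinuousFunction.const I r)
    (fun k => unitary_of fun i => hcu i _) (unitary_of fun _ => hu)
    ((BoundedContinuousFunction.norm_const_le r).trans hr) (hconst 1) (hconst u) (hconst r)
    (fun k hk => ⟨[.inr (Fin.ofNat (L + 1) k, true)], by
      simp [deg, dval, Nat.mod_eq_of_lt (Nat.lt_succ_of_le hk)], fun i => by
      simp [ev, val, cc]⟩)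
  have hr' : s.N (BoundedContinuousFunction.const I r) = t.N r :=
    tendsto_nhds_unique (hsN _) tendsto_const_nhds
  rw [hr'] at h3
  have e1 := (hsN (V - 1)).eventually (gt_mem_nhds (h2.trans_lt hη))
  have e2 := (hτ _).norm.eventually (lt_mem_nhds
    (lt_of_lt_of_le (show t.N r ^ 2 / 1000 < t.N r ^ 2 / 800 by
      have := pow_pos hN 2; linarith) h3))
  obtain ⟨i, hi1, hi2⟩ := (e1.and e2).exists
  refine ⟨i, V i, unitary_apply hV i, hi1.le, hi2.le.trans (le_of_eq ?_)⟩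
  have := pw_apply cc (BoundedContinuousFunction.const I u * V) i L
  change ‖t.τ (star r * (pw cc (BoundedContinuousFunction.const I u * V) L i * _))‖ = _
  rw [this]
  rfl

theorem key_of (habs : Abs.{w}) (ht : TS t)
    (hfree : ∀ (L : ℕ) (d : Fin (L + 1) → GG) (W : Finset (Word A (Fin (L + 1)))) (δ : ℝ),
      0 < δ → ∃ c : Fin (L + 1) → A, (∀ j, c j ∈ B ∧ c j ∈ unitary A) ∧
        ∀ l ∈ W, deg d l ≠ 1 → ‖t.τ (ev c l)‖ ≤ δ)
    {u : A} (hu : u ∈ unitary A) (r : A) (hr : ‖r‖ ≤ 1)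
    (η : ℝ) (hη : 0 < η) : ∃ u' ∈ unitary A, t.N (u' - u) ≤ η ∧
      ∃ y ∈ StarAlgebra.adjoin ℂ ((B : Set A) ∪ {u'}), y ∈ unitary A ∧
        t.N r ^ 2 / 1000 ≤ ‖t.τ (star r * y)‖ := by
  rcases (t.N_nonneg r).eq_or_lt with hN | hN
  · refine ⟨u, hu, by simpa using hη.le, 1, one_mem _, one_mem _, ?_⟩
    rw [← hN]; simp
  obtain ⟨L0, hL0⟩ := exists_nat_one_div_lt hη
  set L := L0 + 1 with hL
  letI : TopologicalSpace (Finset (Word A (Fin (L + 1))) × ℕ) := ⊥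
  haveI : DiscreteTopology (Finset (Word A (Fin (L + 1))) × ℕ) := ⟨rfl⟩
  choose c hc1 hc2 using fun i : Finset (Word A (Fin (L + 1))) × ℕ =>
    hfree L (fun j => dd L j) i.1 (1 / ((i.2 : ℝ) + 1)) Nat.one_div_pos_of_nat
  classical
  obtain ⟨i, V, hV, h1, h2⟩ := transfer habs ht
    (Ultrafilter.of (atTop : Filter (Finset (Word A (Fin (L + 1))) × ℕ))) L (by omega) c
    (fun i j => (hc1 i j).2) (fun l hl => by
      refine Tendsto.mono_left ?_ (Ultrafilter.of_le _)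
      rw [NormedAddGroup.tendsto_nhds_zero]
      intro ε hε
      obtain ⟨n, hn⟩ := exists_nat_one_div_lt hε
      filter_upwards [eventually_ge_atTop (({l}, n) : Finset (Word A (Fin (L + 1))) × ℕ)]
        with i hi
      refine (hc2 i l (hi.1 (Finset.mem_singleton_self l)) hl).trans_lt (lt_of_le_of_lt ?_ hn)
      exact Nat.one_div_le_one_div hi.2) hu hr hN (η := η) (by rw [hL]; push_cast; exact hL0)
  have huV : u * V ∈ unitary A := mul_mem hu hV
  refine ⟨u * V, huV, ?_, _, ?_, mul_mem (pw_unitary (fun k => (hc1 i _).2) huV L)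
    (hc1 i _).2, h2⟩
  · rwa [← mul_sub_one, t.N_unitary_mul hu]
  · have hB : ∀ j, c i j ∈ StarAlgebra.adjoin ℂ ((B : Set A) ∪ {u * V}) := fun j =>
      StarAlgebra.subset_adjoin ℂ _ (Or.inl (hc1 i j).1)
    exact mul_mem (pw_mem (fun k => hB _) (StarAlgebra.subset_adjoin ℂ _ (Or.inr rfl)) L) (hB _)

end Vale.Agent.P085.K2
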