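import Vale.Agent.P085.Defs

/-! P085 part G, first half: `series` and `mat_gen`. -/

namespace Vale.Agent.P085

open scoped InnerProductSpace ComplexOrder ComplexConjugate
open Vale.Agent.P104 Vale.Agent.P104.F Filter Topology

namespace G

section ring
variable {R : Type*} [NormedRing R] [NormedAlgebra ℂ R]

lemma eq_zero_of_comm {w a b : R} {c : ℂ} (ha : ‖a‖ + ‖b‖ < ‖c‖) (h : c • w = w * a - b * w) :
    w = 0 := by
  have h1 : ‖c‖ * ‖w‖ ≤ ‖w‖ * ‖a‖ + ‖b‖ * ‖w‖ := by
    rw [← norm_smul, h]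
    exact (norm_sub_le _ _).trans (add_le_add (norm_mul_le _ _) (norm_mul_le _ _))
  by_contra h0
  have := norm_pos_iff.2 h0
  nlinarith

lemma gap {y Z a : R} (hZ : Z * Z = 1) (hn : ‖Z‖ ≤ 1) (hc : Z * a = a * Z) (ha : ‖a‖ < 1)
    (h : y * (Z + a) = (Z + a) * y) : y * Z = Z * y := by
  have hZ' : ∀ x, Z * (Z * x) = x := fun x => by rw [← mul_assoc, hZ, one_mul]
  have hc' : ∀ x, a * (Z * x) = Z * (a * x) := fun x => by rw [← mul_assoc, ← hc, mul_assoc]
  have e : y * a - a * y = Z * y - y * Z := by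
    rw [mul_add, add_mul] at h
    rw [sub_eq_sub_iff_add_eq_add, add_comm, h]
  set v := Z * y - y * Z with hv
  have e1 : (2 : ℂ) • v = v * (-(Z * a)) - (Z * a) * v := by
    have e2 : Z * v = -(v * Z) := by
      simp only [hv, mul_sub, sub_mul, mul_assoc, hZ', hZ, mul_one, neg_sub]
    have e3 : v * a - a * v = Z * v - v * Z := by
      have : v * a - a * v = Z * (y * a - a * y) - (y * a - a * y) * Z := by
        simp only [hv, mul_sub, sub_mul, mul_assoc, hc', hc]
        abel
      rw [this, e]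
    have e4 : v * Z = -(Z * v) := by rw [e2, neg_neg]
    have e5 : Z * (v * a - a * v) = (2 : ℂ) • v := by
      rw [e3, e4, sub_neg_eq_add, mul_add, hZ', two_smul]
    rw [← e5, mul_sub, ← mul_assoc Z v, e2, mul_assoc Z a]
    simp only [mul_neg, neg_mul, mul_assoc]
  have hn' : ‖Z * a‖ < 1 := (norm_mul_le _ _).trans_lt (by nlinarith [norm_nonneg a])
  have := eq_zero_of_comm (by rw [norm_neg]; simp; linarith) e1
  rw [hv, sub_eq_zero] at this
  exact this.symm

end ring

section cstar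
variable {A : Type*} [CStarAlgebra A]

lemma norm_le_one_of {x : A} (h : star x * x = 1) : ‖x‖ ≤ 1 := by
  have h1 : ‖x‖ * ‖x‖ = ‖(1 : A)‖ := by rw [← CStarRing.norm_star_mul_self, h]
  have h2 : ‖(1 : A)‖ * ‖(1 : A)‖ = ‖(1 : A)‖ := by
    rw [← CStarRing.norm_star_mul_self, star_one, one_mul]
  have h3 : ‖(1 : A)‖ ≤ 1 := by nlinarith [norm_nonneg (1 : A)]
  nlinarith [norm_nonneg x]

/-- Tail of the series. -/
noncomputable def tl (X : ℕ → A) (k : ℕ) : A := ∑' n, ((4 : ℂ)⁻¹ ^ (n + 1)) • X (n + k)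

variable {X : ℕ → A} (hX : ∀ n, ‖X n‖ ≤ 1)
include hX

lemma bd (k n : ℕ) : ‖((4 : ℂ)⁻¹ ^ (n + 1)) • X (n + k)‖ ≤ 4⁻¹ * (4⁻¹ : ℝ) ^ n := by
  rw [norm_smul, norm_pow, norm_inv, pow_succ']
  have : ‖(4 : ℂ)‖ = 4 := by simp
  rw [this]
  exact mul_le_of_le_one_right (by positivity) (hX _)

omit hX in
lemma geo : HasSum (fun n : ℕ => 4⁻¹ * (4⁻¹ : ℝ) ^ n) (3⁻¹) := by
  have := (hasSum_geometric_of_lt_one (r := (4⁻¹ : ℝ)) (by norm_num) (by norm_num)).mul_left 4⁻¹
  rwa [show (4⁻¹ : ℝ) * (1 - 4⁻¹)⁻¹ = 3⁻¹ by norm_num] at this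

lemma sm (k : ℕ) : Summable fun n => ((4 : ℂ)⁻¹ ^ (n + 1)) • X (n + k) :=
  Summable.of_norm_bounded geo.summable (bd hX k)

lemma norm_tl (k : ℕ) : ‖tl X k‖ ≤ 3⁻¹ := tsum_of_norm_bounded geo (bd hX k)

lemma tl_succ (k : ℕ) : (4 : ℂ) • tl X k = X k + tl X (k + 1) := by
  rw [tl, (sm hX k).tsum_eq_zero_add, smul_add, tl, ← ((summable_nat_add_iff 1).2
    (sm hX k)).tsum_const_smul]
  congr 1
  · simp [smul_smul]
  · refine tsum_congr fun n => ?_
    rw [smul_smul, show n + 1 + k = n + (k + 1) by ring, pow_succ' _ (n + 1), ← mul_assoc]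
    norm_num

lemma tl_comm {z : A} (hz : ∀ n, z * X n = X n * z) (k : ℕ) : z * tl X k = tl X k * z := by
  rw [tl, ← (sm hX k).tsum_mul_left, ← (sm hX k).tsum_mul_right]
  exact tsum_congr fun n => by rw [mul_smul_comm, smul_mul_assoc, hz]

omit hX in
lemma tl_star (h : ∀ n, star (X n) = X n) (k : ℕ) : star (tl X k) = tl X k := by
  rw [tl, tsum_star]
  exact tsum_congr fun n => by simp [h]

end cstar

section mat
variable {R : Type*} [CStarAlgebra R] {I : Type} [Fintype I] [DecidableEq I]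

lemma mat_abs {E : I → I → R} (hE : MU E 1) (a : I → R) (h1 : ∀ i, ‖a i‖ ≤ 1)
    (h2 : ∀ i j k, E i j * a k = a k * E i j) (c : I → ℂ) (hc : ∀ i j, i ≠ j → 2 < ‖c i - c j‖)
    {y : R} (ha : y * ∑ i, E i i * (a i + c i • 1) = (∑ i, E i i * (a i + c i • 1)) * y)
    (hb : y * ∑ i, ∑ j, E i j = (∑ i, ∑ j, E i j) * y) :
    (∀ i j, y * E i j = E i j * y) ∧ ∀ i, y * a i = a i * y := by
  set a0 := ∑ i, E i i * (a i + c i • 1) with ha0
  have l1 : ∀ i, E i i * a0 = E i i * (a i + c i • 1) := fun i => by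
    simp [ha0, Finset.mul_sum, hE.mul']
  have cm : ∀ i j k, E i j * (a k + c k • 1) = (a k + c k • 1) * E i j := fun i j k => by
    simp [mul_add, add_mul, h2]
  have l2 : ∀ i, a0 * E i i = E i i * (a i + c i • 1) := fun i => by
    simp only [ha0, Finset.sum_mul, cm, mul_assoc, hE.mul]
    simp [mul_ite]
  have off : ∀ i j, i ≠ j → E i i * y * E j j = 0 := fun i j hij => by
    refine eq_zero_of_comm (a := a j) (b := a i) (c := c i - c j)
      ((add_le_add (h1 j) (h1 i)).trans_lt (by have := hc i j hij; linarith)) ?_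
    have e : E i i * (y * a0) * E j j = E i i * (a0 * y) * E j j := by rw [ha]
    rw [← mul_assoc, mul_assoc _ a0, l2, ← mul_assoc (E i i) a0, l1, cm i i i] at e
    simp only [mul_add, add_mul, mul_smul_comm, smul_mul_assoc, mul_one, one_mul,
      mul_assoc] at e ⊢
    rw [sub_smul, sub_eq_sub_iff_add_eq_add, e, add_comm]
  have dg : ∀ j, y * E j j = E j j * y := fun j => by
    have e1 : y * E j j = E j j * y * E j j := by
      conv_lhs => rw [← one_mul y, ← hE.sum_eq, Finset.sum_mul, Finset.sum_mul]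
      exact Finset.sum_eq_single j (fun i _ hi => off i j hi) (by simp)
    have e2 : E j j * y = E j j * y * E j j := by
      conv_lhs => rw [← mul_one y, ← hE.sum_eq, ← mul_assoc, Finset.mul_sum]
      exact Finset.sum_eq_single j (fun i _ hi => off j i hi.symm) (by simp)
    rw [e1, ← e2]
  have full : ∀ i j, y * E i j = E i j * y := fun i j => by
    have e : E i j = E i i * (∑ i, ∑ j, E i j) * E j j := by
      simp only [Finset.mul_sum, Finset.sum_mul, hE.mul, ite_mul, zero_mul]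
      rw [Finset.sum_comm]
      simp
    exact e ▸ (Commute.mul_right (Commute.mul_right (dg i) hb) (dg j)).eq
  refine ⟨full, fun i => ?_⟩
  have e1 : Commute y (E i i * a i) := by
    have : E i i * a i = E i i * a0 - c i • E i i := by rw [l1]; simp [mul_add]
    rw [this]
    exact (Commute.mul_right (dg i) ha).sub_right (Commute.smul_right (dg i) _)
  have e2 : a i = ∑ k, E k i * (E i i * a i) * E i k := by
    have : ∀ k, E k i * (E i i * a i) * E i k = a i * E k k := fun k => by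
      rw [hE.mul', if_pos rfl, h2, mul_assoc, hE.mul, if_pos rfl]
    simp only [this, ← Finset.mul_sum, hE.sum_eq, mul_one]
  rw [e2]
  exact (Commute.sum_right _ _ _ fun k _ =>
    Commute.mul_right (Commute.mul_right (full k i) e1) (full i k)).eq

lemma comm_parts {y p q : R} (hp : star p = p) (hq : star q = q)
    (h1 : y * (p + Complex.I • q) = (p + Complex.I • q) * y)
    (h2 : y * star (p + Complex.I • q) = star (p + Complex.I • q) * y) :
    y * p = p * y ∧ y * q = q * y := by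
  have e : star (p + Complex.I • q) = p - Complex.I • q := by
    simp [star_smul, hp, hq, sub_eq_add_neg]
  rw [e] at h2
  have c1 : Commute y (p + Complex.I • q) := h1
  have c2 : Commute y (p - Complex.I • q) := h2
  constructor
  · have : p = (2 : ℂ)⁻¹ • ((p + Complex.I • q) + (p - Complex.I • q)) := by module
    rw [this]
    exact ((c1.add_right c2).smul_right _).eq
  · have : q = (-(2 : ℂ)⁻¹ * Complex.I) • ((p + Complex.I • q) - (p - Complex.I • q)) := by
      rw [add_sub_sub_cancel, ← two_smul ℂ, smul_smul, smul_smul]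
      have : -(2 : ℂ)⁻¹ * Complex.I * 2 * Complex.I = 1 := by
        linear_combination (-1 : ℂ) * Complex.I_mul_I
      rw [this, one_smul]
    rw [this]
    exact ((c1.sub_right c2).smul_right _).eq

end mat

end G

variable {H : Type*} [NormedAddCommGroup H] [InnerProductSpace ℂ H] [CompleteSpace H]
variable {S : Set (H →L[ℂ] H)} {t : Tr (vN S)}

theorem series (X : ℕ → vN S) (h1 : ∀ n, star (X n) = X n ∧ X n * X n = 1)
    (h2 : ∀ m n, X m * X n = X n * X m) : ∃ a : vN S, star a = a ∧ ‖a‖ ≤ 1 ∧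
      ∀ y : H →L[ℂ] H, y * a = a * y → ∀ n, y * X n = X n * y := by
  have hX : ∀ n, ‖X n‖ ≤ 1 := fun n => G.norm_le_one_of (by rw [(h1 n).1, (h1 n).2])
  refine ⟨G.tl X 0, G.tl_star (fun n => (h1 n).1) 0, (G.norm_tl hX 0).trans (by norm_num),
    fun y hy => ?_⟩
  let T : ℕ → H →L[ℂ] H := fun k => (G.tl X k : vN S)
  have step : ∀ k, y * T k = T k * y →
      y * X k = X k * y ∧ y * T (k + 1) = T (k + 1) * y := fun k hk => by
    have e : (4 : ℂ) • T k = X k + T (k + 1) := congrArg Subtype.val (G.tl_succ hX k)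
    have c1 : y * (X k + T (k + 1)) = (X k + T (k + 1)) * y := by
      have : Commute y ((4 : ℂ) • T k) := Commute.smul_right hk _
      rw [e] at this
      exact this.eq
    have c2 : y * X k = X k * y :=
      G.gap (congrArg Subtype.val (h1 k).2) (hX k)
        (congrArg Subtype.val (G.tl_comm hX (h2 k) (k + 1)))
        ((G.norm_tl hX (k + 1)).trans_lt (by norm_num)) c1
    refine ⟨c2, ?_⟩
    rw [mul_add, add_mul, c2] at c1
    exact add_left_cancel c1
  have all : ∀ k, y * T k = T k * y := fun k => by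
    induction k with
    | zero => exact hy
    | succ k ih => exact (step k ih).2
  exact fun n => (step n (all n)).1

theorem mat_gen {I : Type} [Fintype I] [DecidableEq I] {E : I → I → vN S} (hE : MU E 1)
    (a : I → vN S) (h1 : ∀ i, star (a i) = a i ∧ ‖a i‖ ≤ 1)
    (h2 : ∀ i j k, E i j * a k = a k * E i j) : ∃ x : vN S, ∀ y : H →L[ℂ] H,
      y * x = x * y → y * star (x : H →L[ℂ] H) = star (x : H →L[ℂ] H) * y →
        (∀ i j, y * E i j = E i j * y) ∧ ∀ i, y * a i = a i * y := by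
  let c : I → ℂ := fun i => 3 * ((Fintype.equivFin I i : ℕ) : ℂ)
  have hc : ∀ i j, i ≠ j → 2 < ‖c i - c j‖ := fun i j hij => by
    have h0 : ((Fintype.equivFin I i : ℕ) : ℤ) - (Fintype.equivFin I j : ℕ) ≠ 0 := by
      intro h
      exact hij ((Fintype.equivFin I).injective (Fin.ext (by omega)))
    have h3 : (1 : ℝ) ≤ |((((Fintype.equivFin I i : ℕ) : ℤ) - (Fintype.equivFin I j : ℕ) : ℤ) : ℝ)| := by
      exact_mod_cast Int.one_le_abs h0
    have e : c i - c j =
        3 * ((((Fintype.equivFin I i : ℕ) : ℤ) - (Fintype.equivFin I j : ℕ) : ℤ) : ℂ) := by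
      simp only [c]; push_cast; ring
    rw [e, norm_mul, Complex.norm_intCast]
    have : ‖(3 : ℂ)‖ = 3 := by simp
    rw [this]; linarith
  have hE' : MU (fun i j => (E i j : H →L[ℂ] H)) 1 :=
    ⟨hE.ne, fun i j => congrArg Subtype.val (hE.st i j), fun i j k l => by
      have := congrArg Subtype.val (hE.mul i j k l)
      split_ifs at this ⊢ <;> exact this,
      by simpa using congrArg Subtype.val hE.sum_eq⟩
  have h2' : ∀ i j k, (E i j : H →L[ℂ] H) * a k = a k * E i j := fun i j k =>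
    congrArg Subtype.val (h2 i j k)
  refine ⟨(∑ i, E i i * (a i + c i • 1)) + Complex.I • ∑ i, ∑ j, E i j, fun y y1 y2 => ?_⟩
  have e : (((∑ i, E i i * (a i + c i • 1)) + Complex.I • ∑ i, ∑ j, E i j : vN S) : H →L[ℂ] H) =
      (∑ i, (E i i : H →L[ℂ] H) * (a i + c i • 1)) + Complex.I • ∑ i, ∑ j, (E i j : H →L[ℂ] H) := by
    simp
  rw [e] at y1 y2
  obtain ⟨p1, p2⟩ := G.comm_parts (by
    rw [star_sum]
    refine Finset.sum_congr rfl fun i _ => ?_
    have s1 : star (a i : H →L[ℂ] H) = a i := congrArg Subtype.val (h1 i).1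
    have s2 : star (c i) = c i := by simp [c]
    rw [star_mul, star_add, star_smul, star_one, s1, s2, hE'.st]
    simp [mul_add, add_mul, h2']) (by
    simp only [star_sum, hE'.st]
    exact Finset.sum_comm) y1 y2
  exact G.mat_abs hE' (fun i => (a i : H →L[ℂ] H)) (fun i => (h1 i).2) h2' c hc p1 p2

end Vale.Agent.P085
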