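import Vale.Agent.P085.Defs

/-! Blueprint for P085 (every II_1 factor on a separable space is singly generated).
Never imported by final files.  Each part goes to `Vale/Agent/P085/Part<X>.lean`, same statements,
namespace `Vale.Agent.P085` (helper lemmas in a sub namespace).  A part may use the stubs of other
parts while working (copy them locally), final version imports the real parts. -/

namespace Vale.Agent.P085.Stub

open scoped InnerProductSpace ComplexOrder ComplexConjugate
open Vale.Agent.P104 Vale.Agent.P104.F Filter Topology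

section vn
variable {H : Type*} [NormedAddCommGroup H] [InnerProductSpace ℂ H] [CompleteSpace H]
variable {S : Set (H →L[ℂ] H)} {t : Tr (vN S)}

/-! ## Part A1 (file PartA1): `cover`, `na_of`, `good_ext` -/

/-- Induction on k: either done or q = 1 - sum u u* is a projection with tau q = 1 - k tau p.
Step: `exists_max_pi` with e = p, f = q; `exists_cover` + hfac give q = u u* or p = u* u. -/
theorem cover (t : Tr (vN S)) (h1 : t.τ 1 = 1) (hf : ∀ x, t.N x = 0 → x = 0)
    (hfac : ∀ c, IsCentral S c → c = 0 ∨ c = 1) {p : vN S} (hp : IsStarProjection p)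
    (hp0 : p ≠ 0) : ∃ (n : ℕ) (u : Fin n → vN S), (∀ i, u i * p = u i) ∧
      ∑ i, u i * star (u i) = 1 := sorry

/-- p abelian, nonzero, u from `cover`.  For y in pMp the element sum u_i y u_i* ... simplest:
for y = p y p, show y is a scalar multiple of p: the projections of pMp are 0 and p (q <= p:
(p-q) x q = (p-q)(p x p) q = 0 by commutativity, then `exists_cover`), and for self-adjoint y and
l = tau y / tau p use `exists_spectral` twice (or: spectral projection r of y at l commutes with p,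
r p = 0 or p, so y <= l p or y >= l p, and tau (y - l p) = 0, faithful, gives y = l p).
Then M = span of u_i u_j*, since x = sum u_i (p u_i* x u_j p) u_j*. -/
theorem na_of (t : Tr (vN S)) (h1 : t.τ 1 = 1) (hf : ∀ x, t.N x = 0 → x = 0)
    (hfac : ∀ c, IsCentral S c → c = 0 ∨ c = 1) (hinf : ¬ FiniteDimensional ℂ (vN S)) :
    NoAbel S 1 := sorry

/-- `MU.central_of`, `MU.noAbel`, `comap_N`. -/
theorem good_ext (h : Good t) {I : Type} [Fintype I] [DecidableEq I] {E : I → I → vN S}
    (hE : MU E 1) : Good (t.comap (inc E)) := sorry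

/-! ## Part A2 (file PartA2): automatic normality -/

/-- H is nontrivial (tau 1 = 1), unit vector xi.  Zorn: maximal projection q0 in M with
2 |q0 xi|^2 <= tau q0 (sup of a chain = projection on the closed span, `exists_pr`; tau is monotone
and |q_a xi| tends to |q xi|).  p = 1 - q0 is nonzero and tau q <= 2 |q xi|^2 for projections
q <= p; layer cake (see P082 `T.layer`, P104 `C.comm_pos`) gives tau b <= 2 <xi, b xi> for
0 <= b = p b p.  With u from `cover`: N x = sum tau (u_i* x* x u_i) <= 2 sum |x u_i xi|^2.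
So tau x is bounded by the norm of (x u_i xi)_i in PiLp 2; Hahn-Banach + Riesz. -/
theorem vec_of (t : Tr (vN S)) (h1 : t.τ 1 = 1) (hf : ∀ x, t.N x = 0 → x = 0)
    (hfac : ∀ c, IsCentral S c → c = 0 ∨ c = 1) :
    ∃ (n : ℕ) (ξ η : Fin n → H), ∀ x : vN S,
      t.τ x = ∑ i, ⟪η i, (x : H →L[ℂ] H) (ξ i)⟫_ℂ := sorry

/-! ## Part N (file PartN) -/

/-- w_n = z - x_n, T = `PI.weak_limit` of w_n* w_n along an ultrafilter on ℕ below atTop;
T in vN S, 0 <= T, tau T = 0 by `vec`, so T = 0 (sqrt, faith); so w_n zeta tends to 0. -/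
theorem comm_of_lim (h : Good t) (z : vN S) (y : H →L[ℂ] H) (C : ℝ)
    (hz : ∀ δ : ℝ, 0 < δ → ∃ x : vN S, ‖x‖ ≤ C ∧ t.N (z - x) ≤ δ ∧ y * x = x * y) :
    y * z = z * y := sorry

/-- v = weak ultralimit; N (u n - v) = lim_m tau ((u n - v)* (u n - u m)); then
N (v* v - 1) = 0 and N (v v* - 1) = 0. -/
theorem unitary_complete (h : Good t) (u : ℕ → vN S) (hu : ∀ n, u n ∈ unitary (vN S))
    (hc : ∀ ε : ℝ, 0 < ε → ∃ N, ∀ m ≥ N, ∀ n ≥ N, t.N (u m - u n) ≤ ε) :
    ∃ v ∈ unitary (vN S), Tendsto (fun n => t.N (u n - v)) atTop (𝓝 0) := sorry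

/-- N x = sum <x eta_i, x xi_i>; the image of the self-adjoint ball under
x -> (x eta_i, x xi_i)_i is a separable metric space. -/
theorem exists_dense [TopologicalSpace.SeparableSpace H] (h : Good t) :
    ∃ d : ℕ → vN S, (∀ n, star (d n) = d n ∧ ‖d n‖ ≤ 1) ∧
      ∀ z : vN S, star z = z → ‖z‖ ≤ 1 → ∀ δ : ℝ, 0 < δ → ∃ n, t.N (z - d n) ≤ δ := sorry

/-! ## Part R1 (file PartR1): sharp single step -/

/-- Model: P104 `single_element`.  s2 = N x, delta = s2/4.  `exists_spectral` at delta gives P, at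
0 gives P0, Q = 1 - P0, P Q = 0 (as in `C.spectral_le`).  tau(P0 x) = tau(-Q x) = m, s2 <= 2m,
tau Q >= m, tau P >= m - delta.  `exists_max_pi` u between P and Q, factor: u* u = P or u u* = Q,
so tau(u* u) >= s2/4.  s = u* u - u u*, tau(s x) >= s2^2/16, N s <= 1.  `exists_halving` of
1 - u* u - u u*, `C.alg_part`, `Phi_two` give v with Phi (two v) s = 0, so
tau(s x) = tau(s (x - Phi x)) by `MU.τ_Phi`; Cauchy-Schwarz. -/
theorem sharp (h : Good t) (x : vN S) (hx : star x = x) (h1 : ‖x‖ ≤ 1) (h0 : t.τ x = 0) :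
    ∃ v : vN S, v * v = 0 ∧ v * star v * v = v ∧ star v * v + v * star v = 1 ∧
      t.N x ^ 4 / 256 ≤ t.N (x - Phi (two v) x) := sorry

/-! ## Part R2 (file PartR2): tower and Pauli design -/

/-- State: matrix units E (MU E 1) and a finite family a of self-adjoint unitaries with
sum a x a = card • Phi E x, tau (a w * a w') = 0 for w ≠ w', each a w commuting with everything
that commutes with all E i j.  Step n: y = d (Nat.unpair n).1, apply `sharp` in
`vN (ext E)` (`good_ext`) to (Phi E y - tau y)/2, F = two v, E' = `MU.prod`, X = v + v*,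
Z = v* v - v v*, Paulis 1, X, Z, i X Z, new family a w * sigma k.  `MU.pyth`, `Phi_prod`:
N (Phi E_n y - tau y) decreases, and drops by a definite amount infinitely often, so tends to 0
for y = d k, hence for all y (Phi is N-contractive, split into self-adjoint parts).
mix: tau (avg a x a * y) = tau (Phi x * y).  var: Bessel, card >= 4^n. -/
theorem exists_design [TopologicalSpace.SeparableSpace H] (h : Good t) :
    ∃ X Z : ℕ → vN S, (∀ n, star (X n) = X n ∧ X n * X n = 1) ∧
      (∀ n, star (Z n) = Z n ∧ Z n * Z n = 1) ∧ (∀ m n, X m * X n = X n * X m) ∧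
      (∀ m n, Z m * Z n = Z n * Z m) ∧
      Nonempty (Design t (StarAlgebra.adjoin ℂ (Set.range X ∪ Set.range Z))) := sorry

end vn

section abs
variable {A : Type*} [CStarAlgebra A] {t : Tr A} {B : StarSubalgebra ℂ A}

/-! ## Part F (file PartF): approximate freeness (helper5) -/

theorem free (ht : TS t) (D : Design t B) {J G : Type} [Fintype J] [Group G] (d : J → G)
    (W : Finset (Word A J)) (δ : ℝ) (hδ : 0 < δ) :
    ∃ c : J → A, (∀ j, c j ∈ B ∧ c j ∈ unitary A) ∧
      ∀ l ∈ W, deg d l ≠ 1 → ‖t.τ (ev c l)‖ ≤ δ := sorry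

/-! ## Part K1 (file PartK1): the perturbation estimate -/

/-- s = real or imaginary part of rho with nu = N s >= N rho / 2, |tau(rho* s)| >= nu.
horth passes from rho to star rho (conjugate, trace) and to s.  theta = nu/200,
b = (theta/L) sum_(k<L) g_k* s g_k, |b| <= theta, N b = theta^2 nu / L (orthogonality with X = s).
f = inverse of 1 - i b (geometric series, |f| <= 2), V = (1 + i b) f unitary,
V - 1 = 2 i b f = 2 i b - 2 b f b.  V_j = g_j V g_j* is the same expression in b_j = g_j b g_j*,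
and lies in every closed star subalgebra containing b_j.  U_j = uprod g V j is unitary and
U_(j+1) - U_j = U_j (V_j - 1).  For X in {1, rho*}: tau(X U_j b_j) = (theta/L) tau(X U_j s)
(terms k ≠ j vanish by horth j k since X U_j is in B), |tau(X U_j b_j f_j b_j)| <= 2 N b.
So |tau U_j - 1| <= 3 theta, N (U_j - 1) <= 6 theta,
|tau(rho* (U_j - 1) s)| <= nu/4 (`norm_τ_le_amgm`, beta = 4), and
|tau(rho* U_L)| >= 2 theta nu - theta nu/2 - 4 theta^2 nu >= theta nu. -/
theorem key_abs (ht : TS t) (L : ℕ) (hL : 0 < L) (g : ℕ → A) (hg : ∀ j, g j ∈ unitary A)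
    (ρ : A) (hρ : ‖ρ‖ ≤ 1) (h0 : t.τ ρ = 0)
    (horth : ∀ j < L, ∀ k < L, j ≠ k → ∃ C : StarSubalgebra ℂ A, IsClosed (C : Set A) ∧ ρ ∈ C ∧
      (∀ i < L, ∀ l < L, (i, l) ≠ (j, k) → g i * star (g l) * ρ * g l * star (g i) ∈ C) ∧
      ∀ X ∈ C, t.τ (X * (g j * star (g k) * ρ * g k * star (g j))) = 0) :
    ∃ V ∈ unitary A, t.N (V - 1) ≤ 1 / L ∧ t.N ρ ^ 2 / 800 ≤ ‖t.τ (star ρ * uprod g V L)‖ := sorry

/-! ## Part K2 (file PartK2): limit algebra, grading, transfer -/

/-- J = Fin (L+1), 1/L < eta.  G = Equiv.Perm ((ℕ → ℤ) × ℤ), T a (x, y) = (x + a, y),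
om (x, y) = (x, y + if x = 0 then 1 else 0), pos 0 = 0, pos (k+1) = Pi.single k 1,
d k = (T (pos k))⁻¹ * T (pos (k+1)) for k < L, d L = (T (pos L))⁻¹ * om.
pre 0 = [], pre (k+1) = pre k ++ [c_k, u]; g_k = ev (pre (k+1)), w = ev (pre L ++ [c_L]),
rho = r w*.  Index set I = Finset (Word A J) with discrete topology, c^(i) from `free` with
delta = 1/(card i + 1), algebra I →ᵇ A, trace = limit along `Ultrafilter.of atTop`; words of
degree ≠ 1 have trace 0.  For j ≠ k, C = closure of the star algebra spanned by words whose degree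
fixes the point (Pi.single j 1 - Pi.single k 1, 0).  Apply `key_abs`, pick an index i,
u' = u V_i, y = uprod g V L * w at i, which is c_0 u' c_1 u' ... u' c_L. -/
theorem key (ht : TS t) (D : Design t B) {u : A} (hu : u ∈ unitary A) (r : A) (hr : ‖r‖ ≤ 1)
    (η : ℝ) (hη : 0 < η) : ∃ u' ∈ unitary A, t.N (u' - u) ≤ η ∧
      ∃ y ∈ StarAlgebra.adjoin ℂ ((B : Set A) ∪ {u'}), y ∈ unitary A ∧
        t.N r ^ 2 / 1000 ≤ ‖t.τ (star r * y)‖ := sorry

/-! ## Part B (file PartB): truncation, semicontinuity, Baire -/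

/-- y1 = real part of y (N (z - y1) <= N (z - y)), y' = cfc (clamp to [-1,1]) y1 (`cfc_mem`),
y1 - y' = a - b with a = (y1 - 1)+, b = (-y1 - 1)+, y' a = a, y' b = -b,
tau((z - y')(a - b)) = -tau((1 - z) a) - tau((1 + z) b) <= 0 (use spectral order on A,
positive elements are star c * c, `re_τ_pos_mul_pos`). -/
theorem trunc (ht : TS t) (Q : StarSubalgebra ℂ A) (hQ : IsClosed (Q : Set A)) {z y : A}
    (hz : star z = z) (h1 : ‖z‖ ≤ 1) (hy : y ∈ Q) :
    ∃ y' ∈ Q, ‖y'‖ ≤ 1 ∧ t.N (z - y') ≤ t.N (z - y) := sorry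

/-- `StarAlgebra.adjoin_induction` for the statement with an extra bound |y'| <= C(y). -/
theorem usc (ht : TS t) {u : A} (hu : u ∈ unitary A) {y : A}
    (hy : y ∈ StarAlgebra.adjoin ℂ ((B : Set A) ∪ {u})) (δ : ℝ) (hδ : 0 < δ) :
    ∃ η : ℝ, 0 < η ∧ ∀ u' ∈ unitary A, t.N (u' - u) ≤ η →
      ∃ y' ∈ StarAlgebra.adjoin ℂ ((B : Set A) ∪ {u'}), t.N (y' - y) ≤ δ := sorry

/-- f u = inf of N (z - y) over y in adjoin (B ∪ {u}).  Given u0, eta: let m = inf of f over the
unitaries with N (u - u0) < eta; if m >= eps pick u, y with N (z - y) < m + small, truncate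
(`trunc` in the closure, then approximate in norm: |y| <= 2), r = (z - y)/3, `key` with eta' from
`usc`, subtract the component along the new unitary: N decreases by at least c(eps).
Contradiction.  So O(n, k) = {f_(d n) < 1/(k+1)} is open and dense in the unitaries with the
pseudo metric of `t.L2`, complete by hypothesis; Baire; `trunc` again at the end. -/
theorem baire (ht : TS t) (D : Design t B)
    (hc : ∀ u : ℕ → A, (∀ n, u n ∈ unitary A) →
      (∀ ε : ℝ, 0 < ε → ∃ N, ∀ m ≥ N, ∀ n ≥ N, t.N (u m - u n) ≤ ε) →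
      ∃ v ∈ unitary A, Tendsto (fun n => t.N (u n - v)) atTop (𝓝 0))
    (d : ℕ → A) (hd : ∀ n, star (d n) = d n ∧ ‖d n‖ ≤ 1) :
    ∃ u ∈ unitary A, ∀ n, ∀ δ : ℝ, 0 < δ →
      ∃ y ∈ (StarAlgebra.adjoin ℂ ((B : Set A) ∪ {u})).topologicalClosure,
        ‖y‖ ≤ 1 ∧ t.N (d n - y) ≤ δ := sorry

end abs

section fin
variable {H : Type*} [NormedAddCommGroup H] [InnerProductSpace ℂ H] [CompleteSpace H]
variable {S : Set (H →L[ℂ] H)} {t : Tr (vN S)}

/-! ## Part G (file PartG): generators and assembly -/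

/-- a = sum 4^-(n+1) X n.  Gap: y commutes with Z + a', a' commutes with Z, |a'| < 1; then
w = y - Z y Z anticommutes with Z, commutes with Z + a', 2 Z w = w a' - a' w, so w = 0. -/
theorem series (X : ℕ → vN S) (h1 : ∀ n, star (X n) = X n ∧ X n * X n = 1)
    (h2 : ∀ m n, X m * X n = X n * X m) : ∃ a : vN S, star a = a ∧ ‖a‖ ≤ 1 ∧
      ∀ y : H →L[ℂ] H, y * a = a * y → ∀ n, y * X n = X n * y := sorry

/-- x = a0 + i b, a0 = sum E i i (a i + 3 e(i)) with e = Fintype.equivFin, b = sum_(i,j) E i j.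
y_ij = E i i y E j j has 3 (e i - e j) y_ij = y_ij a_j - a_i y_ij, so y_ij = 0 for i ≠ j. -/
theorem mat_gen {I : Type} [Fintype I] [DecidableEq I] {E : I → I → vN S} (hE : MU E 1)
    (a : I → vN S) (h1 : ∀ i, star (a i) = a i ∧ ‖a i‖ ≤ 1)
    (h2 : ∀ i j k, E i j * a k = a k * E i j) : ∃ x : vN S, ∀ y : H →L[ℂ] H,
      y * x = x * y → y * star (x : H →L[ℂ] H) = star (x : H →L[ℂ] H) * y →
        (∀ i j, y * E i j = E i j * y) ∧ ∀ i, y * a i = a i * y := sorry

/-- `exists_design`, `series` twice, `exists_dense`, `baire` with `unitary_complete`, real and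
imaginary part of u, `comm_of_lim`. -/
theorem four [TopologicalSpace.SeparableSpace H] (h : Good t) : ∃ a : Fin 4 → vN S,
    (∀ i, star (a i) = a i ∧ ‖a i‖ ≤ 1) ∧ ∀ y : H →L[ℂ] H, (∀ i, y * a i = a i * y) →
      ∀ z : vN S, y * z = z * y := sorry

/-- `exists_mu` with K = 4, `four` in `vN (ext E)`, `mat_gen`, `MU.sum_cf`. -/
theorem single [TopologicalSpace.SeparableSpace H] (h : Good t) : ∃ x : vN S,
    ∀ y : H →L[ℂ] H, y * x = x * y →
      y * star (x : H →L[ℂ] H) = star (x : H →L[ℂ] H) * y → ∀ z : vN S, y * z = z * y := sorry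

end fin

end Vale.Agent.P085.Stub
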