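import Vale.Agent.P085.Defs

/-! Part R2, algebra: Pauli towers. -/

namespace Vale.Agent.P085.R2

open scoped InnerProductSpace ComplexOrder ComplexConjugate
open Vale.Agent.P104 Vale.Agent.P104.F Filter Topology Finset

section ring
variable {R : Type*} [Ring R] [StarRing R] [Algebra ℂ R] [StarModule ℂ R]

/-- An anticommuting pair of symmetries. -/
structure AC (X Z : R) : Prop where
  sx : star X = X
  qx : X * X = 1
  sz : star Z = Z
  qz : Z * Z = 1
  anti : Z * X = -(X * Z)

/-- The four Pauli elements. -/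
noncomputable def pauli (X Z : R) : Bool × Bool → R
  | (false, false) => 1
  | (true, false) => X
  | (false, true) => Z
  | (true, true) => Complex.I • (X * Z)

/-- The Pauli average. -/
noncomputable def pav (X Z y : R) : R :=
  (4 : ℂ)⁻¹ • ∑ k, pauli X Z k * y * pauli X Z k

namespace AC
variable {X Z : R} (h : AC X Z)
include h

omit [Algebra ℂ R] [StarModule ℂ R] in
lemma qx' (y : R) : X * (X * y) = y := by rw [← mul_assoc, h.qx, one_mul]

omit [Algebra ℂ R] [StarModule ℂ R] in
lemma qz' (y : R) : Z * (Z * y) = y := by rw [← mul_assoc, h.qz, one_mul]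

omit [Algebra ℂ R] [StarModule ℂ R] in
lemma anti' (y : R) : Z * (X * y) = -(X * (Z * y)) := by
  rw [← mul_assoc, h.anti, neg_mul, mul_assoc]

lemma sa (k : Bool × Bool) : star (pauli X Z k) = pauli X Z k := by
  rcases k with ⟨_ | _, _ | _⟩ <;> simp [pauli, h.sx, h.sz, h.anti]

omit [StarModule ℂ R] in
lemma sq (k : Bool × Bool) : pauli X Z k * pauli X Z k = 1 := by
  rcases k with ⟨_ | _, _ | _⟩ <;>
    simp [pauli, h.qx, h.qz, mul_assoc, h.anti', h.qx', smul_smul]

omit [StarModule ℂ R] in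
lemma flip {k k' : Bool × Bool} (hk : k ≠ k') : ∃ g : Bool × Bool,
    pauli X Z g * (pauli X Z k * pauli X Z k') * pauli X Z g = -(pauli X Z k * pauli X Z k') := by
  by_cases h1 : k.1 = k'.1
  · refine ⟨(true, false), ?_⟩
    rcases k with ⟨_ | _, _ | _⟩ <;> rcases k' with ⟨_ | _, _ | _⟩ <;>
      simp_all [pauli, h.qx, h.qz, mul_assoc, h.anti, h.anti', h.qx', h.qz']
  · refine ⟨(false, true), ?_⟩
    rcases k with ⟨_ | _, _ | _⟩ <;> rcases k' with ⟨_ | _, _ | _⟩ <;>
      simp_all [pauli, h.qx, h.qz, mul_assoc, h.anti, h.anti', h.qx', h.qz']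

end AC

omit [StarRing R] [StarModule ℂ R] in
lemma comm_pauli {X Z c : R} (h1 : Commute c X) (h2 : Commute c Z) (k : Bool × Bool) :
    Commute c (pauli X Z k) := by
  rcases k with ⟨_ | _, _ | _⟩
  · exact Commute.one_right _
  · exact h2
  · exact h1
  · exact (h1.mul_right h2).smul_right _

omit [Algebra ℂ R] [StarModule ℂ R] in
lemma ac_of {v : R} (h1 : v * v = 0) (h2 : v * star v * v = v)
    (h3 : star v * v + v * star v = 1) : AC (v + star v) (star v * v - v * star v) := by
  have m := mu_two h1 h2 h3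
  have h1' : star v * star v = 0 := by rw [← star_mul, h1, star_zero]
  have h2' : star v * (v * star v) = star v := by
    have := congrArg star h2
    simpa [mul_assoc] using this
  have a1 : ∀ x, v * (v * x) = 0 := fun x => by rw [← mul_assoc, h1, zero_mul]
  have a2 : ∀ x, star v * (star v * x) = 0 := fun x => by rw [← mul_assoc, h1', zero_mul]
  have a3 : v * (star v * v) = v := by rw [← mul_assoc, h2]
  refine ⟨by simp [add_comm], ?_, by simp, ?_, ?_⟩
  · rw [← h3]; simp [mul_add, add_mul, h1, h1']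
  · rw [← h3]; simp [mul_sub, sub_mul, mul_assoc, a1, a2, a3, h2']
  · simp [mul_sub, add_mul, mul_add, sub_mul, mul_assoc, h1, h1', a1, a2, a3, h2']
    abel

omit [StarModule ℂ R] in
lemma pav_eq {v : R} (h1 : v * v = 0) (h2 : v * star v * v = v)
    (h3 : star v * v + v * star v = 1) (y : R) :
    pav (v + star v) (star v * v - v * star v) y = Phi (two v) y := by
  have h1' : star v * star v = 0 := by rw [← star_mul, h1, star_zero]
  have h2' : star v * (v * star v) = star v := by
    have := congrArg star h2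
    simpa [mul_assoc] using this
  have a1 : ∀ x, v * (v * x) = 0 := fun x => by rw [← mul_assoc, h1, zero_mul]
  have a2 : ∀ x, star v * (star v * x) = 0 := fun x => by rw [← mul_assoc, h1', zero_mul]
  have a3 : v * (star v * v) = v := by rw [← mul_assoc, h2]
  have e1 : (v + star v) * (star v * v - v * star v) = v - star v := by
    simp [mul_sub, add_mul, a1, a2, a3, h2']
  have e2 : y = (star v * v + v * star v) * y * (star v * v + v * star v) := by
    rw [h3, one_mul, mul_one]
  have e3 : (Complex.I * Complex.I : ℂ) = -1 := Complex.I_mul_I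
  simp only [pav, Phi, Fintype.sum_prod_type, Fintype.sum_bool, pauli, two, e1, one_mul, mul_one,
    smul_mul_assoc, mul_smul_comm, smul_smul, e3, Fintype.card_bool, neg_smul, one_smul]
  generalize star v * v = p at *
  generalize v * star v = q at *
  have e4 : (4 : ℂ)⁻¹ = ((2 : ℕ) : ℂ)⁻¹ * 2⁻¹ := by norm_num
  rw [e4, mul_smul]
  congr 1
  rw [inv_smul_eq_iff₀ two_ne_zero, two_smul]
  nth_rw 4 [e2]
  noncomm_ring

/-- Index sets. -/
def Om : ℕ → Type
  | 0 => Unit
  | n + 1 => Om n × (Bool × Bool)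

/-- Finiteness. -/
instance finOm : ∀ n, Fintype (Om n)
  | 0 => inferInstanceAs (Fintype Unit)
  | n + 1 => @instFintypeProd _ _ (finOm n) _

lemma card_Om : ∀ n, Fintype.card (Om n) = 4 ^ n
  | 0 => rfl
  | n + 1 => by
    rw [pow_succ, ← card_Om n]
    exact (@Fintype.card_prod (Om n) (Bool × Bool) _ _).trans (by simp)

lemma sum_Om {M : Type*} [AddCommMonoid M] (n : ℕ) (f : Om (n + 1) → M) :
    ∑ ω, f ω = ∑ k : Bool × Bool, ∑ ω : Om n, f (ω, k) :=
  Fintype.sum_prod_type_right (α₁ := Om n) (α₂ := Bool × Bool) f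

/-- Products of Pauli elements. -/
noncomputable def fam (X Z : ℕ → R) : ∀ n, Om n → R
  | 0, _ => 1
  | n + 1, ω => fam X Z n ω.1 * pauli (X n) (Z n) ω.2

/-- Iterated averages. -/
noncomputable def Ph (X Z : ℕ → R) : ℕ → R → R
  | 0, y => y
  | n + 1, y => pav (X n) (Z n) (Ph X Z n y)

/-- A Pauli tower. -/
structure Tower (X Z : ℕ → R) : Prop where
  ac : ∀ n, AC (X n) (Z n)
  xx : ∀ m n, Commute (X m) (X n)
  zz : ∀ m n, Commute (Z m) (Z n)
  xz : ∀ m n, m ≠ n → Commute (X m) (Z n)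

omit [StarRing R] [StarModule ℂ R] in
lemma comm_fam {X Z : ℕ → R} {c : R} : ∀ (n : ℕ), (∀ m < n, Commute c (X m) ∧ Commute c (Z m)) →
    ∀ ω, Commute c (fam X Z n ω)
  | 0, _, _ => Commute.one_right _
  | n + 1, h, ω => (comm_fam n (fun m hm => h m (by omega)) ω.1).mul_right
      (comm_pauli (h n (by omega)).1 (h n (by omega)).2 _)

lemma fam_mem {X Z : ℕ → R} {B : StarSubalgebra ℂ R} (hX : ∀ n, X n ∈ B) (hZ : ∀ n, Z n ∈ B) :
    ∀ n ω, fam X Z n ω ∈ B
  | 0, _ => one_mem _
  | n + 1, ω => by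
    refine mul_mem (fam_mem hX hZ n ω.1) ?_
    rcases ω.2 with ⟨_ | _, _ | _⟩
    · exact one_mem _
    · exact hZ n
    · exact hX n
    · exact B.smul_mem (mul_mem (hX n) (hZ n)) _

namespace Tower
variable {X Z : ℕ → R} (h : Tower X Z)
include h

omit [StarModule ℂ R] in
lemma cp (n : ℕ) (k : Bool × Bool) (ω : Om n) :
    Commute (pauli (X n) (Z n) k) (fam X Z n ω) :=
  comm_fam n (fun m hm => ⟨(comm_pauli (h.xx m n) (h.xz m n hm.ne) k).symm,
    (comm_pauli (h.xz n m hm.ne').symm (h.zz m n) k).symm⟩) ω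

lemma sa : ∀ n ω, star (fam X Z n ω) = fam X Z n ω
  | 0, _ => star_one _
  | n + 1, ω => by
    rw [fam, star_mul, sa n, (h.ac n).sa, (h.cp n _ _).eq]

omit [StarModule ℂ R] in
lemma mul_succ (n : ℕ) (ω ω' : Om (n + 1)) (y : R) :
    fam X Z (n + 1) ω * y * fam X Z (n + 1) ω' =
      pauli (X n) (Z n) ω.2 * (fam X Z n ω.1 * y * fam X Z n ω'.1) * pauli (X n) (Z n) ω'.2 := by
  rw [fam, fam, ← (h.cp n _ _).eq]
  simp only [mul_assoc]

omit [StarModule ℂ R] in
lemma sq : ∀ n ω, fam X Z n ω * fam X Z n ω = 1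
  | 0, _ => one_mul _
  | n + 1, ω => by
    have := h.mul_succ n ω ω 1
    rw [mul_one, mul_one, sq n, mul_one, (h.ac n).sq] at this
    exact this

omit [StarModule ℂ R] in
lemma sum_eq (y : R) : ∀ n, ∑ ω, fam X Z n ω * y * fam X Z n ω = (4 ^ n : ℂ) • Ph X Z n y
  | 0 => by
    change ∑ _ : Unit, (1 : R) * y * 1 = _
    simp [Ph]
  | n + 1 => by
    rw [sum_Om]
    have e : ∀ (k : Bool × Bool) (ω : Om n),
        fam X Z (n + 1) (ω, k) * y * fam X Z (n + 1) (ω, k) =
        pauli (X n) (Z n) k * (fam X Z n ω * y * fam X Z n ω) * pauli (X n) (Z n) k :=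
      fun k ω => h.mul_succ n (ω, k) (ω, k) y
    simp only [e, ← sum_mul, ← mul_sum, sum_eq y n, Ph, pav, smul_mul_assoc,
      mul_smul_comm, ← smul_sum, smul_smul]
    congr 1
    rw [pow_succ, mul_assoc, mul_inv_cancel₀ (by norm_num), mul_one]

omit [StarModule ℂ R] in
lemma orth (t : Tr R) : ∀ n (ω ω' : Om n), ω ≠ ω' → t.τ (fam X Z n ω * fam X Z n ω') = 0
  | 0, _, _, hne => absurd rfl hne
  | n + 1, ω, ω', hne => by
    have e := h.mul_succ n ω ω' 1
    rw [mul_one, mul_one] at e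
    rw [e, t.comm, ← mul_assoc]
    by_cases hk : ω'.2 = ω.2
    · rw [hk, (h.ac n).sq, one_mul]
      exact orth t n _ _ fun e' => hne (Prod.ext e' hk.symm)
    · obtain ⟨g, hg⟩ := (h.ac n).flip hk
      have hc : Commute (pauli (X n) (Z n) g) (fam X Z n ω.1 * fam X Z n ω'.1) :=
        (h.cp n g _).mul_right (h.cp n g _)
      generalize pauli (X n) (Z n) ω'.2 * pauli (X n) (Z n) ω.2 = w at *
      generalize fam X Z n ω.1 * fam X Z n ω'.1 = c at *
      have e1 : t.τ (pauli (X n) (Z n) g * w * pauli (X n) (Z n) g * c) = t.τ (w * c) := by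
        rw [mul_assoc, mul_assoc, t.comm, hc.eq, mul_assoc, mul_assoc, (h.ac n).sq, mul_one]
      rw [hg, neg_mul, map_neg, neg_eq_self] at e1
      exact e1

end Tower

end ring

end Vale.Agent.P085.R2
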