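import Vale.Agent.P085.R2a

/-! Part R2: the design of a mixing Pauli tower. -/

namespace Vale.Agent.P085.R2

open scoped InnerProductSpace ComplexOrder ComplexConjugate
open Vale.Agent.P104 Vale.Agent.P104.F Filter Topology Finset

lemma tendsto_zero_of_drop {a : ℕ → ℝ} (h0 : ∀ n, 0 ≤ a n) (h1 : ∀ n, a (n + 1) ≤ a n)
    (h2 : ∃ᶠ n in atTop, a (n + 1) + a n ^ 4 / 256 ≤ a n) : Tendsto a atTop (𝓝 0) := by
  have hb : BddBelow (Set.range a) := ⟨0, by rintro _ ⟨n, rfl⟩; exact h0 n⟩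
  have hl := tendsto_atTop_ciInf (antitone_nat_of_succ_le h1) hb
  have hl0 : 0 ≤ ⨅ i, a i := le_ciInf h0
  generalize ⨅ i, a i = l at hl hl0
  have h3 : Tendsto (fun n => a n - (a (n + 1) + a n ^ 4 / 256)) atTop
      (𝓝 (l - (l + l ^ 4 / 256))) :=
    hl.sub (((tendsto_add_atTop_iff_nat 1).2 hl).add ((hl.pow 4).div_const _))
  have h4 : l - (l + l ^ 4 / 256) ∈ Set.Ici (0 : ℝ) :=
    isClosed_Ici.mem_of_frequently_of_tendsto (h2.mono fun n hn => sub_nonneg.2 hn) h3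
  have h5 : l ^ 4 = 0 := le_antisymm (by simp only [Set.mem_Ici] at h4; linarith) (by positivity)
  rwa [pow_eq_zero_iff (by norm_num) |>.1 h5] at hl

section ring
variable {R : Type*} [Ring R] [StarRing R] [Algebra ℂ R] [StarModule ℂ R]
variable {X Z : ℕ → R}

omit [StarModule ℂ R] in
lemma Tower.Ph_eq (h : Tower X Z) (n : ℕ) (y : R) :
    Ph X Z n y = ((Fintype.card (Om n) : ℂ))⁻¹ • ∑ ω, fam X Z n ω * y * fam X Z n ω := by
  rw [h.sum_eq, card_Om, smul_smul]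
  push_cast
  rw [inv_mul_cancel₀ (by positivity), one_smul]

/-- The centred average as a linear map into `L2`. -/
noncomputable def cen (t : Tr R) (X Z : ℕ → R) (n : ℕ) : R →ₗ[ℂ] t.L2 :=
  ((Fintype.card (Om n) : ℂ))⁻¹ • (∑ ω, t.j.toLinearMap ∘ₗ
    (LinearMap.mulLeft ℂ (fam X Z n ω) ∘ₗ LinearMap.mulRight ℂ (fam X Z n ω))) -
    t.τ.smulRight (t.j 1)

lemma Tower.cen_eq (h : Tower X Z) (t : Tr R) (n : ℕ) (y : R) :
    cen t X Z n y = t.j (Ph X Z n y - t.τ y • 1) := by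
  rw [h.Ph_eq]
  simp [cen, mul_assoc]

lemma Tower.norm_j_Ph (h : Tower X Z) (t : Tr R) (n : ℕ) (y : R) :
    ‖t.j (Ph X Z n y)‖ ≤ ‖t.j y‖ := by
  have e : ∀ ω, ‖t.j (fam X Z n ω * y * fam X Z n ω)‖ = ‖t.j y‖ := fun ω => by
    rw [← sq_eq_sq₀ (norm_nonneg _) (norm_nonneg _), ← t.N_eq, ← t.N_eq,
      t.N_mul_coisom (by rw [h.sa, h.sq]), t.N_isom_mul (by rw [h.sa, h.sq])]
  have hc : (0 : ℝ) < Fintype.card (Om n) := by rw [card_Om]; positivity
  rw [h.Ph_eq, map_smul, norm_smul, map_sum, norm_inv, Complex.norm_natCast,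
    inv_mul_le_iff₀ hc]
  refine (norm_sum_le _ _).trans (le_of_eq ?_)
  simp [e]

lemma Tower.norm_cen (h : Tower X Z) (t : Tr R) (h1 : t.τ 1 = 1) (n : ℕ) (y : R) :
    ‖cen t X Z n y‖ ≤ 2 * ‖t.j y‖ := by
  have e1 : ‖t.j (1 : R)‖ = 1 := by
    rw [← sq_eq_sq₀ (norm_nonneg _) zero_le_one, ← t.N_eq, t.N_one, h1]; simp
  have e2 := t.norm_τ_le 1 y
  rw [star_one, one_mul, e1, one_mul] at e2
  rw [h.cen_eq, map_sub, map_smul]
  refine (norm_sub_le _ _).trans ?_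
  rw [norm_smul, e1]
  linarith [h.norm_j_Ph t n y]

end ring

variable {A : Type*} [CStarAlgebra A] {X Z : ℕ → A}

lemma Tower.lim (h : Tower X Z) (t : Tr A) (h1 : t.τ 1 = 1) (d : ℕ → A)
    (hd : ∀ z : A, star z = z → ‖z‖ ≤ 1 → ∀ δ : ℝ, 0 < δ → ∃ n, t.N (z - d n) ≤ δ)
    (hl : ∀ k, Tendsto (fun n => ‖cen t X Z n (d k)‖) atTop (𝓝 0)) (y : A) :
    Tendsto (fun n => ‖cen t X Z n y‖) atTop (𝓝 0) := by
  have a1 : ∀ z : A, star z = z → ‖z‖ ≤ 1 →
      Tendsto (fun n => ‖cen t X Z n z‖) atTop (𝓝 0) := by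
    intro z hz hz1
    refine Metric.tendsto_atTop.2 fun ε hε => ?_
    obtain ⟨k, hk⟩ := hd z hz hz1 ((ε / 4) ^ 2) (by positivity)
    rw [t.N_eq, sq_le_sq₀ (norm_nonneg _) (by positivity)] at hk
    obtain ⟨N, hN⟩ := Metric.tendsto_atTop.1 (hl k) (ε / 2) (by positivity)
    refine ⟨N, fun n hn => ?_⟩
    have b1 := hN n hn
    rw [Real.dist_eq, sub_zero, abs_norm] at b1 ⊢
    have b2 := h.norm_cen t h1 n (z - d k)
    have b3 : cen t X Z n z = cen t X Z n (z - d k) + cen t X Z n (d k) := by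
      rw [← map_add, sub_add_cancel]
    have b4 := norm_add_le (cen t X Z n (z - d k)) (cen t X Z n (d k))
    rw [b3]; linarith
  have a2 : ∀ z : A, star z = z → Tendsto (fun n => ‖cen t X Z n z‖) atTop (𝓝 0) := by
    intro z hz
    have hp : (0 : ℝ) < ‖z‖ + 1 := by positivity
    have := (a1 ((((‖z‖ + 1)⁻¹ : ℝ) : ℂ) • z) (by simp [hz]) (by
      rw [norm_smul, Complex.norm_real, norm_inv, Real.norm_of_nonneg hp.le,
        inv_mul_le_iff₀ hp]; linarith)).const_mul (‖z‖ + 1)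
    simp only [map_smul, norm_smul, Complex.norm_real, norm_inv, Real.norm_of_nonneg hp.le,
      mul_inv_cancel_left₀ hp.ne', mul_zero] at this
    exact this
  have e : y = (2 : ℂ)⁻¹ • (y + star y) + (-(Complex.I / 2)) • (Complex.I • (y - star y)) := by
    rw [smul_smul, neg_mul, div_mul_eq_mul_div, Complex.I_mul_I]
    module
  have a3 := ((a2 (y + star y) (by simp [add_comm])).const_mul ‖(2 : ℂ)⁻¹‖).add
    ((a2 (Complex.I • (y - star y)) (by simp [smul_sub, neg_add_eq_sub])).const_mul ‖-(Complex.I / 2)‖)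
  rw [mul_zero, mul_zero, add_zero] at a3
  refine squeeze_zero (fun _ => norm_nonneg _) (fun n => ?_) a3
  nth_rw 1 [e]
  rw [map_add, map_smul, map_smul _ (-(Complex.I / 2)), ← norm_smul, ← norm_smul]
  exact norm_add_le _ _

lemma Tower.design (h : Tower X Z) (t : Tr A) (h1 : t.τ 1 = 1)
    (hl : ∀ y, Tendsto (fun n => ‖cen t X Z n y‖) atTop (𝓝 0)) :
    Nonempty (Design t (StarAlgebra.adjoin ℂ (Set.range X ∪ Set.range Z))) := by
  refine ⟨⟨Om, fun N => Fintype.card_pos_iff.1 (by rw [card_Om]; positivity), fam X Z,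
    fam_mem (fun n => StarAlgebra.subset_adjoin _ _ (Or.inl ⟨n, rfl⟩))
      (fun n => StarAlgebra.subset_adjoin _ _ (Or.inr ⟨n, rfl⟩)), h.sa, h.sq, fun x y => ?_,
    fun x => ?_⟩⟩
  · rw [tendsto_iff_norm_sub_tendsto_zero]
    have := (hl x).const_mul ‖t.j (star y)‖
    rw [mul_zero] at this
    refine squeeze_zero (fun _ => norm_nonneg _) (fun n => ?_) this
    have e := t.norm_τ_le (star y) (Ph X Z n x - t.τ x • 1)
    rw [← h.cen_eq, star_star, t.comm, sub_mul, map_sub, h.Ph_eq] at e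
    simpa only [smul_mul_assoc, sum_mul, map_smul, map_sum, smul_eq_mul, one_mul] using e
  · have h4 : Tendsto (fun n : ℕ => ((4 : ℝ)⁻¹) ^ n * t.N x) atTop (𝓝 0) := by
      simpa using (tendsto_pow_atTop_nhds_zero_of_lt_one (r := (4 : ℝ)⁻¹) (by norm_num)
        (by norm_num)).mul_const (t.N x)
    refine squeeze_zero (fun _ => by positivity) (fun n => ?_) h4
    have ho : Orthonormal ℂ fun ω => t.j (fam X Z n ω) := by
      refine ⟨fun ω => ?_, fun ω ω' hne => ?_⟩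
      · rw [← sq_eq_sq₀ (norm_nonneg _) zero_le_one, ← t.N_eq, Tr.N, h.sa, h.sq, h1]; simp
      · exact (t.inner_j _ _).trans (by rw [h.sa]; exact h.orth t n _ _ hne)
    have hb := ho.sum_inner_products_le (t.j x) (s := univ)
    simp only [t.inner_j, h.sa, ← t.N_eq] at hb
    rw [card_Om, inv_pow]
    push_cast
    exact mul_le_mul_of_nonneg_left hb (by positivity)

lemma AC.norm_pav {X Z : A} (h : AC X Z) (y : A) : ‖pav X Z y‖ ≤ ‖y‖ := by
  have e : ∀ k, ‖pauli X Z k * y * pauli X Z k‖ = ‖y‖ := fun k => by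
    have hu : pauli X Z k ∈ unitary A := ⟨by rw [h.sa, h.sq], by rw [h.sa, h.sq]⟩
    rw [CStarRing.norm_mul_mem_unitary _ hu, CStarRing.norm_mem_unitary_mul _ hu]
  rw [pav, norm_smul, norm_inv, inv_mul_le_iff₀ (by norm_num)]
  refine (norm_sum_le _ _).trans (le_of_eq ?_)
  simp [e]

end Vale.Agent.P085.R2
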